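import Vale.Agent.P150.Gau

namespace Vale.Agent.P150

open Finset Real MeasureTheory ProbabilityTheory Filter Topology Matrix

noncomputable def Sm {n : ℕ} (Y : Fin n × Fin n → ℝ) (i j : Fin n) : ℝ :=
  if i < j then Y (i, j) else if j < i then Y (j, i) else √2 * Y (i, i)

def Bad {n : ℕ} (l T : ℝ) (b : Fin n → ℝ) (Y : Fin n × Fin n → ℝ) : Prop :=
  ∃ x : Fin n → ℝ, l * ∑ i, x i ^ 2 < ∑ i, ∑ j, Sm Y i j * (x i * x j) + (∑ i, b i * x i) ^ 2 / T

lemma cont_Sm {n : ℕ} (i j : Fin n) : Continuous fun Y : Fin n × Fin n → ℝ => Sm Y i j := by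
  unfold Sm; split_ifs <;> fun_prop

lemma meas_Bad {n : ℕ} (l T : ℝ) :
    MeasurableSet {p : (Fin n → ℝ) × (Fin n × Fin n → ℝ) | Bad l T p.1 p.2} := by
  refine IsOpen.measurableSet ?_
  simp only [Bad, Set.setOf_exists]
  refine isOpen_iUnion fun x => isOpen_lt continuous_const ?_
  have := fun i j : Fin n => (cont_Sm i j).comp
    (continuous_snd : Continuous fun p : (Fin n → ℝ) × (Fin n × Fin n → ℝ) => p.2)
  refine Continuous.add (continuous_finsetSum _ fun i _ => continuous_finsetSum _ fun j _ =>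
    (this i j).mul continuous_const) (by fun_prop)

lemma meas_Bad' {n : ℕ} (l T : ℝ) (b : Fin n → ℝ) : MeasurableSet {Y | Bad l T b Y} :=
  (measurable_prodMk_left (x := b)) (meas_Bad l T)

noncomputable def Sig (n : ℕ) : (Fin n × Fin n → ℝ) →ₗ[ℝ] (Fin n × Fin n → ℝ) where
  toFun X p := if p.1 < p.2 then (X p + X p.swap) / √2 else
    if p.2 < p.1 then (X p - X p.swap) / √2 else X p
  map_add' X Y := by
    funext p; simp only [Pi.add_apply]; split_ifs <;> ring
  map_smul' c X := by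
    funext p; simp only [Pi.smul_apply, smul_eq_mul, RingHom.id_apply]; split_ifs <;> ring

lemma Sig_apply {n : ℕ} (X : Fin n × Fin n → ℝ) (p : Fin n × Fin n) : Sig n X p =
    if p.1 < p.2 then (X p + X p.swap) / √2 else
      if p.2 < p.1 then (X p - X p.swap) / √2 else X p := rfl

lemma Sig_iso {n : ℕ} (X : Fin n × Fin n → ℝ) : ∑ p, Sig n X p ^ 2 = ∑ p, X p ^ 2 := by
  have s1 := Equiv.sum_comp (Equiv.prodComm (Fin n) (Fin n)) fun p => Sig n X p ^ 2
  have s2 := Equiv.sum_comp (Equiv.prodComm (Fin n) (Fin n)) fun p => X p ^ 2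
  have h : ∑ p, (Sig n X p ^ 2 + Sig n X p.swap ^ 2) = ∑ p, (X p ^ 2 + X p.swap ^ 2) := by
    refine sum_congr rfl fun ⟨i, j⟩ _ => ?_
    have h2 : √2 ^ 2 = 2 := sq_sqrt (by norm_num)
    rcases lt_trichotomy i j with h | h | h
    · simp only [Sig_apply, Prod.swap_prod_mk, h, h.not_gt, if_true, if_false, div_pow, h2]; ring
    · simp [Sig_apply, h]
    · simp only [Sig_apply, Prod.swap_prod_mk, h, h.not_gt, if_true, if_false, div_pow, h2]; ring
  simp only [Equiv.prodComm_apply] at s1 s2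
  simp only [sum_add_distrib] at h
  linarith

lemma Sm_Sig {n : ℕ} (X : Fin n × Fin n → ℝ) (x : Fin n → ℝ) :
    ∑ i, ∑ j, Sm (Sig n X) i j * (x i * x j) = √2 * (x ⬝ᵥ (Matrix.of fun i j => X (i, j)) *ᵥ x) := by
  have h2 : √2 * √2 = 2 := mul_self_sqrt (by norm_num)
  have h0 : √2 ≠ 0 := by positivity
  have e : ∀ i j, Sm (Sig n X) i j = √2 / 2 * X (i, j) + √2 / 2 * X (j, i) := by
    intro i j
    have a : ∀ y : ℝ, y / √2 = √2 / 2 * y := fun y => by field_simp; rw [sq, h2]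
    rcases lt_trichotomy i j with h | h | h
    · simp only [Sm, Sig_apply, Prod.swap_prod_mk, h, if_true, a]; ring
    · simp only [Sm, Sig_apply, h, lt_irrefl, if_false]; ring
    · simp only [Sm, Sig_apply, Prod.swap_prod_mk, h, h.not_gt, if_true, if_false, a]; ring
  simp only [e, add_mul, sum_add_distrib]
  rw [sum_comm (f := fun i j => √2 / 2 * X (j, i) * (x i * x j)), ← sum_add_distrib]
  simp only [dotProduct, mulVec, of_apply, mul_sum, ← sum_add_distrib]
  exact sum_congr rfl fun i _ => sum_congr rfl fun j _ => by ring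

noncomputable def Rot {n : ℕ} (O : Matrix (Fin n) (Fin n) ℝ) :
    (Fin n × Fin n → ℝ) →ₗ[ℝ] (Fin n × Fin n → ℝ) where
  toFun X p := (O * (Matrix.of fun i j => X (i, j)) * O) p.1 p.2
  map_add' X Y := by
    funext p
    rw [show (Matrix.of fun i j => (X + Y) (i, j)) = (Matrix.of fun i j => X (i, j))
      + Matrix.of fun i j => Y (i, j) from rfl, Matrix.mul_add, Matrix.add_mul]
    rfl
  map_smul' c X := by
    funext p
    rw [show (Matrix.of fun i j => (c • X) (i, j)) = c • (Matrix.of fun i j => X (i, j)) from rfl,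
      Matrix.mul_smul, Matrix.smul_mul]
    rfl

lemma Rot_iso {n : ℕ} {O : Matrix (Fin n) (Fin n) ℝ} (hs : Oᵀ = O) (hO : O * O = 1)
    (X : Fin n × Fin n → ℝ) : ∑ p, Rot O X p ^ 2 = ∑ p, X p ^ 2 := by
  have t : ∀ M : Matrix (Fin n) (Fin n) ℝ, ∑ p : Fin n × Fin n, M p.1 p.2 ^ 2 = (M * Mᵀ).trace := by
    intro M
    simp [Fintype.sum_prod_type, trace, Matrix.mul_apply, sq]
  set M : Matrix (Fin n) (Fin n) ℝ := Matrix.of fun i j => X (i, j)
  have a := t (O * M * O)
  have b := t M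
  rw [transpose_mul, transpose_mul, hs, show O * M * O * (O * (Mᵀ * O)) = O * M * (O * O) * Mᵀ * O by
    simp only [Matrix.mul_assoc], hO, Matrix.mul_one, trace_mul_comm, ← Matrix.mul_assoc,
    ← Matrix.mul_assoc, hO, Matrix.one_mul, ← b] at a
  exact a

lemma Bad_rot {n : ℕ} (l T : ℝ) {O : Matrix (Fin n) (Fin n) ℝ} (hs : Oᵀ = O) (hO : O * O = 1)
    (b : Fin n → ℝ) : gm _ {Y | Bad l T b Y} ≤ gm _ {Y | Bad l T (O *ᵥ b) Y} := by
  have m1 := mp_iso (Sig n) Sig_iso
  rw [← (m1.comp (mp_iso (Rot O) (Rot_iso hs hO))).measure_preimage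
    (meas_Bad' l T b).nullMeasurableSet, ← m1.measure_preimage (meas_Bad' l T _).nullMeasurableSet]
  refine measure_mono fun X hX => ?_
  obtain ⟨x, hx⟩ := hX
  refine ⟨O *ᵥ x, ?_⟩
  have d : ∀ u v : Fin n → ℝ, (O *ᵥ u) ⬝ᵥ v = u ⬝ᵥ O *ᵥ v := fun u v => by
    rw [dotProduct_mulVec, ← mulVec_transpose, hs]
  have d2 : ∀ u v : Fin n → ℝ, ∑ i, (O *ᵥ u) i * (O *ᵥ v) i = ∑ i, u i * v i := fun u v => by
    have := d u (O *ᵥ v)
    rwa [mulVec_mulVec, hO, one_mulVec] at this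
  simp only [Function.comp_apply, Sm_Sig] at hx ⊢
  rw [d2, d, mulVec_mulVec, mulVec_mulVec]
  simp only [sq] at hx ⊢
  rw [d2]
  exact hx

lemma householder {n : ℕ} (b : Fin (n + 1) → ℝ) : ∃ O : Matrix (Fin (n + 1)) (Fin (n + 1)) ℝ,
    Oᵀ = O ∧ O * O = 1 ∧ O *ᵥ b = Pi.single 0 (√(∑ i, b i ^ 2)) := by
  set r := √(∑ i, b i ^ 2) with hr
  have hr2 : r ^ 2 = b ⬝ᵥ b := by
    rw [hr, sq_sqrt (sum_nonneg fun _ _ => sq_nonneg _)]; simp [dotProduct, sq]
  set u : Fin (n + 1) → ℝ := b - Pi.single 0 r with hu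
  have h1 : u ⬝ᵥ u = 2 * (u ⬝ᵥ b) := by
    simp only [hu, sub_dotProduct, dotProduct_sub, single_dotProduct, dotProduct_single, ← hr2,
      Pi.sub_apply, Pi.single_eq_same]
    ring
  by_cases h0 : u ⬝ᵥ u = 0
  · refine ⟨1, transpose_one, one_mul _, ?_⟩
    rw [one_mulVec, ← sub_eq_zero]
    exact dotProduct_self_eq_zero.1 h0
  refine ⟨1 - (2 / (u ⬝ᵥ u)) • vecMulVec u u, by simp, ?_, ?_⟩
  · simp only [Matrix.sub_mul, Matrix.mul_sub, Matrix.one_mul, Matrix.mul_one, Matrix.smul_mul,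
      Matrix.mul_smul, vecMulVec_mul_vecMulVec, vecMulVec_smul, smul_smul]
    ext i j
    simp only [Matrix.sub_apply, Matrix.smul_apply, smul_eq_mul]
    field_simp; ring
  · rw [sub_mulVec, one_mulVec, smul_mulVec, vecMulVec_mulVec]
    funext i
    have : 2 / (u ⬝ᵥ u) * (u i * (u ⬝ᵥ b)) = u i := by
      rw [show u ⬝ᵥ b = u ⬝ᵥ u / 2 by linarith]; field_simp
    simp only [Pi.sub_apply, Pi.smul_apply, smul_eq_mul, MulOpposite.smul_eq_mul_unop,
      MulOpposite.unop_op, this]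
    simp [hu]

lemma Bad_step {n : ℕ} {l T R δ r : ℝ} (hT : 0 < T) (hl : δ + T + R / T ≤ l) (hr : r ^ 2 ≤ R)
    {Y : Fin (n + 1) × Fin (n + 1) → ℝ} (h : Bad l T (Pi.single 0 r) Y)
    (ha : √2 * Y (0, 0) ≤ δ) :
    Bad l T (fun j : Fin n => Y (0, j.succ)) fun p => Y (p.1.succ, p.2.succ) := by
  obtain ⟨x, hx⟩ := h
  refine ⟨fun i => x i.succ, ?_⟩
  have e1 : ∀ i j : Fin n, Sm Y i.succ j.succ = Sm (fun p => Y (p.1.succ, p.2.succ)) i j := by
    intro i j; simp [Sm]
  have e2 : ∀ j : Fin n, Sm Y 0 j.succ = Y (0, j.succ) := fun j => by simp [Sm]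
  have e3 : ∀ j : Fin n, Sm Y j.succ 0 = Y (0, j.succ) := fun j => by simp [Sm]
  have e4 : Sm Y 0 0 = √2 * Y (0, 0) := by simp [Sm]
  simp only [Fin.sum_univ_succ, e1, e2, e3, e4, sum_add_distrib, Pi.single_eq_same,
    Pi.single_eq_of_ne (Fin.succ_ne_zero _), zero_mul, sum_const_zero, add_zero] at hx
  set s := ∑ i : Fin n, Y (0, i.succ) * x i.succ with hs
  have f1 : ∑ i : Fin n, Y (0, i.succ) * (x 0 * x i.succ) = x 0 * s := by
    rw [hs, mul_sum]; exact sum_congr rfl fun _ _ => by ring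
  have f2 : ∑ i : Fin n, Y (0, i.succ) * (x i.succ * x 0) = x 0 * s := by
    rw [hs, mul_sum]; exact sum_congr rfl fun _ _ => by ring
  rw [f1, f2] at hx
  have g1 : 2 * (x 0 * s) ≤ T * x 0 ^ 2 + s ^ 2 / T := by
    have : T * x 0 ^ 2 + s ^ 2 / T - 2 * (x 0 * s) = (T * x 0 - s) ^ 2 / T := by field_simp; ring
    have : 0 ≤ (T * x 0 - s) ^ 2 / T := by positivity
    linarith
  have g2 : (r * x 0) ^ 2 / T ≤ R / T * x 0 ^ 2 := by
    rw [mul_pow, div_mul_eq_mul_div]
    gcongr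
  have g3 := mul_le_mul_of_nonneg_right ha (sq_nonneg (x 0))
  have g4 := mul_le_mul_of_nonneg_right hl (sq_nonneg (x 0))
  nlinarith

lemma Bad_prob {l T R δ : ℝ} (hT : 0 < T) (hδ : 0 < δ) (hl : δ + T + R / T ≤ l) {τ : ℝ} {N : ℕ}
    (hτ : ∀ n ≤ N, (gm (Fin n)).real {b | R ≤ ∑ i, b i ^ 2} ≤ τ) (n : ℕ) (hn : n ≤ N)
    (b : Fin n → ℝ) (hb : ∑ i, b i ^ 2 ≤ R) :
    (gm _).real {Y | Bad l T b Y} ≤ n * (τ + 8 * M6 / δ ^ 6) := by
  induction n with
  | zero =>
    have : {Y | Bad l T b Y} = ∅ := by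
      ext Y; simp [Bad]
    simp [this]
  | succ n ih =>
    obtain ⟨O, h1, h2, h3⟩ := householder b
    have a1 : (gm _).real {Y | Bad l T b Y} ≤ (gm _).real {Y | Bad l T (O *ᵥ b) Y} :=
      ENNReal.toReal_mono (measure_ne_top _ _) (Bad_rot l T h1 h2 b)
    refine a1.trans ?_
    rw [h3]
    set A : Set (Fin (n + 1) × Fin (n + 1) → ℝ) := (fun Y (_ : Unit) => Y (0, 0)) ⁻¹'
      {ω | δ ^ 6 / 8 ≤ ∑ i, ω i ^ 6} with hA
    set B : Set (Fin (n + 1) × Fin (n + 1) → ℝ) := (fun Y (j : Fin n) => Y (0, j.succ)) ⁻¹'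
      {b | R ≤ ∑ i, b i ^ 2} with hB
    set S : Set ((Fin n → ℝ) × (Fin n × Fin n → ℝ)) :=
      {p | ∑ i, p.1 i ^ 2 ≤ R} ∩ {p | Bad l T p.1 p.2} with hS
    have mS : MeasurableSet S :=
      (measurableSet_le (by fun_prop) measurable_const).inter (meas_Bad l T)
    set C : Set (Fin (n + 1) × Fin (n + 1) → ℝ) := (fun Y => (fun j : Fin n => Y (0, j.succ),
      fun p : Fin n × Fin n => Y (p.1.succ, p.2.succ))) ⁻¹' S with hC
    have sub : {Y | Bad l T (Pi.single 0 √(∑ i, b i ^ 2)) Y} ⊆ A ∪ B ∪ C := by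
      intro Y hY
      by_cases c1 : √2 * Y (0, 0) ≤ δ
      · by_cases c2 : ∑ j : Fin n, Y (0, j.succ) ^ 2 ≤ R
        · exact Or.inr ⟨c2, Bad_step hT hl
            (by rwa [sq_sqrt (sum_nonneg fun _ _ => sq_nonneg _)]) hY c1⟩
        · exact Or.inl (Or.inr (not_le.1 c2).le)
      · refine Or.inl (Or.inl ?_)
        have := pow_le_pow_left₀ hδ.le (not_le.1 c1).le 6
        rw [mul_pow, show √2 ^ 6 = (√2 ^ 2) ^ 3 by ring, sq_sqrt (by norm_num)] at this
        simp only [hA, Set.mem_preimage, Set.mem_setOf_eq, univ_unique, sum_singleton]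
        linarith
    have bA : (gm _).real A ≤ 8 * M6 / δ ^ 6 := by
      rw [hA, (mp_inj (fun _ : Unit => ((0, 0) : Fin (n + 1) × Fin (n + 1)))
        fun _ _ _ => rfl).measureReal_preimage
        (measurableSet_le measurable_const (by fun_prop)).nullMeasurableSet]
      refine (tail6 _ (by positivity)).trans (le_of_eq ?_)
      simp only [Fintype.card_unique, Nat.cast_one]; field_simp
    have bB : (gm _).real B ≤ τ := by
      rw [hB, (mp_inj (fun j : Fin n => ((0, j.succ) : Fin (n + 1) × Fin (n + 1)))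
        fun _ _ h => by simpa using h).measureReal_preimage
        (measurableSet_le measurable_const (by fun_prop)).nullMeasurableSet]
      exact hτ n (by omega)
    have bC : (gm _).real C ≤ n * (τ + 8 * M6 / δ ^ 6) := by
      have hp : 0 ≤ n * (τ + 8 * M6 / δ ^ 6) :=
        mul_nonneg (Nat.cast_nonneg _) (add_nonneg (measureReal_nonneg.trans bB)
          (measureReal_nonneg.trans bA))
      rw [hC, (mp_split (fun j : Fin n => ((0, j.succ) : Fin (n + 1) × Fin (n + 1)))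
        (fun p : Fin n × Fin n => (p.1.succ, p.2.succ)) ?_).measureReal_preimage
        mS.nullMeasurableSet]
      · refine ENNReal.toReal_le_of_le_ofReal hp ?_
        rw [Measure.prod_apply mS]
        refine (lintegral_mono (g := fun _ => ENNReal.ofReal (n * (τ + 8 * M6 / δ ^ 6)))
          fun b' => ?_).trans (by simp)
        by_cases c : ∑ i, b' i ^ 2 ≤ R
        · refine le_trans (measure_mono fun Y hY => hY.2) ?_
          exact (ENNReal.le_ofReal_iff_toReal_le (measure_ne_top _ _) hp).2 (ih (by omega) b' c)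
        · have : Prod.mk b' ⁻¹' S = ∅ := by
            ext Y; simp [hS, c]
          simp [this]
      · rintro (a | a) (b | b) h
        · simpa using h
        · exact absurd (congrArg Prod.fst h).symm (Fin.succ_ne_zero _)
        · exact absurd (congrArg Prod.fst h) (Fin.succ_ne_zero _)
        · simp only [Sum.elim_inr, Prod.mk.injEq, Fin.succ_inj] at h
          rw [Prod.ext h.1 h.2]
    refine (measureReal_mono sub).trans ((measureReal_union_le _ _).trans ?_)
    have := measureReal_union_le (μ := gm _) A B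
    push_cast
    linarith

end Vale.Agent.P150
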