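import Vale.Agent.P150.Loc

namespace Vale.Agent.P150

open Finset Real

variable {ι : Type} [Fintype ι] [DecidableEq ι]

noncomputable def wt (J : Matrix ι ι ℝ) (h : ι → ℝ) (x : ι → Bool) : ℝ :=
  exp ((∑ i, ∑ j, J i j * spin (x i) * spin (x j)) / 2 + ∑ i, h i * spin (x i))

noncomputable def lf (J : Matrix ι ι ℝ) (h : ι → ℝ) (x : ι → Bool) (i : ι) : ℝ :=
  ∑ j, J i j * spin (x j) + h i

omit [DecidableEq ι] in
lemma wt_pos (J : Matrix ι ι ℝ) (h : ι → ℝ) (x : ι → Bool) : 0 < wt J h x := exp_pos _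

omit [Fintype ι] in
lemma spin_fl' (i k : ι) (x : ι → Bool) :
    spin (fl i x k) = spin (x k) - if k = i then 2 * spin (x i) else 0 := by
  split_ifs with e
  · subst e; rw [spin_fl]; ring
  · rw [fl_ne e]; ring

lemma lin_fl (a : ι → ℝ) (i : ι) (x : ι → Bool) :
    ∑ k, a k * spin (fl i x k) = ∑ k, a k * spin (x k) - 2 * a i * spin (x i) := by
  simp only [spin_fl', mul_sub, sum_sub_distrib, mul_ite, mul_zero, sum_ite_eq', mem_univ, if_true]
  ring

lemma lf_fl (J : Matrix ι ι ℝ) (h : ι → ℝ) (x : ι → Bool) (i j : ι) :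
    lf J h (fl j x) i = lf J h x i - 2 * J i j * spin (x j) := by
  unfold lf; rw [lin_fl]; ring

lemma wt_fl {J : Matrix ι ι ℝ} (hs : ∀ i j, J i j = J j i) (hd : ∀ i, J i i = 0) (h : ι → ℝ)
    (x : ι → Bool) (i : ι) :
    wt J h (fl i x) = wt J h x * exp (-2 * (spin (x i) * lf J h x i)) := by
  unfold wt
  rw [← Real.exp_add]
  congr 1
  have e : ∀ x : ι → Bool, ∑ i, ∑ j, J i j * spin (x i) * spin (x j)
      = ∑ i, (∑ j, J i j * spin (x j)) * spin (x i) := fun x =>
    sum_congr rfl fun i _ => by rw [sum_mul]; exact sum_congr rfl fun j _ => by ring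
  have e2 : ∑ k, J k i * spin (x k) = ∑ k, J i k * spin (x k) :=
    sum_congr rfl fun k _ => by rw [hs]
  have e3 : ∑ k, (∑ j, J k j * spin (x j) - 2 * J k i * spin (x i)) * spin (x k)
      = ∑ k, (∑ j, J k j * spin (x j)) * spin (x k) - 2 * spin (x i) * ∑ k, J i k * spin (x k) := by
    rw [← e2, mul_sum, ← sum_sub_distrib]
    exact sum_congr rfl fun k _ => by ring
  rw [e, e]
  simp only [lin_fl]
  rw [e3, hd, lf]
  ring

noncomputable def rt (J : Matrix ι ι ℝ) (h : ι → ℝ) (i : ι) (x : ι → Bool) : ℝ :=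
  exp (-(spin (x i) * lf J h x i))

lemma wr_fl {J : Matrix ι ι ℝ} (hs : ∀ i j, J i j = J j i) (hd : ∀ i, J i i = 0) (h : ι → ℝ)
    (x : ι → Bool) (i : ι) : wt J h (fl i x) * rt J h i (fl i x) = wt J h x * rt J h i x := by
  rw [wt_fl hs hd, rt, rt, lf_fl, hd, spin_fl, mul_assoc, ← Real.exp_add]
  congr 2; ring

lemma pair_nonneg {J : Matrix ι ι ℝ} (hs : ∀ i j, J i j = J j i) (hd : ∀ i, J i i = 0) (h : ι → ℝ)
    (g : (ι → Bool) → ℝ) {i j : ι} (hij : i ≠ j) :
    0 ≤ ∑ x, wt J h x * (rt J h i x * (g x - g (fl i x)) * (rt J h j x * (g x - g (fl j x)))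
      * (1 + tanh (J i j) * (spin (x i) * spin (x j)))) := by
  set W : (ι → Bool) → ℝ := fun x =>
    wt J h x * rt J h i x * rt J h j x * exp (J i j * (spin (x i) * spin (x j))) with hW
  have hWp : ∀ x, 0 < W x := fun x =>
    mul_pos (mul_pos (mul_pos (wt_pos _ _ _) (exp_pos _)) (exp_pos _)) (exp_pos _)
  have aux : ∀ {i j : ι}, i ≠ j → ∀ x, rt J h j (fl i x) * exp (J i j * (-spin (x i) * spin (x j)))
      = rt J h j x * exp (J i j * (spin (x i) * spin (x j))) := by
    intro i j hij x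
    rw [rt, rt, lf_fl, fl_ne hij.symm, ← Real.exp_add, ← Real.exp_add, hs j i]
    congr 1; ring
  have hi : ∀ x, W (fl i x) = W x := by
    intro x
    simp only [hW]
    rw [wr_fl hs hd, spin_fl, fl_ne hij.symm, mul_assoc, aux hij, ← mul_assoc]
  have hj : ∀ x, W (fl j x) = W x := by
    intro x
    have := aux hij.symm x
    rw [hs j i, mul_comm (spin (x j)), mul_comm (-spin (x j))] at this
    simp only [hW]
    rw [mul_right_comm (wt J h (fl j x)), wr_fl hs hd, spin_fl, fl_ne hij, mul_assoc, this]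
    ring
  have e : ∀ x, wt J h x * (rt J h i x * (g x - g (fl i x)) * (rt J h j x * (g x - g (fl j x)))
      * (1 + tanh (J i j) * (spin (x i) * spin (x j))))
      = (cosh (J i j))⁻¹ * (W x * ((g x - g (fl i x)) * (g x - g (fl j x)))) := by
    intro x
    have : 1 + tanh (J i j) * (spin (x i) * spin (x j))
        = (cosh (J i j))⁻¹ * exp (J i j * (spin (x i) * spin (x j))) := by
      have hc := (cosh_pos (J i j)).ne'
      have h1 := Real.cosh_add_sinh (J i j)
      have h2 := Real.cosh_sub_sinh (J i j)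
      rw [Real.tanh_eq_sinh_div_cosh]
      cases x i <;> cases x j <;> simp only [spin, if_true, Bool.false_eq_true, if_false, mul_neg,
        neg_mul, neg_neg, mul_one, ← h1, ← h2] <;> field_simp <;> ring
    rw [this]; simp only [hW]; ring
  simp only [e, ← mul_sum]
  refine mul_nonneg (inv_nonneg.2 (cosh_pos _).le) ?_
  set G : (ι → Bool) → ℝ := fun x => W x * ((g x - g (fl i x)) * (g x - g (fl j x))) with hG
  have s1 := sum_fl i G
  have s2 := sum_fl j G
  have s3 := (sum_fl j fun x => G (fl i x)).trans s1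
  have s4 : 0 ≤ ∑ x, (G x + G (fl i x) + G (fl j x) + G (fl i (fl j x))) := by
    refine sum_nonneg fun x _ => ?_
    have : G x + G (fl i x) + G (fl j x) + G (fl i (fl j x))
        = W x * (g x - g (fl i x) - g (fl j x) + g (fl i (fl j x))) ^ 2 := by
      simp only [hG, hi, hj, fl_fl, fl_comm j i]
      ring
    rw [this]; exact mul_nonneg (hWp x).le (sq_nonneg _)
  simp only [sum_add_distrib] at s4
  change 0 ≤ ∑ x, G x
  linarith

noncomputable def Lop (J : Matrix ι ι ℝ) (h : ι → ℝ) (g : (ι → Bool) → ℝ) (x : ι → Bool) : ℝ :=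
  ∑ i, rt J h i x * (g x - g (fl i x))

lemma bochner {J : Matrix ι ι ℝ} (hs : ∀ i j, J i j = J j i) (hd : ∀ i, J i i = 0) (h : ι → ℝ)
    {l : ℝ} (hl : ∀ v : ι → ℝ, ∑ i, ∑ j, tanh (J i j) * (v i * v j) ≤ l * ∑ i, v i ^ 2)
    (g : (ι → Bool) → ℝ) :
    (1 - l) * ∑ x, wt J h x * ∑ i, (rt J h i x * (g x - g (fl i x))) ^ 2
      ≤ ∑ x, wt J h x * Lop J h g x ^ 2 := by
  set u : ι → (ι → Bool) → ℝ := fun i x => rt J h i x * (g x - g (fl i x)) with hu
  have a1 : ∑ x, wt J h x * ∑ i, u i x ^ 2 ≤ ∑ x, wt J h x * ∑ i, ∑ j,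
      u i x * u j x * (1 + tanh (J i j) * (spin (x i) * spin (x j))) := by
    simp only [mul_sum]
    rw [sum_comm, sum_comm (f := fun x i => ∑ j, wt J h x *
      (u i x * u j x * (1 + tanh (J i j) * (spin (x i) * spin (x j)))))]
    refine sum_le_sum fun i _ => ?_
    rw [sum_comm, ← Finset.add_sum_erase _ _ (mem_univ i)]
    have : 0 ≤ ∑ j ∈ univ.erase i, ∑ x, wt J h x *
        (u i x * u j x * (1 + tanh (J i j) * (spin (x i) * spin (x j)))) :=
      sum_nonneg fun j hj => pair_nonneg hs hd h g (ne_of_mem_erase hj).symm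
    simp only [hd, tanh_zero, zero_mul, add_zero, mul_one, ← sq]
    linarith
  have a2 : ∀ x, ∑ i, ∑ j, u i x * u j x * (1 + tanh (J i j) * (spin (x i) * spin (x j)))
      ≤ Lop J h g x ^ 2 + l * ∑ i, u i x ^ 2 := by
    intro x
    have b := hl fun i => spin (x i) * u i x
    simp only [mul_pow, spin_sq, one_mul] at b
    have c : Lop J h g x ^ 2 = ∑ i, ∑ j, u i x * u j x := by rw [sq, Lop, sum_mul_sum]
    refine le_trans (le_of_eq ?_) (add_le_add le_rfl b)
    rw [c, ← sum_add_distrib]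
    refine sum_congr rfl fun i _ => ?_
    rw [← sum_add_distrib]
    exact sum_congr rfl fun j _ => by ring
  have a3 := sum_le_sum fun x (_ : x ∈ univ) =>
    mul_le_mul_of_nonneg_left (a2 x) (wt_pos J h x).le
  have a4 : ∑ x, wt J h x * (Lop J h g x ^ 2 + l * ∑ i, u i x ^ 2)
      = ∑ x, wt J h x * Lop J h g x ^ 2 + l * ∑ x, wt J h x * ∑ i, u i x ^ 2 := by
    rw [mul_sum, ← sum_add_distrib]
    exact sum_congr rfl fun x _ => by ring
  change (1 - l) * ∑ x, wt J h x * ∑ i, u i x ^ 2 ≤ _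
  linarith

lemma ibp {J : Matrix ι ι ℝ} (hs : ∀ i j, J i j = J j i) (hd : ∀ i, J i i = 0) (h : ι → ℝ)
    (p g : (ι → Bool) → ℝ) : ∑ x, wt J h x * (p x * Lop J h g x)
      = ∑ x, wt J h x * ∑ i, (p x - p (fl i x)) / 2 * (rt J h i x * (g x - g (fl i x))) := by
  simp only [Lop, mul_sum]
  rw [sum_comm, sum_comm (f := fun x i => wt J h x *
    ((p x - p (fl i x)) / 2 * (rt J h i x * (g x - g (fl i x)))))]
  refine sum_congr rfl fun i _ => ?_
  have s := sum_fl i fun x => wt J h x * rt J h i x * (p x * (g x - g (fl i x)))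
  simp only [wr_fl hs hd, fl_fl] at s
  have e : ∑ x, wt J h x * ((p x - p (fl i x)) / 2 * (rt J h i x * (g x - g (fl i x))))
      = (∑ x, wt J h x * rt J h i x * (p x * (g x - g (fl i x)))
        + ∑ x, wt J h x * rt J h i x * (p (fl i x) * (g (fl i x) - g x))) / 2 := by
    rw [← sum_add_distrib, sum_div]
    exact sum_congr rfl fun x _ => by ring
  rw [e, s, add_self_div_two]
  exact sum_congr rfl fun x _ => by ring

lemma solve {J : Matrix ι ι ℝ} (hs : ∀ i j, J i j = J j i) (hd : ∀ i, J i i = 0) (h : ι → ℝ)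
    {l : ℝ} (hl1 : l < 1)
    (hl : ∀ v : ι → ℝ, ∑ i, ∑ j, tanh (J i j) * (v i * v j) ≤ l * ∑ i, v i ^ 2)
    (p : (ι → Bool) → ℝ) (hp : ∑ x, wt J h x * p x = 0) : ∃ g, Lop J h g = p := by
  let T : ((ι → Bool) → ℝ) →ₗ[ℝ] ((ι → Bool) → ℝ) :=
    { toFun := fun g x => Lop J h g x + ∑ y, wt J h y * g y
      map_add' := fun g g' => by
        funext x
        simp only [Lop, Pi.add_apply, mul_add, sum_add_distrib, mul_sub, sum_sub_distrib]
        ring
      map_smul' := fun c g => by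
        funext x
        simp only [Lop, Pi.smul_apply, smul_eq_mul, RingHom.id_apply, mul_add, mul_sum]
        congr 1 <;> exact sum_congr rfl fun _ _ => by ring }
  have hT : ∀ g x, T g x = Lop J h g x + ∑ y, wt J h y * g y := fun _ _ => rfl
  have hW : 0 < ∑ x, wt J h x := tot_pos (wt_pos J h)
  have hm : ∀ g, ∑ x, wt J h x * T g x = 0 → ∑ y, wt J h y * g y = 0 := by
    intro g hg
    have := ibp hs hd h (fun _ => 1) g
    simp only [one_mul, sub_self, zero_div, zero_mul, sum_const_zero, mul_zero] at this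
    simp only [hT, mul_add, sum_add_distrib, this, zero_add, ← sum_mul] at hg
    exact (mul_eq_zero.1 hg).resolve_left hW.ne'
  have inj : Function.Injective T := by
    rw [injective_iff_map_eq_zero]
    intro g hg
    have h0 := hm g (by simp [hg])
    have h1 : ∀ x, Lop J h g x = 0 := fun x => by
      have := hT g x
      rw [hg, h0] at this
      simpa using this.symm
    have h2 := bochner hs hd h hl g
    simp only [h1, ne_eq, OfNat.ofNat_ne_zero, not_false_eq_true, zero_pow, mul_zero,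
      sum_const_zero] at h2
    have h3 : ∑ x, wt J h x * ∑ i, (rt J h i x * (g x - g (fl i x))) ^ 2 ≤ 0 := by
      by_contra c
      push Not at c
      have := mul_pos (sub_pos.2 hl1) c
      linarith
    have nn : ∀ x, 0 ≤ wt J h x * ∑ i, (rt J h i x * (g x - g (fl i x))) ^ 2 := fun x =>
      mul_nonneg (wt_pos J h x).le (sum_nonneg fun _ _ => sq_nonneg _)
    have h4 : ∀ i x, g (fl i x) = g x := by
      intro i x
      have b1 := (sum_eq_zero_iff_of_nonneg fun x _ => nn x).1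
        (le_antisymm h3 (sum_nonneg fun x _ => nn x)) x (mem_univ _)
      have b2 := (mul_eq_zero.1 b1).resolve_left (wt_pos J h x).ne'
      have b3 := (sum_eq_zero_iff_of_nonneg fun _ _ => sq_nonneg _).1 b2 i (mem_univ _)
      have b4 := (mul_eq_zero.1 (pow_eq_zero_iff two_ne_zero |>.1 b3)).resolve_left (exp_pos _).ne'
      linarith
    funext x
    have b : ∑ y, wt J h y * g y = (∑ y, wt J h y) * g x := by
      rw [sum_mul]; exact sum_congr rfl fun y _ => by rw [const_of_fl h4 y x]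
    rw [b] at h0
    exact (mul_eq_zero.1 h0).resolve_left hW.ne'
  obtain ⟨g, hg⟩ := LinearMap.injective_iff_surjective.1 inj p
  refine ⟨g, funext fun x => ?_⟩
  have := hT g x
  rw [hm g (by rw [hg]; exact hp), hg] at this
  simpa using this.symm

lemma cov_bound {J : Matrix ι ι ℝ} (hs : ∀ i j, J i j = J j i) (hd : ∀ i, J i i = 0) (h : ι → ℝ)
    {l : ℝ} (hl1 : l < 1)
    (hl : ∀ v : ι → ℝ, ∑ i, ∑ j, tanh (J i j) * (v i * v j) ≤ l * ∑ i, v i ^ 2) (a : ι → ℝ) :
    ∑ x, wt J h x * (∑ k, a k * spin (x k) - avg (wt J h) (fun x => ∑ k, a k * spin (x k))) ^ 2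
      ≤ (1 - l)⁻¹ * (∑ k, a k ^ 2) * ∑ x, wt J h x := by
  set p : (ι → Bool) → ℝ := fun x =>
    ∑ k, a k * spin (x k) - avg (wt J h) (fun x => ∑ k, a k * spin (x k)) with hp
  obtain ⟨g, hg⟩ := solve hs hd h hl1 hl p (sum_sub_avg (wt_pos J h) _)
  have h1 := ibp hs hd h p g
  have h2 := bochner hs hd h hl g
  rw [hg] at h1 h2
  have hK : 0 < 1 - l := sub_pos.2 hl1
  have h3 : ∀ x, ∑ i, (p x - p (fl i x)) / 2 * (rt J h i x * (g x - g (fl i x)))
      ≤ (1 - l)⁻¹ * (∑ k, a k ^ 2) / 2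
        + (1 - l) * (∑ i, (rt J h i x * (g x - g (fl i x))) ^ 2) / 2 := by
    intro x
    simp only [mul_sum, sum_div, ← sum_add_distrib]
    refine sum_le_sum fun i _ => ?_
    have e : (p x - p (fl i x)) / 2 = a i * spin (x i) := by simp only [hp, lin_fl]; ring
    rw [e]
    set u := rt J h i x * (g x - g (fl i x))
    have e2 : a i ^ 2 = (a i * spin (x i)) ^ 2 := by rw [mul_pow, spin_sq, mul_one]
    rw [e2]
    set b := a i * spin (x i)
    have : (1 - l)⁻¹ * b ^ 2 / 2 + (1 - l) * u ^ 2 / 2 - b * u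
        = (1 - l)⁻¹ * (b - (1 - l) * u) ^ 2 / 2 := by field_simp; ring
    have : 0 ≤ (1 - l)⁻¹ * (b - (1 - l) * u) ^ 2 / 2 := by positivity
    linarith
  have h4 := sum_le_sum fun x (_ : x ∈ univ) => mul_le_mul_of_nonneg_left (h3 x) (wt_pos J h x).le
  rw [← h1] at h4
  simp only [mul_add, sum_add_distrib, ← sum_mul, ← mul_div_assoc, ← sum_div,
    mul_left_comm _ (1 - l), ← mul_sum, ← sq] at h4
  change ∑ x, wt J h x * p x ^ 2 ≤ _
  linarith

lemma tanh_approx (y : ℝ) : |tanh y - y| ≤ |y| ^ 3 := by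
  have key : ∀ y : ℝ, 0 ≤ y → |tanh y - y| ≤ |y| ^ 3 := by
    intro y hy
    have hc := cosh_pos y
    have d : ∀ t, HasDerivAt (fun t => t * cosh t - sinh t) (t * sinh t) t := fun t =>
      (((hasDerivAt_id t).mul (Real.hasDerivAt_cosh t)).sub (Real.hasDerivAt_sinh t)).congr_deriv
        (by simp)
    have m : MonotoneOn (fun t => t * cosh t - sinh t) (Set.Ici 0) :=
      monotoneOn_of_deriv_nonneg (convex_Ici 0) (fun s _ => (d s).continuousAt.continuousWithinAt)
        (fun s _ => (d s).differentiableAt.differentiableWithinAt) fun s hs => by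
          rw [(d s).deriv]
          rw [interior_Ici] at hs
          exact mul_nonneg (le_of_lt hs) (Real.sinh_nonneg_iff.2 (le_of_lt hs))
    have h1 := m (Set.mem_Ici.2 le_rfl) (Set.mem_Ici.2 hy) hy
    simp only [zero_mul, sinh_zero, sub_zero] at h1
    have h2 : tanh y ≤ y := by
      rw [Real.tanh_eq_sinh_div_cosh, div_le_iff₀ hc]; linarith
    have h3 : y - y ^ 3 ≤ tanh y := by
      rw [Real.tanh_eq_sinh_div_cosh, le_div_iff₀ hc]
      have a1 := Real.self_le_sinh_iff.2 hy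
      have a2 := cosh_exp_le y
      have a3 := Real.add_one_le_exp (-(y ^ 2 / 2))
      have a4 := mul_le_mul_of_nonneg_left a3 hc.le
      have a5 : cosh y * (1 - y ^ 2) ≤ 1 := by nlinarith [mul_nonneg hc.le (sq_nonneg y)]
      have a6 := mul_le_mul_of_nonneg_left a5 hy
      nlinarith
    rw [abs_of_nonneg hy, abs_le]
    have : 0 ≤ y ^ 3 := by positivity
    constructor <;> linarith
  rcases le_total 0 y with h | h
  · exact key y h
  · have := key (-y) (by linarith)
    rwa [Real.tanh_neg, abs_neg, ← neg_sub', abs_neg] at this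

omit [DecidableEq ι] in
lemma tanh_form {J : Matrix ι ι ℝ} {l η τ : ℝ} (hl : 0 ≤ l) (hη : 0 ≤ η) (h0 : 0 ≤ τ) (h1 : τ ≤ 1)
    (hJ : ∀ v : ι → ℝ, ∑ i, ∑ j, J i j * (v i * v j) ≤ l * ∑ i, v i ^ 2)
    (h6 : ∑ i, ∑ j, J i j ^ 6 ≤ η ^ 2) (v : ι → ℝ) :
    ∑ i, ∑ j, tanh (τ * J i j) * (v i * v j) ≤ (l + η) * ∑ i, v i ^ 2 := by
  have hv : 0 ≤ ∑ i, v i ^ 2 := sum_nonneg fun _ _ => sq_nonneg _
  have a1 : ∑ i, ∑ j, tanh (τ * J i j) * (v i * v j) ≤
      τ * (∑ i, ∑ j, J i j * (v i * v j)) + ∑ p : ι × ι, |J p.1 p.2| ^ 3 * |v p.1 * v p.2| := by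
    rw [Fintype.sum_prod_type]
    simp only [mul_sum, ← sum_add_distrib]
    refine sum_le_sum fun i _ => sum_le_sum fun j _ => ?_
    have b1 := tanh_approx (τ * J i j)
    have b2 : |τ * J i j| ^ 3 ≤ |J i j| ^ 3 := by
      refine pow_le_pow_left₀ (abs_nonneg _) ?_ 3
      rw [abs_mul, abs_of_nonneg h0]
      exact mul_le_of_le_one_left (abs_nonneg _) h1
    have b3 : (tanh (τ * J i j) - τ * J i j) * (v i * v j) ≤ |J i j| ^ 3 * |v i * v j| := by
      refine (le_abs_self _).trans ?_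
      rw [abs_mul]
      exact mul_le_mul_of_nonneg_right (b1.trans b2) (abs_nonneg _)
    linarith
  have a2 : ∑ p : ι × ι, |J p.1 p.2| ^ 3 * |v p.1 * v p.2| ≤ η * ∑ i, v i ^ 2 := by
    refine abs_le_of_sq_le_sq' ?_ (mul_nonneg hη hv) |>.2
    refine (sum_mul_sq_le_sq_mul_sq _ _ _).trans ?_
    rw [mul_pow]
    refine mul_le_mul ?_ (le_of_eq ?_) (sum_nonneg fun _ _ => sq_nonneg _) (sq_nonneg _)
    · rw [Fintype.sum_prod_type]
      refine le_trans (le_of_eq ?_) h6
      refine sum_congr rfl fun i _ => sum_congr rfl fun j _ => ?_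
      rw [← pow_mul, show 3 * 2 = 6 from rfl, Even.pow_abs (by decide)]
    · rw [Fintype.sum_prod_type, sq (∑ i, v i ^ 2), sum_mul_sum]
      simp only [sq_abs, mul_pow]
  have a3 := mul_le_mul_of_nonneg_left (hJ v) h0
  have a4 := mul_le_of_le_one_left (mul_nonneg hl hv) h1
  linarith

end Vale.Agent.P150
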