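import Vale.Agent.P150.Grad

namespace Vale.Agent.P150

open Finset Real

variable {ι : Type} [Fintype ι] [DecidableEq ι] [Nonempty ι] {μ : (ι → Bool) → ℝ}

lemma Lz_mono (hw : ∀ x, 0 < μ x) {f g : (ι → Bool) → ℝ} (c : ℝ) (h : ∀ y, f y ≤ g y + c)
    (x : ι → Bool) : Lz μ f x ≤ Lz μ g x + c := by
  have hn : (0 : ℝ) < Fintype.card ι := cardp
  have a : ∑ i, pf μ i x * (g x - g (fl i x)) - ∑ i, pf μ i x * (f x - f (fl i x))
      ≤ (2 * Fintype.card ι) * (g x + c - f x) := by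
    rw [← sum_sub_distrib]
    refine (sum_le_sum (g := fun _ => g x + c - f x) fun i _ => ?_).trans ?_
    · nlinarith [mul_le_mul_of_nonneg_left (h (fl i x)) (pf_pos hw i x).le,
        mul_le_mul_of_nonneg_right (pf_le hw i x) (sub_nonneg.2 (h x))]
    · rw [sum_const, card_univ, nsmul_eq_mul]
      nlinarith [mul_nonneg hn.le (sub_nonneg.2 (h x))]
  have b := div_le_div_of_nonneg_right a (by positivity : (0 : ℝ) ≤ 2 * Fintype.card ι)
  rw [mul_div_cancel_left₀ _ (by positivity), sub_div] at b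
  unfold Lz; linarith

lemma it_mono (hw : ∀ x, 0 < μ x) (k : ℕ) {f g : (ι → Bool) → ℝ} (c : ℝ) (h : ∀ y, f y ≤ g y + c)
    (x : ι → Bool) : (Lz μ)^[k] f x ≤ (Lz μ)^[k] g x + c := by
  induction k generalizing x with
  | zero => exact h x
  | succ k ih =>
    rw [Function.iterate_succ_apply', Function.iterate_succ_apply']
    exact Lz_mono hw c ih x

lemma Lz_sq (hw : ∀ x, 0 < μ x) (g : (ι → Bool) → ℝ) (x : ι → Bool) :
    Lz μ (fun y => g y ^ 2) x ≤ Lz μ g x ^ 2 + Gam g x / (2 * Fintype.card ι) := by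
  have hn : (0 : ℝ) < Fintype.card ι := cardp
  have a : 2 * g x * ∑ i, pf μ i x * (g x - g (fl i x))
      - ∑ i, pf μ i x * (g x ^ 2 - g (fl i x) ^ 2) ≤ Gam g x := by
    rw [mul_sum, ← sum_sub_distrib]
    refine sum_le_sum fun i _ => ?_
    nlinarith [mul_le_mul_of_nonneg_right (pf_le hw i x) (sq_nonneg (g x - g (fl i x)))]
  have b := div_le_div_of_nonneg_right a (by positivity : (0 : ℝ) ≤ 2 * Fintype.card ι)
  rw [sub_div, mul_div_assoc] at b
  unfold Lz
  nlinarith [sq_nonneg ((∑ i, pf μ i x * (g x - g (fl i x))) / (2 * Fintype.card ι))]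

lemma it_var (hw : ∀ x, 0 < μ x) {A : ℝ} (hA : 1 ≤ A)
    (hg : ∀ (f : (ι → Bool) → ℝ) (G : ℝ), (∀ y, Gam f y ≤ G) → ∀ x,
      Gam (Lz μ f) x ≤ (1 + A / (2 * Fintype.card ι)) * G)
    {f : (ι → Bool) → ℝ} {G : ℝ} (hG : ∀ y, Gam f y ≤ G) (k : ℕ) (x : ι → Bool) :
    (Lz μ)^[k] (fun y => f y ^ 2) x
      ≤ (Lz μ)^[k] f x ^ 2 + (1 + A / (2 * Fintype.card ι)) ^ k * G := by
  have hn : (0 : ℝ) < Fintype.card ι := cardp
  have G0 : 0 ≤ G := le_trans (sum_nonneg fun _ _ => sq_nonneg _) (hG x)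
  have a : ∀ k y, Gam ((Lz μ)^[k] f) y ≤ (1 + A / (2 * Fintype.card ι)) ^ k * G := by
    intro k
    induction k with
    | zero => simpa using hG
    | succ k ih =>
      intro y
      rw [Function.iterate_succ_apply', pow_succ', mul_assoc]
      exact hg _ _ ih y
  induction k generalizing x with
  | zero => simpa using G0
  | succ k ih =>
    rw [Function.iterate_succ_apply', Function.iterate_succ_apply']
    refine (Lz_mono hw (g := fun y => (Lz μ)^[k] f y ^ 2) _ ih x).trans ?_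
    have b := Lz_sq hw ((Lz μ)^[k] f) x
    have c : Gam ((Lz μ)^[k] f) x / (2 * Fintype.card ι)
        ≤ A / (2 * Fintype.card ι) * ((1 + A / (2 * Fintype.card ι)) ^ k * G) := by
      rw [div_mul_eq_mul_div]
      refine div_le_div_of_nonneg_right ((a k x).trans ?_) (by positivity)
      exact le_mul_of_one_le_left (by positivity) hA
    rw [pow_succ' (1 + A / (2 * Fintype.card ι))]
    linarith

lemma it_lip (hw : ∀ x, 0 < μ x) {f : (ι → Bool) → ℝ} (hf : ∀ i y, |f y - f (fl i y)| ≤ 2)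
    (x : ι → Bool) (k m : ℕ) : ((Lz μ)^[k] f x - (Lz μ)^[m] f x) ^ 2 ≤ ((k : ℝ) - m) ^ 2 := by
  have hn : (0 : ℝ) < Fintype.card ι := cardp
  have a : ∀ y, |Lz μ f y - f y| ≤ 1 := by
    intro y
    rw [Lz, sub_sub_cancel_left, abs_neg, abs_div, abs_of_pos (by positivity : (0 : ℝ) < 2 * _),
      div_le_one (by positivity)]
    refine (abs_sum_le_sum_abs _ _).trans ((sum_le_sum (g := fun _ => 2) fun i _ => ?_).trans ?_)
    · rw [abs_mul, abs_of_pos (pf_pos hw i y)]
      nlinarith [pf_le hw i y, hf i y, pf_pos hw i y]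
    · simp [mul_comm]
  have b : ∀ k, |(Lz μ)^[k + 1] f x - (Lz μ)^[k] f x| ≤ 1 := by
    intro k
    rw [Function.iterate_succ_apply]
    have c1 := it_mono hw k (f := Lz μ f) (g := f) 1 (fun y => by linarith [(abs_le.1 (a y)).2]) x
    have c2 := it_mono hw k (f := f) (g := Lz μ f) 1 (fun y => by linarith [(abs_le.1 (a y)).1]) x
    rw [abs_le]; constructor <;> linarith
  have c : ∀ m d : ℕ, |(Lz μ)^[m + d] f x - (Lz μ)^[m] f x| ≤ d := by
    intro m d
    induction d with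
    | zero => simp
    | succ d ih =>
      have := abs_sub_le ((Lz μ)^[m + d + 1] f x) ((Lz μ)^[m + d] f x) ((Lz μ)^[m] f x)
      have := b (m + d)
      rw [← add_assoc]; push_cast; linarith
  rw [sq_le_sq]
  rcases le_total k m with h | h
  · obtain ⟨d, rfl⟩ := Nat.exists_eq_add_of_le h
    rw [abs_sub_comm]; simpa using c k d
  · obtain ⟨d, rfl⟩ := Nat.exists_eq_add_of_le h
    simpa using c m d

omit [Nonempty ι] in
lemma Lz_inner (hw : ∀ x, 0 < μ x) (u v : (ι → Bool) → ℝ) : ∑ x, μ x * (u x * Lz μ v x)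
    = ∑ x, μ x * (u x * v x) - (∑ i, (∑ x, μ x * (u x * v x) - ∑ x, μ x * (u x * Qop μ i v x)))
      / (2 * Fintype.card ι) := by
  simp only [← sum_sub_distrib]
  rw [sum_comm, sum_div, ← sum_sub_distrib]
  refine sum_congr rfl fun x _ => ?_
  have : ∑ i, (μ x * (u x * v x) - μ x * (u x * Qop μ i v x))
      = μ x * u x * ∑ i, pf μ i x * (v x - v (fl i x)) := by
    rw [mul_sum]; exact sum_congr rfl fun i _ => by rw [Qop_eq hw]; ring
  rw [this, Lz]; ring

omit [Nonempty ι] in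
lemma Lz_symm (hw : ∀ x, 0 < μ x) (u v : (ι → Bool) → ℝ) :
    ∑ x, μ x * (u x * Lz μ v x) = ∑ x, μ x * (v x * Lz μ u x) := by
  simp only [Lz_inner hw, Qop_symm hw _ u v, mul_comm (u _) (v _)]

omit [Nonempty ι] in
lemma Q_psd (hw : ∀ x, 0 < μ x) (i : ι) (u : (ι → Bool) → ℝ) :
    0 ≤ ∑ x, μ x * (u x * Qop μ i u x) := by
  rw [← Qop_adj hw i u (Qop_fl μ i u)]
  exact sum_nonneg fun x _ => mul_nonneg (hw x).le (mul_self_nonneg _)

omit [Nonempty ι] in
lemma it_sub (k : ℕ) (τ : ℝ) (u v : (ι → Bool) → ℝ) :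
    (Lz μ)^[k] (fun y => u y - τ * v y) = fun y => (Lz μ)^[k] u y - τ * (Lz μ)^[k] v y := by
  induction k with
  | zero => rfl
  | succ k ih =>
    simp only [Function.iterate_succ_apply', ih]
    funext y
    have : ∑ i, pf μ i y * ((Lz μ)^[k] u y - τ * (Lz μ)^[k] v y
        - ((Lz μ)^[k] u (fl i y) - τ * (Lz μ)^[k] v (fl i y)))
        = ∑ i, pf μ i y * ((Lz μ)^[k] u y - (Lz μ)^[k] u (fl i y))
          - τ * ∑ i, pf μ i y * ((Lz μ)^[k] v y - (Lz μ)^[k] v (fl i y)) := by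
      rw [mul_sum, ← sum_sub_distrib]; exact sum_congr rfl fun i _ => by ring
    simp only [Lz, this]; ring

lemma it_psd (hw : ∀ x, 0 < μ x) (k : ℕ) (u : (ι → Bool) → ℝ) :
    0 ≤ ∑ x, μ x * (u x * (Lz μ)^[k] u x) := by
  induction k using Nat.twoStepInduction generalizing u with
  | zero => exact sum_nonneg fun x _ => mul_nonneg (hw x).le (mul_self_nonneg _)
  | one =>
    have hn : (0 : ℝ) < Fintype.card ι := cardp
    have a : 0 ≤ ∑ x, μ x * (u x * u x) :=
      sum_nonneg fun x _ => mul_nonneg (hw x).le (mul_self_nonneg _)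
    rw [Function.iterate_one, Lz_inner hw, sub_nonneg, div_le_iff₀ (by positivity)]
    refine (sum_le_sum (g := fun _ => ∑ x, μ x * (u x * u x))
      fun i _ => by linarith [Q_psd hw i u]).trans ?_
    rw [sum_const, card_univ, nsmul_eq_mul]
    nlinarith [mul_nonneg hn.le a]
  | more k ih _ =>
    rw [Function.iterate_succ_apply', Lz_symm hw, Function.iterate_succ_apply]
    simpa only [mul_comm] using ih (Lz μ u)

lemma auto_corr (hw : ∀ x, 0 < μ x) (h1 : ∑ x, μ x = 1) (i : ι) (k : ℕ) :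
    (1 - 1 / (2 * Fintype.card ι)) ^ k
      ≤ ∑ x, μ x * (spin (x i) * (Lz μ)^[k] (fun y => spin (y i)) x) := by
  have hn : (1 : ℝ) ≤ Fintype.card ι := by exact_mod_cast Fintype.card_pos
  set q : ℝ := 1 - 1 / (2 * Fintype.card ι) with hq
  have q0 : 0 ≤ q := by rw [hq, sub_nonneg, div_le_one (by positivity)]; linarith
  set u : (ι → Bool) → ℝ := fun y => spin (y i) with hu
  set c : ℕ → ℝ := fun k => ∑ x, μ x * (u x * (Lz μ)^[k] u x) with hc
  have c0 : c 0 = 1 := by simp [hc, hu, spin_mul, h1]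
  have step : ∀ k, q * c k ≤ c (k + 1) := by
    intro k
    induction k with
    | zero =>
      have e : ∑ x, μ x * (u x * u x) = 1 := c0
      rw [c0, mul_one]
      simp only [hc, zero_add, Function.iterate_one]
      rw [Lz_inner hw, e, sum_eq_single i ?_ (by simp), hq]
      · gcongr
        linarith [Q_psd hw i u]
      · intro j _ hj
        simp only [Qop_eq hw, hu, fl_ne hj.symm, sub_self, mul_zero, sub_zero, spin_mul, mul_one, h1]
    | succ k ih =>
      have a := it_psd hw k fun y => Lz μ u y - q * u y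
      have b := Lz_symm hw u ((Lz μ)^[k + 1] u)
      have d := Lz_symm hw u ((Lz μ)^[k] u)
      rw [← Function.iterate_succ_apply' (Lz μ)] at b d
      rw [it_sub, ← Function.iterate_succ_apply] at a
      have e : ∑ x, μ x * ((Lz μ u x - q * u x) * ((Lz μ)^[k + 1] u x - q * (Lz μ)^[k] u x))
          = ∑ x, μ x * ((Lz μ)^[k + 1] u x * Lz μ u x) - q * ∑ x, μ x * ((Lz μ)^[k] u x * Lz μ u x)
            - q * c (k + 1) + q ^ 2 * c k := by
        simp only [hc, mul_sum, ← sum_sub_distrib, ← sum_add_distrib]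
        exact sum_congr rfl fun x _ => by ring
      rw [e, ← b, ← d] at a
      change 0 ≤ c (k + 1 + 1) - q * c (k + 1) - q * c (k + 1) + q ^ 2 * c k at a
      nlinarith [mul_le_mul_of_nonneg_left ih q0]
  change q ^ k ≤ c k
  induction k with
  | zero => simp [c0]
  | succ k ih => rw [pow_succ']; exact (mul_le_mul_of_nonneg_left ih q0).trans (step k)

lemma cheb {X : Type} [Fintype X] {p q f : X → ℝ} (p0 : ∀ y, 0 ≤ p y) (q0 : ∀ y, 0 ≤ q y)
    (p1 : ∑ y, p y = 1) (q1 : ∑ y, q y = 1) {a V : ℝ} (ha : 0 < a)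
    (hp : ∑ y, p y * (f y - a) ^ 2 ≤ V) (hq : ∑ y, q y * f y ^ 2 ≤ V) :
    2 - 16 * V / a ^ 2 ≤ ∑ y, |p y - q y| := by
  have b : ∀ y, p y + q y - 8 / a ^ 2 * (p y * (f y - a) ^ 2) - 8 / a ^ 2 * (q y * f y ^ 2)
      ≤ |p y - q y| := by
    intro y
    have c : ∀ z : ℝ, a ^ 2 ≤ 4 * z ^ 2 → 2 ≤ 8 / a ^ 2 * z ^ 2 := fun z hz => by
      rw [div_mul_eq_mul_div, le_div_iff₀ (by positivity)]; linarith
    have d1 : 0 ≤ 8 / a ^ 2 * (p y * (f y - a) ^ 2) := by have := p0 y; positivity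
    have d2 : 0 ≤ 8 / a ^ 2 * (q y * f y ^ 2) := by have := q0 y; positivity
    rcases le_total (a / 2) (f y) with h | h
    · nlinarith [mul_le_mul_of_nonneg_left (c (f y) (by nlinarith)) (q0 y), le_abs_self (p y - q y)]
    · nlinarith [mul_le_mul_of_nonneg_left (c (f y - a) (by nlinarith)) (p0 y),
        neg_abs_le (p y - q y)]
  refine le_trans ?_ (sum_le_sum fun y _ => b y)
  simp only [sum_sub_distrib, sum_add_distrib, ← mul_sum, p1, q1]
  have h8 : 0 ≤ 8 / a ^ 2 := by positivity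
  have := mul_le_mul_of_nonneg_left hp h8
  have := mul_le_mul_of_nonneg_left hq h8
  have : 16 * V / a ^ 2 = 8 / a ^ 2 * V + 8 / a ^ 2 * V := by ring
  linarith

lemma pois_sq {s : ℝ} (hs : 0 ≤ s) : ∃ (g : ℕ → ℝ) (S : ℝ), S ≤ 12 * s + 14 ∧
    HasSum (fun k : ℕ => exp (-s) * (s ^ k / k.factorial) * g k) S ∧
    ∀ k : ℕ, ((k : ℝ) - ⌊s⌋₊) ^ 2 ≤ g k := by
  set θ := (√(s + 1))⁻¹ with hθ
  have h1 : θ ^ 2 * (s + 1) = 1 := by
    rw [hθ, inv_pow, sq_sqrt (by linarith), inv_mul_cancel₀ (by linarith)]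
  have θ0 : 0 < θ := inv_pos.2 (sqrt_pos.2 (by linarith))
  have θ1 : θ ≤ 1 := by nlinarith [sq_nonneg θ]
  have a : ∀ τ : ℝ, |τ| = θ → exp (-(s * (1 - exp τ))) * exp (-(τ * s)) ≤ 3 := by
    intro τ hτ
    have b := (abs_le.1 (Real.abs_exp_sub_one_sub_id_le (hτ ▸ θ1))).2
    rw [← sq_abs, hτ] at b
    rw [← Real.exp_add]
    refine le_trans (Real.exp_le_exp.2 (?_ : _ ≤ (1 : ℝ))) (by linarith [Real.exp_one_lt_d9])
    nlinarith [mul_le_mul_of_nonneg_left b hs, sq_nonneg θ]
  have b := ((((hasSum_pois s (exp θ)).mul_right (exp (-(θ * s)))).add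
    ((hasSum_pois s (exp (-θ))).mul_right (exp (-(-θ * s))))).mul_left (2 * (s + 1))).add
    ((hasSum_pois s 1).mul_left 2)
  refine ⟨fun k => 2 * (s + 1) * (exp θ ^ k * exp (-(θ * s)) + exp (-θ) ^ k * exp (-(-θ * s))) + 2,
    _, ?_, b.congr_fun fun k => by simp only [one_pow]; ring, fun k => ?_⟩
  · have := a θ (abs_of_pos θ0)
    have := a (-θ) (by rw [abs_neg, abs_of_pos θ0])
    simp only [sub_self, mul_zero, neg_zero, exp_zero]
    nlinarith
  · have c : ∀ u : ℝ, u ^ 2 ≤ exp u + exp (-u) := by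
      intro u
      rcases le_total 0 u with h | h
      · have d : (u / 2) ^ 2 ≤ sinh (u / 2) ^ 2 :=
          pow_le_pow_left₀ (by linarith) (Real.self_le_sinh_iff.2 (by linarith)) 2
        have e := Real.cosh_two_mul (u / 2)
        rw [Real.cosh_sq', show 2 * (u / 2) = u by ring, Real.cosh_eq] at e
        linarith
      · have d : (-u / 2) ^ 2 ≤ sinh (-u / 2) ^ 2 :=
          pow_le_pow_left₀ (by linarith) (Real.self_le_sinh_iff.2 (by linarith)) 2
        have e := Real.cosh_two_mul (-u / 2)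
        rw [Real.cosh_sq', show 2 * (-u / 2) = -u by ring, Real.cosh_eq, neg_neg] at e
        linarith
    have d := c (θ * (k - s))
    have e1 : exp θ ^ k * exp (-(θ * s)) = exp (θ * (k - s)) := by
      rw [← Real.exp_nat_mul, ← Real.exp_add]; congr 1; ring
    have e2 : exp (-θ) ^ k * exp (-(-θ * s)) = exp (-(θ * (k - s))) := by
      rw [← Real.exp_nat_mul, ← Real.exp_add]; congr 1; ring
    simp only [e1, e2]
    have f1 := Nat.floor_le hs
    have f2 := Nat.lt_floor_add_one s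
    have g1 := mul_le_mul_of_nonneg_left d (by linarith : 0 ≤ s + 1)
    have g2 : (s + 1) * (θ * (k - s)) ^ 2 = (k - s) ^ 2 := by
      rw [mul_pow, ← mul_assoc, mul_comm (s + 1), h1, one_mul]
    have g3 : (s - ⌊s⌋₊) ^ 2 ≤ 1 := by nlinarith
    nlinarith [sq_nonneg ((k - s) - (s - ⌊s⌋₊))]

theorem tv_lower (hw : ∀ x, 0 < μ x) (h1 : ∑ x, μ x = 1) {H : ι → Matrix (ι → Bool) (ι → Bool) ℝ}
    (hH : ∀ i f x, (H i).mulVec f x = Qop μ i f x) {A B : ℝ} (hA : 24 ≤ A) (hB : 19 ≤ B)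
    (hg : ∀ (f : (ι → Bool) → ℝ) (G : ℝ), (∀ y, Gam f y ≤ G) → ∀ x,
      Gam (Lz μ f) x ≤ (1 + A / (2 * Fintype.card ι)) * G)
    (hv : ∀ x : ι → Bool, ∑ y, μ y * (∑ i, spin (x i) * spin (y i)) ^ 2 ≤ B * Fintype.card ι)
    {t : ℝ} (ht : 0 ≤ t) : ∃ x, 2 - 16 * B * exp ((A + 4) * t) / Fintype.card ι
      ≤ ∑ y, |NormedSpace.exp (t • ∑ i, (H i - 1)) x y - μ y| := by
  have hn : (1 : ℝ) ≤ Fintype.card ι := by exact_mod_cast Fintype.card_pos
  set n : ℝ := (Fintype.card ι : ℝ) with hnd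
  set K : Matrix (ι → Bool) (ι → Bool) ℝ := 1 + (2 * n)⁻¹ • ∑ i, (H i - 1) with hK
  set s := 2 * n * t with hs
  have s0 : 0 ≤ s := by positivity
  have eK : t • ∑ i, (H i - 1) = s • (K - 1) := by
    rw [hK, add_sub_cancel_left, smul_smul]; congr 1; rw [hs]; field_simp
  have hKv : ∀ f, K.mulVec f = Lz μ f := by
    intro f; funext x
    simp only [hK, Matrix.add_mulVec, Matrix.smul_mulVec, Matrix.sum_mulVec, Matrix.sub_mulVec,
      Matrix.one_mulVec, Pi.add_apply, Pi.smul_apply, Finset.sum_apply, Pi.sub_apply, hH,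
      Qop_eq hw, sub_sub_cancel_left, sum_neg_distrib, smul_eq_mul, Lz, ← hnd]
    ring
  have hKk : ∀ k f, (K ^ k).mulVec f = (Lz μ)^[k] f := by
    intro k
    induction k with
    | zero => simp
    | succ k ih => intro f; rw [pow_succ, ← Matrix.mulVec_mulVec, hKv, ih]; rfl
  rw [eK]
  set P := NormedSpace.exp (s • (K - 1))
  have hP : ∀ f x, HasSum (fun k : ℕ => exp (-s) * (s ^ k / k.factorial) * (Lz μ)^[k] f x)
      (∑ y, P x y * f y) := fun f x =>
    (hasSum_sum fun y (_ : y ∈ univ) => (hasSum_exp K s x y).mul_right (f y)).congr_fun fun k => by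
      simp only [← hKk, Matrix.mulVec, dotProduct, mul_sum, mul_assoc]
  have hc : ∀ k (c : ℝ), (Lz μ)^[k] (fun _ => c) = fun _ => c := fun k c =>
    Function.iterate_fixed (by funext x; simp [Lz]) k
  have pp : ∀ k : ℕ, 0 ≤ exp (-s) * (s ^ k / k.factorial) := fun k => by positivity
  set m := ⌊s⌋₊
  obtain ⟨x, -, hx⟩ := exists_le_of_sum_le (s := univ) univ_nonempty
    (f := fun x => μ x * (n * (1 - 1 / (2 * n)) ^ m))
    (g := fun x => μ x * (Lz μ)^[m] (fun y => ∑ i, spin (x i) * spin (y i)) x) (by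
      rw [← sum_mul, h1, one_mul]
      have := sum_le_sum fun i (_ : i ∈ univ) => auto_corr hw h1 i m
      rw [sum_const, card_univ, nsmul_eq_mul, sum_comm] at this
      refine this.trans (le_of_eq (sum_congr rfl fun x _ => ?_))
      simp only [← hKk, Matrix.mulVec, dotProduct, mul_sum]
      rw [sum_comm]
      exact sum_congr rfl fun _ _ => sum_congr rfl fun _ _ => by ring)
  refine ⟨x, ?_⟩
  set f : (ι → Bool) → ℝ := fun y => ∑ i, spin (x i) * spin (y i) with hf
  set a := (Lz μ)^[m] f x with ha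
  have a1 : n * exp (-(2 * t)) ≤ a := by
    refine le_trans (mul_le_mul_of_nonneg_left ?_ (by linarith)) (le_of_mul_le_mul_left hx (hw x))
    have b1 : exp (-(1 / n)) ≤ 1 - 1 / (2 * n) := by
      have := Real.add_one_le_exp (1 / n)
      rw [Real.exp_neg, inv_le_comm₀ (exp_pos _) (by
        rw [sub_pos, div_lt_one (by positivity)]; linarith)]
      refine le_trans ?_ this
      rw [inv_le_iff_one_le_mul₀ (by rw [sub_pos, div_lt_one (by positivity)]; linarith)]
      field_simp; nlinarith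
    refine le_trans ?_ (pow_le_pow_left₀ (exp_pos _).le b1 m)
    rw [← Real.exp_nat_mul]
    apply Real.exp_le_exp.2
    have : (m : ℝ) ≤ 2 * n * t := Nat.floor_le s0
    rw [mul_neg, neg_le_neg_iff, mul_one_div, div_le_iff₀ (by linarith)]
    linarith
  have a0 : 0 < n * exp (-(2 * t)) := by positivity
  have df : ∀ i y, (f y - f (fl i y)) ^ 2 = 4 := fun i y => by
    simp only [hf, lin_fl, sub_sub_cancel, mul_pow, spin_sq]; norm_num
  obtain ⟨g, S, hS, hgs, hgk⟩ := pois_sq s0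
  have hV : ∑ y, P x y * (f y - a) ^ 2 ≤ exp (-(s * (1 - (1 + A / (2 * n))))) * (4 * n) + S := by
    refine hasSum_le (fun k => ?_) (hP (fun y => (f y - a) ^ 2) x)
      (((hasSum_pois s (1 + A / (2 * n))).mul_right (4 * n)).add hgs)
    rw [mul_assoc _ (_ ^ k), ← mul_add]
    refine mul_le_mul_of_nonneg_left ?_ (pp k)
    have b1 := it_var hw (by linarith) hg (f := fun y => f y - a) (G := 4 * n)
      (fun y => by simp [Gam, df, hnd, mul_comm]) k x
    have b2 := congrFun (it_sub (μ := μ) k a f fun _ => 1) x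
    simp only [mul_one, hc] at b2
    have b3 := it_lip hw (f := f) (fun i y => abs_le_of_sq_le_sq (by rw [df]; norm_num)
      (by norm_num)) x k m
    rw [b2] at b1
    linarith [hgk k]
  have e1 : exp (-(s * (1 - (1 + A / (2 * n))))) = exp (A * t) := by
    congr 1; rw [hs]; field_simp; ring
  have e2 := Real.add_one_le_exp (A * t)
  have At : 24 * t ≤ A * t := mul_le_mul_of_nonneg_right hA ht
  have hV2 : ∑ y, P x y * (f y - a) ^ 2 ≤ B * n * exp (A * t) := by
    rw [e1] at hV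
    have b1 : 24 * t * n ≤ exp (A * t) * n := mul_le_mul_of_nonneg_right (by linarith) (by linarith)
    have b2 : 1 * 1 ≤ exp (A * t) * n := mul_le_mul (by linarith) hn zero_le_one (by linarith)
    have b3 := mul_le_mul_of_nonneg_right hB (by linarith : 0 ≤ exp (A * t) * n)
    nlinarith
  have hV3 : ∑ y, μ y * f y ^ 2 ≤ B * n * exp (A * t) :=
    (hv x).trans (le_mul_of_one_le_right (by positivity) (by linarith))
  have p0 : ∀ y, 0 ≤ P x y := fun y => by
    have b := hP (Pi.single y 1) x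
    simp only [Pi.single_apply, mul_ite, mul_one, mul_zero, sum_ite_eq', mem_univ, if_true] at b
    refine b.nonneg fun k => mul_nonneg (pp k) ?_
    have := it_mono hw k (f := fun _ => 0) (g := Pi.single y 1) 0
      (fun z => by simp only [Pi.single_apply]; split_ifs <;> norm_num) x
    simpa [hc] using this
  have p1 : ∑ y, P x y = 1 := by
    have b := hP (fun _ => 1) x
    have c := hasSum_pois s 1
    simp only [hc, mul_one, one_pow, sub_self, mul_zero, neg_zero, exp_zero] at b c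
    exact b.unique c
  refine le_trans ?_ (cheb p0 (fun y => (hw y).le) p1 h1 (a0.trans_le a1) hV2 hV3)
  have b1 : 16 * (B * n * exp (A * t)) / a ^ 2
      ≤ 16 * (B * n * exp (A * t)) / (n * exp (-(2 * t))) ^ 2 := by gcongr
  have b2 : 16 * (B * n * exp (A * t)) / (n * exp (-(2 * t))) ^ 2
      = 16 * B * exp ((A + 4) * t) / n := by
    rw [show (A + 4) * t = A * t + 2 * t + 2 * t by ring, Real.exp_add, Real.exp_add, Real.exp_neg]
    field_simp
  linarith

end Vale.Agent.P150
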