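import Vale.Agent.P150.Main
import Vale.Agent.P150.Low

namespace Vale.Agent.P150

open Finset Real MeasureTheory Filter Topology
open scoped ENNReal NNReal

variable {n : ℕ} {β : ℝ} {g : Pair n → ℝ}

lemma mean_spin (i : Fin n) : ∑ y, gibbs β g y * spin (y i) = 0 := by
  have s : ∑ x : Cfg n, gibbs β g (fun j => !x j) * spin (!x i) = _ :=
    Equiv.sum_comp (Function.Involutive.toPerm (fun (x : Cfg n) j => !x j)
      fun x => funext fun j => Bool.not_not _) fun y => gibbs β g y * spin (y i)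
  have e : ∀ x : Cfg n, gibbs β g (fun j => !x j) = gibbs β g x := fun x => by
    simp only [gibbs, energy, spin_not, mul_neg, neg_mul, neg_neg]
  simp only [e, spin_not, mul_neg, sum_neg_distrib] at s
  linarith

lemma tmix_ge {l η C : ℝ} (hn : 2304 ≤ n) (hl : l ≤ 1) (hη0 : 0 ≤ η) (hη : η ≤ 1 / 64)
    (h : Nice l η (Jm β g)) (hC : 1 ≤ C) (hT : TensP (gibbs β g) C) (hC2 : (1280 * C) ^ 2 ≤ n) :
    ENNReal.ofReal (1 / 10008 * log n) ≤ tmix β g := by
  haveI : Nonempty (Fin n) := ⟨⟨0, by omega⟩⟩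
  have hn' : (2304 : ℝ) ≤ n := by exact_mod_cast hn
  have hw := gibbs_pos β g
  refine le_iInf₂ fun t ht => ?_
  rw [ENNReal.ofReal_le_coe]
  by_contra hc
  have h4 : ∀ i j, |Jm β g i j| ≤ 1 / 4 := by
    intro i j
    have a := single_le_sum (f := fun j => Jm β g i j ^ 6) (fun _ _ => by positivity) (mem_univ j)
    have b := single_le_sum (f := fun i => ∑ j, Jm β g i j ^ 6)
      (fun _ _ => sum_nonneg fun _ _ => by positivity) (mem_univ i)
    have c := pow_le_pow_left₀ hη0 hη 2
    refine le_of_pow_le_pow_left₀ (n := 6) (by norm_num) (by norm_num) ?_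
    rw [Even.pow_abs (by decide)]
    linarith [h.2]
  have hJ : ∀ v : Fin n → ℝ, |∑ i, ∑ j, Jm β g i j * (v i * v j)| ≤ ∑ i, v i ^ 2 := fun v =>
    (h.1 v).trans (mul_le_of_le_one_left (sum_nonneg fun _ _ => sq_nonneg _) hl)
  obtain ⟨x, hx⟩ := tv_lower hw (gibbs_sum β g) (heat_mulVec β g) (A := 5000) (B := 40 * C)
    (by norm_num) (by linarith)
    (fun f G hG => grad_step hw (Jm_symm β g) (Jm_diag β g) hJ (fun i j x hij => by
      rw [gibbs_eq]
      exact pf_wt (Jm_symm β g) (Jm_diag β g) h4 (inv_pos.2 (Z_pos β g)) i j x hij)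
      (by simpa using hn') hG)
    (fun x => by
      have a := poincare hw (gibbs_sum β g) (by linarith) hT fun y => ∑ i, spin (x i) * spin (y i)
      have m : ∑ y, gibbs β g y * ∑ i, spin (x i) * spin (y i) = 0 := by
        simp only [mul_sum]
        rw [sum_comm]
        simp only [mul_left_comm (gibbs β g _), ← mul_sum, mean_spin, mul_zero, sum_const_zero]
      simp only [m, sub_zero, Qop_eq hw, lin_fl, sub_sub_cancel, mul_pow, spin_sq] at a
      have b : ∑ i, ∑ y, gibbs β g y * (pf (gibbs β g) i y ^ 2 * (2 ^ 2 * 1 * 1))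
          ≤ ∑ i : Fin n, ∑ y, gibbs β g y * 4 := by
        refine sum_le_sum fun i _ => sum_le_sum fun y _ => mul_le_mul_of_nonneg_left ?_ (hw y).le
        nlinarith [pf_pos hw i y, pf_le hw i y]
      simp only [← sum_mul, gibbs_sum, sum_const, card_univ, nsmul_eq_mul] at b
      nlinarith [mul_le_mul_of_nonneg_left b (by linarith : 0 ≤ 10 * C)]) t.coe_nonneg
  have a := ht x
  rw [tv, kernel, gen] at a
  have b : exp ((5000 + 4) * t) ≤ √n := by
    refine Real.le_sqrt_of_sq_le ?_
    rw [← Real.exp_nat_mul, ← Real.le_log_iff_exp_le (by linarith)]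
    push_cast; linarith
  have c := Real.le_sqrt_of_sq_le hC2
  have d : 16 * (40 * C) * exp ((5000 + 4) * t) / Fintype.card (Fin n) ≤ 1 / 2 := by
    rw [Fintype.card_fin, div_le_iff₀ (by linarith)]
    have := mul_le_mul c b (exp_pos _).le (sqrt_nonneg _)
    rw [mul_self_sqrt (by linarith)] at this
    generalize exp ((5000 + 4) * t) = E at this ⊢
    linarith
  linarith

theorem both_main {β : ℝ} (h0 : 0 ≤ β) (h : β < 1 / 2) : ∃ c C : ℝ, 0 < c ∧
    Tendsto (fun n : ℕ => disorder n {g | ¬ (c ≤ gap β g ∧ gap β g ≤ 1 ∧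
      ENNReal.ofReal (c * log n) ≤ tmix β g ∧ tmix β g ≤ ENNReal.ofReal (C * log n))})
      atTop (𝓝 0) := by
  set η := (1 - 2 * β) / 64 with hη
  set l := 2 * β + η with hl
  have hηp : 0 < η := by linarith
  set C := exp (32 * (1 - (l + η))⁻¹ + 2) with hC
  have hlη : l + η < 1 := by linarith
  have hC1 : 1 ≤ C := by
    have := inv_pos.2 (sub_pos.2 hlη)
    exact Real.one_le_exp (by positivity)
  refine ⟨min (1 / (10 * C)) (1 / 10008), 8 * C, by positivity, ?_⟩
  refine tendsto_of_tendsto_of_tendsto_of_le_of_le' tendsto_const_nhds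
    (whp (l := l) h0 (by linarith) hηp) (Eventually.of_forall fun _ => zero_le) ?_
  filter_upwards [eventually_ge_atTop 2304,
    (tendsto_natCast_atTop_atTop (R := ℝ)).eventually_ge_atTop ((1280 * C) ^ 2)] with n hn hn2
  refine measure_mono fun g hg hN => hg ?_
  have hT := tensP (by linarith) hηp.le hlη hN
  have a := gap_bounds (by omega) (by linarith) hT
  refine ⟨(min_le_left _ _).trans a.1, a.2, le_trans (ENNReal.ofReal_le_ofReal ?_)
    (tmix_ge hn (by linarith) hηp.le (by linarith) hN hC1 hT hn2),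
    tmix_le (by omega) (by linarith) hN hC1 hT⟩
  exact mul_le_mul_of_nonneg_right (min_le_right _ _) (Real.log_natCast_nonneg n)

end Vale.Agent.P150
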