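import Mathlib.Analysis.Normed.Algebra.MatrixExponential
import Mathlib.Probability.Distributions.Gaussian.Real
import Mathlib.MeasureTheory.Constructions.Pi

namespace Vale.Agent.P150

open MeasureTheory ProbabilityTheory
open scoped ENNReal NNReal

/-- Spin configurations on `n` sites. -/
abbrev Cfg (n : ℕ) : Type := Fin n → Bool

/-- The spin value: `true` is `1`, `false` is `-1`. -/
def spin (b : Bool) : ℝ := if b then 1 else -1

/-- The pairs `i < j`. -/
abbrev Pair (n : ℕ) : Type := {p : Fin n × Fin n // p.1 < p.2}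

/-- The law of the disorder: independent standard Gaussians indexed by the pairs `i < j`. -/
noncomputable def disorder (n : ℕ) : Measure (Pair n → ℝ) :=
  Measure.pi fun _ => gaussianReal 0 1

/-- The exponent of the Gibbs weight. -/
noncomputable def energy {n : ℕ} (β : ℝ) (g : Pair n → ℝ) (x : Cfg n) : ℝ :=
  β / Real.sqrt n * ∑ p : Pair n, g p * spin (x p.1.1) * spin (x p.1.2)

/-- The Gibbs measure. -/
noncomputable def gibbs {n : ℕ} (β : ℝ) (g : Pair n → ℝ) (x : Cfg n) : ℝ :=
  Real.exp (energy β g x) / ∑ y : Cfg n, Real.exp (energy β g y)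

/-- The symmetric coupling `g_{ij} = g_{ji}` (zero on the diagonal). -/
def coup {n : ℕ} (g : Pair n → ℝ) (i j : Fin n) : ℝ :=
  if h : i < j then g ⟨(i, j), h⟩ else if h : j < i then g ⟨(j, i), h⟩ else 0

/-- The local field `h_i`. -/
noncomputable def field {n : ℕ} (β : ℝ) (g : Pair n → ℝ) (x : Cfg n) (i : Fin n) : ℝ :=
  β / Real.sqrt n * ∑ j ∈ Finset.univ.erase i, coup g i j * spin (x j)

/-- The heat-bath update at site `i`, as a transition matrix. -/
noncomputable def heat {n : ℕ} (β : ℝ) (g : Pair n → ℝ) (i : Fin n) : Matrix (Cfg n) (Cfg n) ℝ :=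
  Matrix.of fun x y =>
    if ∀ j, j ≠ i → y j = x j then
      Real.exp (spin (y i) * field β g x i) / (2 * Real.cosh (field β g x i))
    else 0

/-- The generator `L = ∑ i, (Q_i - I)`. -/
noncomputable def gen {n : ℕ} (β : ℝ) (g : Pair n → ℝ) : Matrix (Cfg n) (Cfg n) ℝ :=
  ∑ i, (heat β g i - 1)

/-- The continuous-time kernel `P_t = exp (t L)`. -/
noncomputable def kernel {n : ℕ} (β : ℝ) (g : Pair n → ℝ) (t : ℝ) : Matrix (Cfg n) (Cfg n) ℝ :=
  NormedSpace.exp (t • gen β g)

/-- Total variation distance. -/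
noncomputable def tv {n : ℕ} (p q : Cfg n → ℝ) : ℝ := (∑ y, |p y - q y|) / 2

/-- The worst-start mixing time (infinite if no time works). -/
noncomputable def tmix {n : ℕ} (β : ℝ) (g : Pair n → ℝ) : ℝ≥0∞ :=
  ⨅ (t : ℝ≥0) (_ : ∀ x, tv (kernel β g t x) (gibbs β g) ≤ 1 / 4), (t : ℝ≥0∞)

/-- Variance under the Gibbs measure. -/
noncomputable def var {n : ℕ} (β : ℝ) (g : Pair n → ℝ) (f : Cfg n → ℝ) : ℝ :=
  ∑ x, gibbs β g x * (f x - ∑ y, gibbs β g y * f y) ^ 2

/-- The Dirichlet form: the inner product of `f` and `-L f` in `L^2` of the Gibbs measure. -/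
noncomputable def dirichlet {n : ℕ} (β : ℝ) (g : Pair n → ℝ) (f : Cfg n → ℝ) : ℝ :=
  ∑ x, gibbs β g x * (f x * (-(gen β g)).mulVec f x)

/-- The spectral gap of `-L`: the infimum of the Rayleigh quotient over nonconstant `f`. -/
noncomputable def gap {n : ℕ} (β : ℝ) (g : Pair n → ℝ) : ℝ :=
  sInf {r | ∃ f : Cfg n → ℝ, var β g f ≠ 0 ∧ r = dirichlet β g f / var β g f}

end Vale.Agent.P150
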