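import Mathlib.Analysis.SpecialFunctions.Trigonometric.Series
import Mathlib.Analysis.SpecialFunctions.Trigonometric.DerivHyp
import Mathlib.Analysis.SpecialFunctions.Log.Deriv
import Mathlib.Analysis.Calculus.Deriv.MeanValue
import Mathlib.Algebra.Order.Chebyshev
import Vale.Agent.P150.Defs

namespace Vale.Agent.P150

open Finset Real

noncomputable def ph (a r : ℝ) : ℝ := a * log (a / r) - a + r

lemma young {a r : ℝ} (ha : 0 < a) (hr : 0 < r) (u : ℝ) : a * u ≤ ph a r + r * (exp u - 1) := by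
  have h := Real.add_one_le_exp (u - log (a / r))
  rw [Real.exp_sub, Real.exp_log (div_pos ha hr)] at h
  have h2 : a * (u - log (a / r) + 1) ≤ a * (exp u / (a / r)) := mul_le_mul_of_nonneg_left h ha.le
  have h3 : a * (exp u / (a / r)) = r * exp u := by field_simp
  unfold ph; nlinarith

lemma ph_eq_young {a r : ℝ} (ha : 0 < a) (hr : 0 < r) :
    ph a r = a * log (a / r) - r * (exp (log (a / r)) - 1) := by
  rw [Real.exp_log (div_pos ha hr)]; unfold ph; field_simp; ring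

lemma ph_nonneg {a r : ℝ} (ha : 0 < a) (hr : 0 < r) : 0 ≤ ph a r := by
  simpa using young ha hr 0

lemma ph_le {a r : ℝ} (ha : 0 < a) (hr : 0 < r) : ph a r ≤ (a - r) ^ 2 / r := by
  have h := Real.log_le_sub_one_of_pos (div_pos ha hr)
  have h2 := mul_le_mul_of_nonneg_left h ha.le
  have h3 : a * (a / r - 1) - a + r = (a - r) ^ 2 / r := by field_simp; ring
  unfold ph; linarith

lemma ph_ge {a r : ℝ} (ha : 0 < a) (hr : 0 < r) : (√a - √r) ^ 2 ≤ ph a r := by
  obtain ⟨s, hs, rfl⟩ : ∃ s, 0 < s ∧ a = s ^ 2 := ⟨√a, sqrt_pos.2 ha, (sq_sqrt ha.le).symm⟩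
  obtain ⟨t, ht, rfl⟩ : ∃ s, 0 < s ∧ r = s ^ 2 := ⟨√r, sqrt_pos.2 hr, (sq_sqrt hr.le).symm⟩
  rw [sqrt_sq hs.le, sqrt_sq ht.le]
  have h := Real.one_sub_inv_le_log_of_pos (div_pos hs ht)
  have h1 : log (s ^ 2 / t ^ 2) = 2 * log (s / t) := by
    rw [← div_pow, Real.log_pow]; norm_num
  have h2 := mul_le_mul_of_nonneg_left h (sq_nonneg s)
  have h3 : s ^ 2 * (1 - (s / t)⁻¹) = s ^ 2 - s * t := by field_simp
  unfold ph; rw [h1]; nlinarith

variable {X : Type} [Fintype X] [Nonempty X]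

noncomputable def avg (w f : X → ℝ) : ℝ := (∑ x, w x * f x) / ∑ x, w x

noncomputable def Ent (w f : X → ℝ) : ℝ := ∑ x, w x * ph (f x) (avg w f)

lemma tot_pos {w : X → ℝ} (hw : ∀ x, 0 < w x) : 0 < ∑ x, w x :=
  sum_pos (fun x _ => hw x) univ_nonempty

lemma avg_pos {w f : X → ℝ} (hw : ∀ x, 0 < w x) (hf : ∀ x, 0 < f x) : 0 < avg w f :=
  div_pos (sum_pos (fun x _ => mul_pos (hw x) (hf x)) univ_nonempty) (tot_pos hw)

lemma avg_mul {w : X → ℝ} (hw : ∀ x, 0 < w x) (f : X → ℝ) :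
    avg w f * ∑ x, w x = ∑ x, w x * f x := div_mul_cancel₀ _ (tot_pos hw).ne'

lemma sum_sub_avg {w : X → ℝ} (hw : ∀ x, 0 < w x) (f : X → ℝ) :
    ∑ x, w x * (f x - avg w f) = 0 := by
  simp only [mul_sub, sum_sub_distrib, ← sum_mul]
  rw [← avg_mul hw f]; ring

lemma Ent_nonneg {w f : X → ℝ} (hw : ∀ x, 0 < w x) (hf : ∀ x, 0 < f x) : 0 ≤ Ent w f :=
  sum_nonneg fun x _ => mul_nonneg (hw x).le (ph_nonneg (hf x) (avg_pos hw hf))

lemma Ent_split {w f : X → ℝ} (hw : ∀ x, 0 < w x) (hf : ∀ x, 0 < f x) {r : ℝ} (hr : 0 < r) :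
    ∑ x, w x * ph (f x) r = Ent w f + (∑ x, w x) * ph (avg w f) r := by
  have ha := avg_pos hw hf
  have h : ∀ x, w x * ph (f x) r = w x * ph (f x) (avg w f)
      + (w x * f x * log (avg w f / r) + w x * (r - avg w f)) := by
    intro x
    unfold ph
    rw [Real.log_div (hf x).ne' hr.ne', Real.log_div (hf x).ne' ha.ne', Real.log_div ha.ne' hr.ne']
    ring
  simp only [h, sum_add_distrib, ← sum_mul, Ent]
  rw [← avg_mul hw f]; unfold ph; ring

omit [Nonempty X] in
lemma Ent_smul (w f : X → ℝ) {c : ℝ} (hc : c ≠ 0) : Ent (fun x => c * w x) f = c * Ent w f := by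
  have : avg (fun x => c * w x) f = avg w f := by
    simp only [avg, mul_assoc, ← mul_sum]; exact mul_div_mul_left _ _ hc
  simp only [Ent, this, mul_sum, mul_assoc]

lemma hellinger {w f : X → ℝ} (hw : ∀ x, 0 < w x) (hf : ∀ x, 0 < f x) :
    (∑ x, w x * |f x - avg w f|) ^ 2 ≤ 4 * (∑ x, w x * f x) * Ent w f := by
  have ha := avg_pos hw hf
  set ρ := avg w f with hρ
  have h := sum_sq_le_sum_mul_sum_of_sq_le_mul (univ : Finset X)
    (r := fun x => w x * |f x - ρ|) (f := fun x => w x * (2 * f x + 2 * ρ))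
    (g := fun x => w x * ph (f x) ρ)
    (fun x _ => by have := hw x; have := hf x; positivity)
    (fun x _ => mul_nonneg (hw x).le (ph_nonneg (hf x) ha))
    (fun x _ => by
      have h1 := ph_ge (hf x) ha
      have h2 := sq_sqrt (hf x).le
      have h3 := sq_sqrt ha.le
      have h4 : (f x - ρ) ^ 2 = (√(f x) - √ρ) ^ 2 * (√(f x) + √ρ) ^ 2 := by
        rw [← mul_pow]; congr 1; nlinarith
      have h5 : (√(f x) + √ρ) ^ 2 ≤ 2 * f x + 2 * ρ := by nlinarith [sq_nonneg (√(f x) - √ρ)]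
      have h6 : (f x - ρ) ^ 2 ≤ ph (f x) ρ * (2 * f x + 2 * ρ) := by
        rw [h4]; exact mul_le_mul h1 h5 (sq_nonneg _) (ph_nonneg (hf x) ha)
      rw [mul_pow, sq_abs]
      nlinarith [sq_nonneg (w x)])
  have e : ∑ x, w x * (2 * f x + 2 * ρ) = 4 * ∑ x, w x * f x := by
    have := avg_mul hw f
    simp only [mul_add, sum_add_distrib, ← sum_mul, mul_left_comm _ (2:ℝ), ← mul_sum]
    rw [← hρ] at this; linarith
  rw [e] at h; exact h

lemma logmgf {u l : X → ℝ} (hu : ∀ x, 0 < u x) {V : ℝ}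
    (hV : ∀ s : ℝ, ∑ x, u x * exp (s * l x) * (l x - avg (fun x => u x * exp (s * l x)) l) ^ 2
      ≤ V * ∑ x, u x * exp (s * l x)) :
    ∑ x, u x * exp (l x) ≤ (∑ x, u x) * exp (avg u l + V / 2) := by
  set Z : ℝ → ℝ := fun s => ∑ x, u x * exp (s * l x) with hZ
  set Z1 : ℝ → ℝ := fun s => ∑ x, u x * exp (s * l x) * l x with hZ1
  set Z2 : ℝ → ℝ := fun s => ∑ x, u x * exp (s * l x) * l x * l x with hZ2
  have hp : ∀ s, 0 < Z s := fun s => tot_pos fun x => mul_pos (hu x) (exp_pos _)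
  have he : ∀ x s, HasDerivAt (fun s => u x * exp (s * l x)) (u x * exp (s * l x) * l x) s := by
    intro x s
    have := ((hasDerivAt_mul_const (x := s) (l x)).exp).const_mul (u x)
    simpa [mul_assoc] using this
  have d0 : ∀ s, HasDerivAt Z (Z1 s) s := fun s => HasDerivAt.fun_sum fun x _ => he x s
  have d1 : ∀ s, HasDerivAt Z1 (Z2 s) s := fun s =>
    HasDerivAt.fun_sum fun x _ => (he x s).mul_const (l x)
  have dM : ∀ s, HasDerivAt (fun s => V * s - Z1 s / Z s)
      (V - (Z2 s * Z s - Z1 s * Z1 s) / Z s ^ 2) s := fun s => by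
    have := ((hasDerivAt_id s).const_mul V).sub ((d1 s).div (d0 s) (hp s).ne')
    exact this.congr_deriv (by simp)
  have hpos : ∀ s, 0 ≤ V - (Z2 s * Z s - Z1 s * Z1 s) / Z s ^ 2 := by
    intro s
    have h := hV s
    have ea : avg (fun x => u x * exp (s * l x)) l = Z1 s / Z s := rfl
    rw [ea] at h
    have e : ∑ x, u x * exp (s * l x) * (l x - Z1 s / Z s) ^ 2
        = Z2 s - 2 * (Z1 s / Z s) * Z1 s + (Z1 s / Z s) ^ 2 * Z s := by
      simp only [hZ, hZ1, hZ2, mul_sum, ← sum_sub_distrib, ← sum_add_distrib]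
      exact sum_congr rfl fun x _ => by ring
    rw [e] at h
    have hz := hp s
    rw [sub_nonneg, div_le_iff₀ (by positivity)]
    have h2 := mul_le_mul_of_nonneg_right h hz.le
    have e2 : (Z2 s - 2 * (Z1 s / Z s) * Z1 s + (Z1 s / Z s) ^ 2 * Z s) * Z s
        = Z2 s * Z s - Z1 s * Z1 s := by field_simp; ring
    rw [e2] at h2
    calc _ ≤ V * Z s * Z s := h2
      _ = _ := by ring
  have m1 : Monotone fun s => V * s - Z1 s / Z s :=
    monotone_of_deriv_nonneg (fun s => (dM s).differentiableAt) fun s => by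
      rw [(dM s).deriv]; exact hpos s
  have dG : ∀ s, HasDerivAt (fun s => V * s ^ 2 / 2 + Z1 0 / Z 0 * s - log (Z s))
      (V * s + Z1 0 / Z 0 - Z1 s / Z s) s := fun s => by
    have := ((((hasDerivAt_pow 2 s).const_mul V).div_const 2).add
      ((hasDerivAt_id s).const_mul (Z1 0 / Z 0))).sub ((d0 s).log (hp s).ne')
    refine this.congr_deriv ?_
    simp; ring
  have m2 : MonotoneOn (fun s => V * s ^ 2 / 2 + Z1 0 / Z 0 * s - log (Z s)) (Set.Ici 0) :=
    monotoneOn_of_deriv_nonneg (convex_Ici 0)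
      (fun s _ => (dG s).continuousAt.continuousWithinAt)
      (fun s _ => (dG s).differentiableAt.differentiableWithinAt) fun s hs => by
        rw [(dG s).deriv]
        rw [interior_Ici] at hs
        have := m1 (le_of_lt hs)
        simp only [mul_zero] at this
        linarith
  have h := m2 (Set.mem_Ici.2 le_rfl) (Set.mem_Ici.2 zero_le_one) zero_le_one
  have e0 : Z 0 = ∑ x, u x := by simp [hZ]
  have e1 : Z 1 = ∑ x, u x * exp (l x) := by simp [hZ]
  have e2 : Z1 0 / Z 0 = avg u l := by simp [hZ, hZ1, avg]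
  simp only [e2] at h
  rw [← e0, ← e1, ← Real.exp_log (hp 1), ← Real.exp_log (hp 0), ← Real.exp_add]
  apply Real.exp_le_exp.2
  linarith

lemma stab {κ : Type} [Fintype κ] {w : X → ℝ} (hw : ∀ x, 0 < w x) (y : X → κ → ℝ) {D : ℝ}
    (hD : 0 < D)
    (hV : ∀ (a : κ → ℝ) (s : ℝ), ∑ x, w x * exp (s * ∑ k, a k * y x k) * (∑ k, a k * y x k
      - avg (fun x => w x * exp (s * ∑ k, a k * y x k)) (fun x => ∑ k, a k * y x k)) ^ 2
      ≤ D * (∑ k, a k ^ 2) * ∑ x, w x * exp (s * ∑ k, a k * y x k))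
    {f : X → ℝ} (hf : ∀ x, 0 < f x) :
    ∑ k, (∑ x, w x * (f x - avg w f) * y x k) ^ 2 ≤ 2 * D * (∑ x, w x * f x) * Ent w f := by
  set v : κ → ℝ := fun k => ∑ x, w x * (f x - avg w f) * y x k with hv
  set F := ∑ x, w x * f x with hF
  have hFp : 0 < F := sum_pos (fun x _ => mul_pos (hw x) (hf x)) univ_nonempty
  set a : κ → ℝ := fun k => v k / (F * D) with ha
  set l : X → ℝ := fun x => ∑ k, a k * y x k with hl
  set V := D * ∑ k, a k ^ 2 with hVd
  have h1 := logmgf hw (l := l) (V := V) (hV a)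
  have hρ := avg_pos hw hf
  have h2 : ∑ x, w x * (f x * (l x - (avg w l + V / 2))) ≤
      ∑ x, w x * (ph (f x) (avg w f) + avg w f * (exp (l x - (avg w l + V / 2)) - 1)) :=
    sum_le_sum fun x _ => mul_le_mul_of_nonneg_left (young (hf x) hρ _) (hw x).le
  have h3 : ∑ x, w x * (ph (f x) (avg w f) + avg w f * (exp (l x - (avg w l + V / 2)) - 1))
      = Ent w f + avg w f * ((∑ x, w x * exp (l x)) / exp (avg w l + V / 2) - ∑ x, w x) := by
    simp only [Ent, sum_div, ← sum_sub_distrib, mul_sum, ← sum_add_distrib, Real.exp_sub]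
    exact sum_congr rfl fun x _ => by ring
  have h4 : (∑ x, w x * exp (l x)) / exp (avg w l + V / 2) ≤ ∑ x, w x := by
    rw [div_le_iff₀ (exp_pos _)]; exact h1
  have h5 : ∑ x, w x * (f x * (l x - (avg w l + V / 2))) = ∑ k, a k * v k - F * (V / 2) := by
    have e1 : ∑ k, a k * v k = ∑ x, w x * (f x - avg w f) * l x := by
      simp only [hv, hl, mul_sum]
      rw [sum_comm]
      exact sum_congr rfl fun x _ => sum_congr rfl fun k _ => by ring
    have e2 : avg w f * ∑ x, w x * l x = F * avg w l := by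
      rw [← avg_mul hw l, hF, ← avg_mul hw f]; ring
    have e3 : ∑ x, w x * (f x - avg w f) * l x = ∑ x, w x * f x * l x - F * avg w l := by
      rw [← e2, mul_sum, ← sum_sub_distrib]
      exact sum_congr rfl fun x _ => by ring
    rw [e1, e3, hF]
    simp only [sum_mul, ← sum_sub_distrib]
    exact sum_congr rfl fun x _ => by ring
  have h6 : ∑ k, a k * v k - F * (V / 2) = (∑ k, v k ^ 2) / (2 * D * F) := by
    rw [hVd]
    simp only [ha, mul_sum, sum_div, ← sum_sub_distrib]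
    exact sum_congr rfl fun k _ => by field_simp; ring
  have h7 : (∑ k, v k ^ 2) / (2 * D * F) ≤ Ent w f := by
    rw [← h6, ← h5]
    refine h2.trans ?_
    rw [h3]
    nlinarith
  rw [div_le_iff₀ (by positivity)] at h7
  linarith

end Vale.Agent.P150
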