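import Mathlib.Probability.Distributions.Gaussian.Multivariate
import Mathlib.MeasureTheory.Integral.Pi
import Mathlib.Analysis.SpecialFunctions.Gaussian.GaussianIntegral
import Vale.Agent.P150.Defs

namespace Vale.Agent.P150

open Finset Real MeasureTheory ProbabilityTheory Filter Topology

noncomputable abbrev gm (I : Type) [Fintype I] : Measure (I → ℝ) :=
  Measure.pi fun _ => gaussianReal 0 1

lemma mp_iso {I : Type} [Fintype I] (T : (I → ℝ) →ₗ[ℝ] (I → ℝ))
    (hT : ∀ x, ∑ i, T x i ^ 2 = ∑ i, x i ^ 2) : MeasurePreserving T (gm I) (gm I) := by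
  classical
  let e := WithLp.linearEquiv 2 ℝ (I → ℝ)
  let U : EuclideanSpace ℝ I →ₗᵢ[ℝ] EuclideanSpace ℝ I :=
    { toLinearMap := e.symm.toLinearMap ∘ₗ T ∘ₗ e.toLinearMap
      norm_map' := fun x => by
        rw [EuclideanSpace.norm_eq, EuclideanSpace.norm_eq]
        congr 1
        simpa [e] using hT x.ofLp }
  have h1 : MeasurePreserving (WithLp.toLp 2) (gm I) (stdGaussian (EuclideanSpace ℝ I)) :=
    ⟨(MeasurableEquiv.toLp 2 (I → ℝ)).measurable, map_pi_eq_stdGaussian⟩
  have h2 : MeasurePreserving (U.toLinearIsometryEquiv rfl) (stdGaussian (EuclideanSpace ℝ I))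
      (stdGaussian (EuclideanSpace ℝ I)) :=
    ⟨(U.toLinearIsometryEquiv rfl).continuous.measurable, stdGaussian_map _⟩
  have h3 : MeasurePreserving (MeasurableEquiv.toLp 2 (I → ℝ)).symm
      (stdGaussian (EuclideanSpace ℝ I)) (gm I) :=
    MeasurePreserving.symm (MeasurableEquiv.toLp 2 (I → ℝ)) h1
  exact h3.comp (h2.comp h1)

lemma mp_inj {A I : Type} [Fintype A] [Fintype I] (e : A → I) (he : Function.Injective e) :
    MeasurePreserving (fun (ω : I → ℝ) a => ω (e a)) (gm I) (gm A) := by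
  refine ⟨by fun_prop, ?_⟩
  have h : iIndepFun (fun i (ω : I → ℝ) => ω i) (gm I) :=
    iIndepFun_pi (X := fun _ => id) fun _ => aemeasurable_id
  have h2 := (h.precomp he).map_fun_eq_pi_map (fun a => (measurable_pi_apply (e a)).aemeasurable)
  rw [h2]
  congr 1
  funext a
  exact (measurePreserving_eval (fun _ : I => gaussianReal 0 1) (e a)).map_eq

lemma mp_split {A B I : Type} [Fintype A] [Fintype B] [Fintype I] (e1 : A → I) (e2 : B → I)
    (he : Function.Injective (Sum.elim e1 e2)) :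
    MeasurePreserving (fun ω : I → ℝ => (fun a => ω (e1 a), fun b => ω (e2 b))) (gm I)
      ((gm A).prod (gm B)) :=
  (measurePreserving_sumPiEquivProdPi (X := fun _ : A ⊕ B => ℝ)
    fun _ => gaussianReal 0 1).comp (mp_inj _ he)

noncomputable def M6 : ℝ := ∫ a, a ^ 6 ∂gaussianReal 0 1

lemma int6 : Integrable (fun a : ℝ => a ^ 6) (gaussianReal 0 1) :=
  integrable_pow_of_mem_interior_integrableExpSet (X := fun x => x) (by simp) 6

lemma tail6 {I : Type} [Fintype I] (c : ℝ) (hc : 0 < c) :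
    (gm I).real {ω | c ≤ ∑ i, ω i ^ 6} ≤ Fintype.card I * M6 / c := by
  have hi : ∀ i : I, Integrable (fun ω : I → ℝ => ω i ^ 6) (gm I) := fun i =>
    (measurePreserving_eval (fun _ : I => gaussianReal 0 1) i).integrable_comp_of_integrable int6
  have h := mul_meas_ge_le_integral_of_nonneg (μ := gm I) (f := fun ω => ∑ i, ω i ^ 6)
    (ae_of_all _ fun ω => sum_nonneg fun i _ => by positivity)
    (integrable_finsetSum _ fun i _ => hi i) c
  rw [integral_finsetSum _ fun i _ => hi i] at h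
  have e : ∀ i : I, ∫ ω, ω i ^ 6 ∂gm I = M6 := fun i => by
    rw [M6, ← (measurePreserving_eval (fun _ : I => gaussianReal 0 1) i).map_eq,
      integral_map (measurable_pi_apply i).aemeasurable (by fun_prop)]
  simp only [e, sum_const, card_univ, nsmul_eq_mul] at h
  rw [le_div_iff₀ hc]; linarith

lemma mgf_sq {θ : ℝ} (h : θ < 1 / 2) :
    Integrable (fun a : ℝ => exp (θ * a ^ 2)) (gaussianReal 0 1) ∧
      ∫ a, exp (θ * a ^ 2) ∂gaussianReal 0 1 = (√(1 - 2 * θ))⁻¹ := by
  have hb : 0 < 1 / 2 - θ := by linarith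
  have e : ∀ a : ℝ, gaussianPDFReal 0 1 a * exp (θ * a ^ 2)
      = (√(2 * π))⁻¹ * exp (-(1 / 2 - θ) * a ^ 2) := by
    intro a
    simp only [gaussianPDFReal, NNReal.coe_one, mul_one, sub_zero, mul_assoc, ← Real.exp_add]
    congr 2; ring
  constructor
  · rw [gaussianReal_of_var_ne_zero 0 one_ne_zero,
      integrable_withDensity_iff_integrable_smul' (measurable_gaussianPDF 0 1)
        (ae_of_all _ fun _ => gaussianPDF_lt_top)]
    simp only [toReal_gaussianPDF, smul_eq_mul, e]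
    exact (integrable_exp_neg_mul_sq hb).const_mul _
  · rw [integral_gaussianReal_eq_integral_smul one_ne_zero]
    simp only [smul_eq_mul, e]
    rw [integral_const_mul, integral_gaussian, ← Real.sqrt_inv, ← Real.sqrt_inv,
      ← Real.sqrt_mul (by positivity)]
    congr 1
    have := pi_pos.ne'
    have : 1 - 2 * θ ≠ 0 := by linarith
    have : 1 / 2 - θ = (1 - 2 * θ) / 2 := by ring
    rw [this]; field_simp

lemma chi_tail {ε : ℝ} (hε : 0 < ε) : ∃ r : ℝ, 0 ≤ r ∧ r < 1 ∧ ∀ (N n : ℕ), n ≤ N →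
    (gm (Fin n)).real {b | (1 + ε) * N ≤ ∑ i, b i ^ 2} ≤ r ^ N := by
  set θ := ε / (4 * (1 + ε)) with hθ
  have hθ0 : 0 < θ := by positivity
  have hθ1 : θ * (1 + ε) = ε / 4 := by rw [hθ]; field_simp
  have hθ2 : θ < 1 / 4 := by nlinarith
  obtain ⟨h1, h2⟩ := mgf_sq (θ := θ) (by linarith)
  set m := (√(1 - 2 * θ))⁻¹ with hm
  have hs : 0 < √(1 - 2 * θ) := sqrt_pos.2 (by linarith)
  have hm1 : 1 ≤ m := one_le_inv₀ hs |>.2 (sqrt_le_one.2 (by linarith))
  refine ⟨m / exp (θ * (1 + ε)), by positivity, ?_, fun N n hn => ?_⟩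
  · rw [div_lt_one (exp_pos _), hm, inv_lt_comm₀ hs (exp_pos _), ← Real.exp_neg]
    apply Real.lt_sqrt_of_sq_lt
    rw [← Real.exp_nat_mul, Nat.cast_ofNat, mul_neg, Real.exp_neg, inv_lt_comm₀ (exp_pos _)
      (by linarith), inv_lt_iff_one_lt_mul₀ (by linarith)]
    have := Real.add_one_le_exp (2 * (θ * (1 + ε)))
    nlinarith
  · have i1 : Integrable (fun b : Fin n → ℝ => ∏ i, exp (θ * b i ^ 2)) (gm (Fin n)) :=
      Integrable.fintype_prod (f := fun _ (a : ℝ) => exp (θ * a ^ 2)) fun _ => h1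
    have h := mul_meas_ge_le_integral_of_nonneg
      (ae_of_all _ fun b => prod_nonneg fun i _ => (exp_pos _).le) i1 (exp (θ * (1 + ε)) ^ N)
    rw [integral_fintype_prod_eq_prod (fun _ (a : ℝ) => exp (θ * a ^ 2))] at h
    simp only [h2, prod_const, card_univ, Fintype.card_fin] at h
    rw [div_pow, le_div_iff₀ (by positivity), mul_comm]
    refine le_trans (mul_le_mul_of_nonneg_left (measureReal_mono fun b hb => ?_) (by positivity))
      (h.trans (pow_le_pow_right₀ hm1 hn))
    simp only [Set.mem_setOf_eq] at hb ⊢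
    rw [← Real.exp_sum, ← Real.exp_nat_mul, ← mul_sum]
    apply Real.exp_le_exp.2
    nlinarith

end Vale.Agent.P150
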