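import Mathlib.Analysis.Matrix.Order
import Vale.Agent.P150.Boch

namespace Vale.Agent.P150

open Finset Real

variable {ι : Type} [Fintype ι] [DecidableEq ι]

noncomputable def Qop (w : (ι → Bool) → ℝ) (i : ι) (f : (ι → Bool) → ℝ) (x : ι → Bool) : ℝ :=
  (w x * f x + w (fl i x) * f (fl i x)) / (w x + w (fl i x))

omit [Fintype ι] in
lemma Qop_fl (w : (ι → Bool) → ℝ) (i : ι) (f : (ι → Bool) → ℝ) (x : ι → Bool) :
    Qop w i f (fl i x) = Qop w i f x := by
  simp only [Qop, fl_fl, add_comm]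

omit [Fintype ι] in
lemma Qop_pos {w f : (ι → Bool) → ℝ} (hw : ∀ x, 0 < w x) (hf : ∀ x, 0 < f x) (i : ι)
    (x : ι → Bool) : 0 < Qop w i f x :=
  div_pos (add_pos (mul_pos (hw _) (hf _)) (mul_pos (hw _) (hf _))) (add_pos (hw _) (hw _))

lemma Qop_adj {w : (ι → Bool) → ℝ} (hw : ∀ x, 0 < w x) (i : ι) (f : (ι → Bool) → ℝ)
    {G : (ι → Bool) → ℝ} (hG : ∀ x, G (fl i x) = G x) :
    ∑ x, w x * (Qop w i f x * G x) = ∑ x, w x * (f x * G x) := by
  have s1 := sum_fl i fun x => w x * (Qop w i f x * G x)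
  have s2 := sum_fl i fun x => w x * (f x * G x)
  simp only [Qop_fl, hG] at s1 s2
  have e : ∑ x, w x * (Qop w i f x * G x) + ∑ x, w (fl i x) * (Qop w i f x * G x)
      = ∑ x, w x * (f x * G x) + ∑ x, w (fl i x) * (f (fl i x) * G x) := by
    rw [← sum_add_distrib, ← sum_add_distrib]
    refine sum_congr rfl fun x _ => ?_
    have := (add_pos (hw x) (hw (fl i x))).ne'
    unfold Qop; field_simp
  linarith

noncomputable def Lam (w f : (ι → Bool) → ℝ) (g : ι → (ι → Bool) → ℝ) : ℝ :=
  ∑ i, ∑ x, w x * ph (f x) (g i x)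

lemma tens_prod (h : ι → ℝ) {f : (ι → Bool) → ℝ} (hf : ∀ x, 0 < f x)
    {g : ι → (ι → Bool) → ℝ} (hg : ∀ i x, 0 < g i x) (hi : ∀ i x, g i (fl i x) = g i x) :
    Ent (wt 0 h) f ≤ Lam (wt 0 h) f g := by
  set w := wt (0 : Matrix ι ι ℝ) h with hwd
  have hw : ∀ x, 0 < w x := wt_pos 0 h
  have hfl : ∀ j x, w (fl j x) = w x * exp (-2 * (spin (x j) * h j)) := fun j x => by
    rw [hwd, wt_fl (fun _ _ => rfl) (fun _ => rfl)]; simp [lf]
  have key : ∀ S : Finset ι, ∃ p : (ι → Bool) → ℝ, (∀ x, 0 < p x) ∧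
      (∀ j ∈ S, ∀ x, p (fl j x) = p x) ∧ ∑ x, w x * p x = ∑ x, w x * f x ∧
      ∑ x, w x * (f x * log (f x / p x)) ≤ ∑ i ∈ S, ∑ x, w x * ph (f x) (g i x) := by
    intro S
    induction S using Finset.induction_on with
    | empty =>
      refine ⟨f, hf, by simp, rfl, le_of_eq ?_⟩
      simp [div_self (hf _).ne']
    | insert i S hiS ih =>
      obtain ⟨p, hp, hinv, hm, hle⟩ := ih
      have hq := Qop_pos hw hp i
      refine ⟨Qop w i p, hq, ?_, ?_, ?_⟩
      · intro j hj x
        by_cases e : j = i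
        · rw [e, Qop_fl]
        have hjS : j ∈ S := (mem_insert.1 hj).resolve_left e
        have := exp_pos (-2 * (spin (x j) * h j))
        have := add_pos (hw x) (hw (fl i x))
        simp only [Qop]
        rw [fl_comm i j, hfl j, hfl j, hinv j hjS, hinv j hjS, fl_ne e]
        field_simp
      · have := Qop_adj hw i p (G := fun _ => 1) fun _ => rfl
        simp only [mul_one] at this
        rw [this, hm]
      · rw [sum_insert hiS]
        have a1 : ∀ x, w x * (f x * log (f x / Qop w i p x)) ≤ w x * (f x * log (f x / p x))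
            + (w x * ph (f x) (g i x) + (w x * (p x * (g i x / Qop w i p x))
              - w x * (Qop w i p x * (g i x / Qop w i p x)))) := by
          intro x
          have b := young (hf x) (hg i x) (log (p x / Qop w i p x))
          rw [Real.exp_log (div_pos (hp x) (hq x))] at b
          have c : g i x * (p x / Qop w i p x - 1) = p x * (g i x / Qop w i p x)
              - Qop w i p x * (g i x / Qop w i p x) := by
            have := (hq x).ne'
            field_simp
          rw [c, Real.log_div (hp x).ne' (hq x).ne'] at b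
          rw [Real.log_div (hf x).ne' (hq x).ne', Real.log_div (hf x).ne' (hp x).ne']
          nlinarith [mul_le_mul_of_nonneg_left b (hw x).le]
        have a2 := sum_le_sum fun x (_ : x ∈ univ) => a1 x
        have a3 := Qop_adj hw i p (G := fun x => g i x / Qop w i p x)
          fun x => by rw [hi, Qop_fl]
        simp only [sum_add_distrib, sum_sub_distrib] at a2
        linarith
  obtain ⟨p, hp, hinv, hm, hle⟩ := key univ
  have hc : ∀ x, p x = avg w f := by
    intro x
    have b : ∑ y, w y * p y = (∑ y, w y) * p x := by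
      rw [sum_mul]
      exact sum_congr rfl fun y _ => by rw [const_of_fl (fun i => hinv i (mem_univ i)) y x]
    rw [avg, ← hm, b, mul_div_cancel_left₀ _ (tot_pos hw).ne']
  simp only [hc] at hle
  refine le_trans (le_of_eq ?_) hle
  have := sum_sub_avg hw f
  rw [Ent, ← sub_zero (∑ x, w x * (f x * log (f x / avg w f))), ← this, ← sum_sub_distrib]
  exact sum_congr rfl fun x _ => by unfold ph; ring

lemma exists_sqrt {J : Matrix ι ι ℝ} (hs : ∀ i j, J i j = J j i) {l : ℝ}
    (hJ : ∀ v : ι → ℝ, |∑ i, ∑ j, J i j * (v i * v j)| ≤ l * ∑ i, v i ^ 2) :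
    ∃ B : Matrix ι ι ℝ, (∀ i j, B i j = B j i) ∧ ∀ v : ι → ℝ,
      ∑ k, (∑ i, B k i * v i) ^ 2 = ∑ i, ∑ j, J i j * (v i * v j) + l * ∑ i, v i ^ 2 := by
  open scoped MatrixOrder in
  have q : ∀ v : ι → ℝ, v ⬝ᵥ (J + l • (1 : Matrix ι ι ℝ)).mulVec v
      = ∑ i, ∑ j, J i j * (v i * v j) + l * ∑ i, v i ^ 2 := by
    intro v
    rw [Matrix.add_mulVec, dotProduct_add, Matrix.smul_mulVec, Matrix.one_mulVec, dotProduct_smul]
    simp only [dotProduct, Matrix.mulVec, mul_sum, smul_eq_mul, sq]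
    congr 1
    exact sum_congr rfl fun i _ => sum_congr rfl fun j _ => by ring
  have hA : (J + l • (1 : Matrix ι ι ℝ)).PosSemidef := by
    refine Matrix.PosSemidef.of_dotProduct_mulVec_nonneg ?_ fun v => ?_
    · ext i j
      simp [Matrix.one_apply, hs j i, eq_comm]
    · rw [star_trivial, q]
      have := (abs_le.1 (hJ v)).1
      linarith
  open scoped MatrixOrder in
  have hB := (Matrix.nonneg_iff_posSemidef.1 (CFC.sqrt_nonneg (J + l • (1 : Matrix ι ι ℝ)))).isHermitian
  open scoped MatrixOrder in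
  have hBB := CFC.sqrt_mul_sqrt_self (J + l • (1 : Matrix ι ι ℝ)) hA.nonneg
  open scoped MatrixOrder in
  generalize CFC.sqrt (J + l • (1 : Matrix ι ι ℝ)) = B at hB hBB
  have hBs : ∀ i j, B i j = B j i := fun i j => by simpa using (hB.apply i j).symm
  refine ⟨B, hBs, fun v => ?_⟩
  rw [← q, ← hBB, ← Matrix.mulVec_mulVec, Matrix.dotProduct_mulVec]
  simp only [dotProduct, Matrix.mulVec, Matrix.vecMul, sq]
  refine sum_congr rfl fun k _ => ?_
  congr 1
  exact sum_congr rfl fun i _ => by rw [hBs i k, mul_comm]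

theorem tens {J : Matrix ι ι ℝ} (hs : ∀ i j, J i j = J j i) (hd : ∀ i, J i i = 0) {l η : ℝ}
    (hl : 0 ≤ l) (hη : 0 ≤ η) (hlη : l + η < 1)
    (hJ : ∀ v : ι → ℝ, |∑ i, ∑ j, J i j * (v i * v j)| ≤ l * ∑ i, v i ^ 2)
    (h6 : ∑ i, ∑ j, J i j ^ 6 ≤ η ^ 2) (h : ι → ℝ) {f : (ι → Bool) → ℝ} (hf : ∀ x, 0 < f x)
    {g : ι → (ι → Bool) → ℝ} (hg : ∀ i x, 0 < g i x) (hi : ∀ i x, g i (fl i x) = g i x) :
    Ent (wt J h) f ≤ exp (32 * (1 - (l + η))⁻¹ + 2) * Lam (wt J h) f g := by
  obtain ⟨B, hBs, hB⟩ := exists_sqrt hs hJ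
  set K := (1 - (l + η))⁻¹ with hK
  have hKp : 0 < K := inv_pos.2 (sub_pos.2 hlη)
  set y : (ι → Bool) → ι → ℝ := fun x k => ∑ i, B k i * spin (x i) with hy
  set T : ℝ := 1 + ∑ x, (∑ k, |y x k| + ∑ k, y x k ^ 2) with hT
  have hnn : ∀ x, 0 ≤ ∑ k, |y x k| ∧ 0 ≤ ∑ k, y x k ^ 2 := fun x =>
    ⟨sum_nonneg fun _ _ => abs_nonneg _, sum_nonneg fun _ _ => sq_nonneg _⟩
  have hTx : ∀ x, ∑ k, |y x k| + ∑ k, y x k ^ 2 ≤ T - 1 := fun x => by
    rw [hT, add_sub_cancel_left]
    exact single_le_sum (f := fun x => ∑ k, |y x k| + ∑ k, y x k ^ 2)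
      (fun x _ => add_nonneg (hnn x).1 (hnn x).2) (mem_univ x)
  have hT1 : 1 ≤ T := by
    have := hTx fun _ => true
    have := hnn fun _ => true
    linarith
  obtain ⟨N, hN⟩ := exists_nat_ge (max ((21 * T ^ 2) ^ 2) (2 * (16 * K + 1)))
  have hN1 := (le_max_left _ _).trans hN
  have hN2 := (le_max_right _ _).trans hN
  have hNp : (0 : ℝ) < N := by linarith
  set ε : ℝ := (√N)⁻¹ with hε
  have hεp : 0 < ε := inv_pos.2 (sqrt_pos.2 hNp)
  have hε2 : ε ^ 2 * N = 1 := by rw [hε, inv_pow, sq_sqrt hNp.le, inv_mul_cancel₀ hNp.ne']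
  have hεT : 21 * T ^ 2 * ε ≤ 1 := by
    rw [hε, ← div_eq_mul_inv, div_le_one (sqrt_pos.2 hNp)]
    exact le_sqrt_of_sq_le hN1
  set u := (8 * (2 * K) + 1) * ε ^ 2 with hu
  have hu0 : 0 ≤ u := by positivity
  have huN : u * N = 16 * K + 1 := by rw [hu, mul_assoc, hε2]; ring
  have hu1 : u ≤ 1 / 2 := by nlinarith
  have hq : 1 ≤ exp (2 * u) * (1 - u) := by nlinarith [Real.add_one_le_exp (2 * u)]
  have lin : ∀ (a : ι → ℝ) (x : ι → Bool),
      ∑ k, a k * y x k = ∑ i, (∑ k, B i k * a k) * spin (x i) := by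
    intro a x
    simp only [hy, mul_sum, sum_mul]
    rw [sum_comm]
    exact sum_congr rfl fun i _ => sum_congr rfl fun k _ => by rw [hBs i k]; ring
  have tilt : ∀ (τ s : ℝ) (h a : ι → ℝ) (x : ι → Bool), wt (τ • J) h x * exp (s * ∑ k, a k * y x k)
      = wt (τ • J) (fun i => h i + s * ∑ k, B i k * a k) x := by
    intro τ s h a x
    rw [wt, wt, ← Real.exp_add, lin, mul_sum, add_assoc, ← sum_add_distrib]
    congr 2
    exact sum_congr rfl fun i _ => by ring
  have key : ∀ k : ℕ, k ≤ N → ∀ h : ι → ℝ, Ent (wt ((k * ε ^ 2) • J) h) f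
      ≤ exp (2 * u) ^ k * Lam (wt ((k * ε ^ 2) • J) h) f g := by
    intro k
    induction k with
    | zero => intro _ h; simpa using tens_prod h hf hg hi
    | succ k ih =>
      intro hk h
      set τ : ℝ := ((k + 1 : ℕ) : ℝ) * ε ^ 2 with hτ
      have hτ0 : 0 ≤ τ := by positivity
      have hτ1 : τ ≤ 1 := by
        rw [← hε2, hτ, mul_comm]
        exact mul_le_mul_of_nonneg_left (by exact_mod_cast hk) (sq_nonneg _)
      have hw := wt_pos (τ • J) h
      have hst := stab hw y (D := 2 * K) (by positivity) (fun a s => by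
        simp only [tilt]
        simp only [lin]
        refine (cov_bound (J := τ • J) (fun i j => by simp [hs i j]) (fun i => by simp [hd i]) _
          hlη (tanh_form hl hη hτ0 hτ1 (fun v => (le_abs_self _).trans (hJ v)) h6) _).trans ?_
        refine mul_le_mul_of_nonneg_right ?_ (tot_pos (wt_pos _ _)).le
        rw [hB, ← hK]
        have b1 := (le_abs_self _).trans (hJ a)
        have b2 : 0 ≤ ∑ k, a k ^ 2 := sum_nonneg fun _ _ => sq_nonneg _
        have b3 : l * ∑ k, a k ^ 2 ≤ ∑ k, a k ^ 2 := mul_le_of_le_one_left b2 (by linarith)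
        nlinarith) hf
      have hstep := loc_step hw hf y hT1 hεp hεT (fun x => by linarith [hTx x, (hnn x).2])
        (fun x => by linarith [hTx x, (hnn x).1]) hst
      rw [← hu] at hstep
      set c := exp (-(ε ^ 2 * (l * Fintype.card ι) / 2)) with hc
      have hcp : 0 < c := exp_pos _
      have ez_eq : ∀ z x, wt (τ • J) h x * ez y ε z x
          = c * wt ((k * ε ^ 2) • J) (fun i => h i + ε * ∑ k, B i k * spin (z k)) x := by
        intro z x
        rw [← tilt, ez, wt, wt, hc, ← Real.exp_add, ← Real.exp_add, ← Real.exp_add]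
        congr 1
        have b := hB fun i => spin (x i)
        simp only [spin_sq, sum_const, card_univ, nsmul_eq_mul, mul_one] at b
        have e : ∀ τ : ℝ, ∑ i, ∑ j, (τ • J) i j * spin (x i) * spin (x j)
            = τ * ∑ i, ∑ j, J i j * (spin (x i) * spin (x j)) := fun τ => by
          simp only [mul_sum, Matrix.smul_apply, smul_eq_mul, mul_assoc]
        rw [e, e, b, hτ]
        push_cast
        ring
      have hz : ∀ z, Ent (fun x => wt (τ • J) h x * ez y ε z x) f
          ≤ exp (2 * u) ^ k * Lam (fun x => wt (τ • J) h x * ez y ε z x) f g := by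
        intro z
        simp only [ez_eq]
        rw [Ent_smul _ _ hcp.ne']
        refine (mul_le_mul_of_nonneg_left (ih (by omega) _) hcp.le).trans (le_of_eq ?_)
        simp only [Lam, mul_sum]
        exact sum_congr rfl fun i _ => sum_congr rfl fun x _ => by ring
      have hL : ∑ z, Lam (fun x => wt (τ • J) h x * ez y ε z x) f g
          ≤ 2 ^ Fintype.card ι * Lam (wt (τ • J) h) f g := by
        simp only [Lam, mul_sum]
        rw [sum_comm]
        refine sum_le_sum fun i _ => ?_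
        rw [sum_comm]
        refine sum_le_sum fun x _ => ?_
        rw [← sum_mul, ← mul_sum]
        have := mul_le_mul_of_nonneg_left (sum_ez_le y ε x)
          (mul_nonneg (hw x).le (ph_nonneg (hf x) (hg i x)))
        linarith
      have b1 := (sum_le_sum fun z (_ : z ∈ univ) => hz z)
      rw [← mul_sum] at b1
      have b2 := hstep.trans (b1.trans (mul_le_mul_of_nonneg_left hL (by positivity)))
      rw [mul_left_comm (exp (2 * u) ^ k)] at b2
      have b3 := le_of_mul_le_mul_left b2 (by positivity)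
      have b4 := mul_le_mul_of_nonneg_left b3 (exp_pos (2 * u)).le
      have b5 := mul_le_mul_of_nonneg_right hq (Ent_nonneg hw hf)
      rw [pow_succ]
      linarith
  have := key N le_rfl h
  rw [mul_comm (N : ℝ), hε2, one_smul, ← Real.exp_nat_mul] at this
  convert this using 3
  linarith

end Vale.Agent.P150
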