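import Mathlib.Analysis.SpecialFunctions.Exponential
import Vale.Agent.P150.Tens

namespace Vale.Agent.P150

open Finset Real

variable {ι : Type} [Fintype ι] [DecidableEq ι]

def TensP (μ : (ι → Bool) → ℝ) (C : ℝ) : Prop :=
  ∀ (f : (ι → Bool) → ℝ) (g : ι → (ι → Bool) → ℝ), (∀ x, 0 < f x) → (∀ i x, 0 < g i x) →
    (∀ i x, g i (fl i x) = g i x) → Ent μ f ≤ C * Lam μ f g

noncomputable def Kop (μ : (ι → Bool) → ℝ) (f : (ι → Bool) → ℝ) (x : ι → Bool) : ℝ :=
  (∑ i, Qop μ i f x) / Fintype.card ι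

lemma Qop_mean {w : (ι → Bool) → ℝ} (hw : ∀ x, 0 < w x) (i : ι) (f : (ι → Bool) → ℝ) :
    ∑ x, w x * Qop w i f x = ∑ x, w x * f x := by
  simpa using Qop_adj hw i f (G := fun _ => 1) fun _ => rfl

lemma Qop_symm {w : (ι → Bool) → ℝ} (hw : ∀ x, 0 < w x) (i : ι) (f g : (ι → Bool) → ℝ) :
    ∑ x, w x * (f x * Qop w i g x) = ∑ x, w x * (g x * Qop w i f x) := by
  rw [← Qop_adj hw i f (Qop_fl w i g), ← Qop_adj hw i g (Qop_fl w i f)]
  exact sum_congr rfl fun x _ => by ring

variable [Nonempty ι]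

lemma cardp : (0 : ℝ) < Fintype.card ι := by exact_mod_cast Fintype.card_pos

lemma Kop_pos {w f : (ι → Bool) → ℝ} (hw : ∀ x, 0 < w x) (hf : ∀ x, 0 < f x) (x : ι → Bool) :
    0 < Kop w f x :=
  div_pos (sum_pos (fun i _ => Qop_pos hw hf i x) univ_nonempty) cardp

lemma Kop_mean {w : (ι → Bool) → ℝ} (hw : ∀ x, 0 < w x) (f : (ι → Bool) → ℝ) :
    ∑ x, w x * Kop w f x = ∑ x, w x * f x := by
  simp only [Kop, ← mul_div_assoc, ← sum_div, mul_sum]
  rw [sum_comm]
  simp only [Qop_mean hw, sum_const, card_univ, nsmul_eq_mul]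
  exact mul_div_cancel_left₀ _ cardp.ne'

lemma Ent_Kop {μ f : (ι → Bool) → ℝ} (hw : ∀ x, 0 < μ x) (hf : ∀ x, 0 < f x) {C : ℝ} (hC : 0 < C)
    (hT : TensP μ C) : Ent μ (Kop μ f) ≤ (1 - 1 / (C * Fintype.card ι)) * Ent μ f := by
  have hn : (0 : ℝ) < Fintype.card ι := cardp
  have hρ := avg_pos hw hf
  have e0 : avg μ (Kop μ f) = avg μ f := by simp only [avg, Kop_mean hw]
  set ρ := avg μ f with hρd
  have hq := Qop_pos hw hf
  have a1 : ∀ x, ph (Kop μ f x) ρ ≤ (∑ i, ph (Qop μ i f x) ρ) / Fintype.card ι := by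
    intro x
    rw [ph_eq_young (Kop_pos hw hf x) hρ, le_div_iff₀ hn]
    set u := log (Kop μ f x / ρ)
    have := sum_le_sum fun i (_ : i ∈ univ) => young (hq i x) hρ u
    rw [sum_add_distrib, ← sum_mul, sum_const, card_univ, nsmul_eq_mul] at this
    have e : Kop μ f x * Fintype.card ι = ∑ i, Qop μ i f x := div_mul_cancel₀ _ hn.ne'
    rw [← e] at this
    linarith
  have a2 : ∀ i, ∑ x, μ x * ph (Qop μ i f x) ρ = Ent μ f - ∑ x, μ x * ph (f x) (Qop μ i f x) := by
    intro i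
    have b := Qop_adj hw i f (G := fun x => log (Qop μ i f x / ρ)) fun x => by rw [Qop_fl]
    rw [Ent, ← hρd, ← sum_sub_distrib]
    have c : ∀ x, μ x * ph (f x) ρ - μ x * ph (f x) (Qop μ i f x) = μ x * ph (Qop μ i f x) ρ
        + (μ x * (f x * log (Qop μ i f x / ρ)) - μ x * (Qop μ i f x * log (Qop μ i f x / ρ))) := by
      intro x
      unfold ph
      rw [Real.log_div (hf x).ne' hρ.ne', Real.log_div (hf x).ne' (hq i x).ne',
        Real.log_div (hq i x).ne' hρ.ne']
      ring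
    simp only [c, sum_add_distrib, sum_sub_distrib, b, sub_self, add_zero]
  have a3 := hT f (fun i => Qop μ i f) hf hq fun i x => Qop_fl μ i f x
  have a4 : Ent μ (Kop μ f) ≤ (Fintype.card ι * Ent μ f - Lam μ f fun i => Qop μ i f)
      / Fintype.card ι := by
    rw [Ent, e0]
    refine (sum_le_sum fun x _ => mul_le_mul_of_nonneg_left (a1 x) (hw x).le).trans (le_of_eq ?_)
    simp only [← mul_div_assoc, ← sum_div, mul_sum]
    rw [sum_comm]
    simp only [a2, sum_sub_distrib, sum_const, card_univ, nsmul_eq_mul, Lam]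
  refine a4.trans ?_
  rw [div_le_iff₀ hn]
  have e : (1 - 1 / (C * Fintype.card ι)) * Ent μ f * Fintype.card ι
      = Fintype.card ι * Ent μ f - Ent μ f / C := by field_simp
  have : Ent μ f / C ≤ Lam μ f fun i => Qop μ i f := by rw [div_le_iff₀ hC]; linarith
  linarith

omit [Nonempty ι] in
lemma row_step {μ : (ι → Bool) → ℝ} (hw : ∀ x, 0 < μ x) {H : ι → Matrix (ι → Bool) (ι → Bool) ℝ}
    (hH : ∀ i f x, (H i).mulVec f x = Qop μ i f x) (ψ : (ι → Bool) → ℝ) (y : ι → Bool) :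
    ∑ z, μ z * ψ z * (((Fintype.card ι : ℝ)⁻¹ • ∑ i, H i) z y) = μ y * Kop μ ψ y := by
  have a : ∀ i, ∑ z, μ z * (ψ z * H i z y) = μ y * Qop μ i ψ y := by
    intro i
    have b := Qop_symm hw i ψ (Pi.single y 1)
    simp only [← hH i (Pi.single y 1), Matrix.mulVec_single_one, Matrix.col_apply] at b
    rw [b, sum_eq_single y (fun z _ hz => by simp [hz]) (by simp)]
    simp
  simp only [Matrix.smul_apply, Matrix.sum_apply, smul_eq_mul, Kop, ← mul_div_assoc, mul_sum, ← a,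
    sum_div]
  rw [sum_comm]
  exact sum_congr rfl fun i _ => sum_congr rfl fun z _ => by ring

lemma Kop_affine {μ : (ι → Bool) → ℝ} (hw : ∀ x, 0 < μ x) (a b : ℝ) (f : (ι → Bool) → ℝ)
    (x : ι → Bool) : Kop μ (fun y => a * f y + b) x = a * Kop μ f x + b := by
  have hn : (0 : ℝ) < Fintype.card ι := cardp
  have : ∀ i, Qop μ i (fun y => a * f y + b) x = a * Qop μ i f x + b := by
    intro i
    have := (add_pos (hw x) (hw (fl i x))).ne'
    unfold Qop; field_simp; ring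
  simp only [Kop, this, sum_add_distrib, ← mul_sum, sum_const, card_univ, nsmul_eq_mul]
  field_simp

lemma tv_pow {μ : (ι → Bool) → ℝ} (hw : ∀ x, 0 < μ x) (h1 : ∑ x, μ x = 1) {C L : ℝ} (hC : 1 ≤ C)
    (hT : TensP μ C) {H : ι → Matrix (ι → Bool) (ι → Bool) ℝ}
    (hH : ∀ i f x, (H i).mulVec f x = Qop μ i f x) (x : ι → Bool) (hL : -log (μ x) ≤ L) (k : ℕ) :
    ∑ y, |(((Fintype.card ι : ℝ)⁻¹ • ∑ i, H i) ^ k) x y - μ y|
      ≤ 4 * √L * (1 - 1 / (2 * C * Fintype.card ι)) ^ k := by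
  set K := (Fintype.card ι : ℝ)⁻¹ • ∑ i, H i with hK
  have hn : (1 : ℝ) ≤ Fintype.card ι := by exact_mod_cast Fintype.card_pos
  set φ : ℕ → (ι → Bool) → ℝ := fun k y => ((K ^ k) x y / μ y + 1) / 2 with hφ
  have hφe : ∀ k y, (K ^ k) x y = μ y * (2 * φ k y + -1) := fun k y => by
    have := (hw y).ne'
    simp only [hφ]; field_simp; ring
  have hs : ∀ k, φ (k + 1) = Kop μ (φ k) := by
    intro k
    funext y
    have b := row_step hw hH (fun y => 2 * φ k y + -1) y
    rw [← hK, Kop_affine hw] at b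
    simp only [← hφe] at b
    have e : (K ^ (k + 1)) x y = μ y * (2 * Kop μ (φ k) y + -1) := by
      rw [pow_succ, Matrix.mul_apply, b]
    have := (hw y).ne'
    change ((K ^ (k + 1)) x y / μ y + 1) / 2 = _
    rw [e]
    field_simp; ring
  set r := 1 - 1 / (C * Fintype.card ι) with hr
  have hCn : 1 ≤ C * Fintype.card ι := by nlinarith
  have hr0 : 0 ≤ r := by rw [hr, sub_nonneg, div_le_one (by linarith)]; exact hCn
  have hμ1 : μ x ≤ 1 := h1 ▸ single_le_sum (fun y _ => (hw y).le) (mem_univ x)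
  have hL0 : 0 ≤ L := le_trans (neg_nonneg.2 (Real.log_nonpos (hw x).le hμ1)) hL
  have key : ∀ k, (∀ y, 0 < φ k y) ∧ ∑ y, μ y * φ k y = 1 ∧ Ent μ (φ k) ≤ r ^ k * L := by
    intro k
    induction k with
    | zero =>
      have p0 : ∀ y, 0 < φ 0 y ∧ φ 0 y ≤ 1 / μ x := by
        intro y
        have := hw y
        have := one_le_one_div (hw x) hμ1
        simp only [hφ, pow_zero, Matrix.one_apply]
        split_ifs with e
        · subst e; exact ⟨by positivity, by linarith⟩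
        · exact ⟨by simp, by simp only [zero_div]; linarith⟩
      have m0 : ∑ y, μ y * φ 0 y = 1 := by
        have e : ∀ y, μ y * φ 0 y = ((K ^ 0) x y + μ y) / 2 := fun y => by rw [hφe]; ring
        simp only [e, ← sum_div, sum_add_distrib, h1, pow_zero, Matrix.one_apply, sum_ite_eq,
          mem_univ, if_true]
        norm_num
      refine ⟨fun y => (p0 y).1, m0, ?_⟩
      have e : avg μ (φ 0) = 1 := by rw [avg, m0, h1, div_one]
      rw [Ent, e, pow_zero, one_mul]
      have b : ∀ y, μ y * ph (φ 0 y) 1 ≤ μ y * φ 0 y * L - μ y * φ 0 y + μ y := by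
        intro y
        have c := Real.log_le_log (p0 y).1 (p0 y).2
        rw [one_div, Real.log_inv] at c
        have := mul_le_mul_of_nonneg_left (c.trans hL) (mul_pos (hw y) (p0 y).1).le
        unfold ph; rw [div_one]; linarith
      refine (sum_le_sum fun y _ => b y).trans (le_of_eq ?_)
      simp only [sum_add_distrib, sum_sub_distrib, ← sum_mul, m0, h1]; ring
    | succ k ih =>
      rw [hs]
      refine ⟨Kop_pos hw ih.1, by rw [Kop_mean hw, ih.2.1], ?_⟩
      refine (Ent_Kop hw ih.1 (by linarith) hT).trans ?_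
      rw [← hr, pow_succ', mul_assoc]
      exact mul_le_mul_of_nonneg_left ih.2.2 hr0
  obtain ⟨k1, k2, k3⟩ := key k
  have hH2 := hellinger hw k1
  have e : avg μ (φ k) = 1 := by rw [avg, k2, h1, div_one]
  rw [e, k2] at hH2
  have e2 : ∑ y, |(K ^ k) x y - μ y| = 2 * ∑ y, μ y * |φ k y - 1| := by
    rw [mul_sum]
    refine sum_congr rfl fun y _ => ?_
    rw [hφe, show μ y * (2 * φ k y + -1) - μ y = 2 * μ y * (φ k y - 1) by ring, abs_mul,
      abs_of_pos (by have := hw y; positivity : 0 < 2 * μ y), mul_assoc]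
  set q := 1 - 1 / (2 * C * Fintype.card ι) with hq
  have hq2 : 1 / (C * Fintype.card ι) = 2 * (1 / (2 * C * Fintype.card ι)) := by field_simp
  have hq0 : 0 ≤ q := by
    rw [hq, sub_nonneg, div_le_one (by linarith)]; linarith
  have hrq : r ≤ q ^ 2 := by rw [hr, hq, hq2]; nlinarith [sq_nonneg (1 / (2 * C * Fintype.card ι))]
  have hk : r ^ k ≤ (q ^ k) ^ 2 := by
    rw [← pow_mul, mul_comm, pow_mul]; exact pow_le_pow_left₀ hr0 hrq k
  rw [e2]
  refine abs_le_of_sq_le_sq' ?_ (by positivity) |>.2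
  rw [mul_pow, mul_pow, mul_pow, sq_sqrt hL0]
  nlinarith [mul_le_mul_of_nonneg_right hk hL0]

omit [Nonempty ι] in
set_option backward.isDefEq.respectTransparency false in
lemma hasSum_exp {X : Type} [Fintype X] [DecidableEq X] (K : Matrix X X ℝ) (s : ℝ) (x y : X) :
    HasSum (fun k : ℕ => exp (-s) * (s ^ k / k.factorial) * (K ^ k) x y)
      (NormedSpace.exp (s • (K - 1)) x y) := by
  have h1 : HasSum (fun k : ℕ => ((k.factorial : ℝ)⁻¹) • (s • K) ^ k) (NormedSpace.exp (s • K)) :=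
    open scoped Matrix.Norms.Operator in NormedSpace.exp_series_hasSum_exp' (𝕂 := ℝ) (s • K)
  have h2 := (Pi.hasSum.1 (Pi.hasSum.1 h1 x) y).mul_left (exp (-s))
  have h3 : NormedSpace.exp (s • (K - 1)) = exp (-s) • NormedSpace.exp (s • K) := by
    have e : s • (K - 1) = Matrix.diagonal (fun _ => -s) + s • K := by
      ext a b
      by_cases h : a = b <;> simp [h, Matrix.diagonal]
      ring
    have c : Commute (Matrix.diagonal (fun _ : X => -s)) (s • K) := by
      have : Matrix.diagonal (fun _ : X => -s) = (-s) • (1 : Matrix X X ℝ) := by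
        rw [Matrix.smul_one_eq_diagonal]
      rw [this]
      exact ((Commute.one_left _).smul_left _)
    rw [e, Matrix.exp_add_of_commute _ _ c, Matrix.exp_diagonal]
    ext a b
    rw [Matrix.diagonal_mul, Pi.coe_exp, ← Real.exp_eq_exp_ℝ]
    rfl
  rw [h3]
  have e : (fun k : ℕ => exp (-s) * (s ^ k / k.factorial) * (K ^ k) x y) = fun k : ℕ =>
      exp (-s) * (((k.factorial : ℝ)⁻¹) • (s • K) ^ k) x y := by
    funext k
    simp [smul_pow]; ring
  rw [e]
  exact h2

lemma gen_eq (H : ι → Matrix (ι → Bool) (ι → Bool) ℝ) (t : ℝ) : t • ∑ i, (H i - 1)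
    = (t * Fintype.card ι) • (((Fintype.card ι : ℝ)⁻¹ • ∑ i, H i) - 1) := by
  have hn : (0 : ℝ) < Fintype.card ι := cardp
  rw [sum_sub_distrib, sum_const, card_univ, smul_sub, smul_sub, smul_smul, mul_assoc,
    mul_inv_cancel₀ hn.ne', mul_one, ← Nat.cast_smul_eq_nsmul ℝ, smul_smul]

lemma hasSum_pois (s q : ℝ) :
    HasSum (fun k : ℕ => exp (-s) * (s ^ k / k.factorial) * q ^ k) (exp (-(s * (1 - q)))) := by
  have h := (NormedSpace.expSeries_div_hasSum_exp (s * q)).mul_left (exp (-s))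
  rw [← Real.exp_eq_exp_ℝ, ← Real.exp_add] at h
  rw [show -(s * (1 - q)) = -s + s * q by ring]
  refine h.congr_fun fun k => ?_
  rw [mul_pow]; ring

theorem tv_exp {μ : (ι → Bool) → ℝ} (hw : ∀ x, 0 < μ x) (h1 : ∑ x, μ x = 1) {C L : ℝ}
    (hC : 1 ≤ C) (hT : TensP μ C) {H : ι → Matrix (ι → Bool) (ι → Bool) ℝ}
    (hH : ∀ i f x, (H i).mulVec f x = Qop μ i f x) (x : ι → Bool) (hL : -log (μ x) ≤ L) {t : ℝ}
    (ht : 0 ≤ t) : ∑ y, |NormedSpace.exp (t • ∑ i, (H i - 1)) x y - μ y|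
      ≤ 4 * √L * exp (-(t / (2 * C))) := by
  have hn : (0 : ℝ) < Fintype.card ι := cardp
  rw [gen_eq]
  set K := (Fintype.card ι : ℝ)⁻¹ • ∑ i, H i with hK
  set s := t * Fintype.card ι with hs
  have hs0 : 0 ≤ s := by positivity
  set P := NormedSpace.exp (s • (K - 1))
  have a1 : ∀ y, HasSum (fun k : ℕ => exp (-s) * (s ^ k / k.factorial) * ((K ^ k) x y - μ y))
      (P x y - μ y) := by
    intro y
    have b := (hasSum_exp K s x y).sub ((hasSum_pois s 1).mul_right (μ y))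
    simp only [one_pow, mul_one, sub_self, mul_zero, neg_zero, exp_zero, one_mul] at b
    refine b.congr_fun fun k => ?_
    ring
  have a2 := hasSum_sum fun y (_ : y ∈ univ) =>
    (a1 y).mul_left (SignType.sign (P x y - μ y) : ℝ)
  simp only [sign_mul_self] at a2
  have a3 := (hasSum_pois s (1 - 1 / (2 * C * Fintype.card ι))).mul_left (4 * √L)
  have e : s * (1 - (1 - 1 / (2 * C * Fintype.card ι))) = t / (2 * C) := by
    rw [hs]; field_simp; ring
  rw [e] at a3
  refine hasSum_le (fun k => ?_) a2 a3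
  have c := tv_pow hw h1 hC hT hH x hL k
  rw [← hK] at c
  have p : 0 ≤ exp (-s) * (s ^ k / k.factorial) := by positivity
  have d := mul_le_mul_of_nonneg_left c p
  refine le_trans ?_ (d.trans (le_of_eq (by ring)))
  rw [mul_sum]
  refine sum_le_sum fun y _ => ?_
  rw [mul_left_comm]
  refine mul_le_mul_of_nonneg_left ((le_abs_self _).trans ?_) p
  rw [abs_mul]
  refine mul_le_of_le_one_left (abs_nonneg _) ?_
  rcases SignType.trichotomy (SignType.sign (P x y - μ y)) with h | h | h <;> simp [h]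

omit [Nonempty ι] in
lemma dir_eq {μ : (ι → Bool) → ℝ} (hw : ∀ x, 0 < μ x) (i : ι) (g : (ι → Bool) → ℝ) :
    ∑ x, μ x * (g x - Qop μ i g x) ^ 2 = ∑ x, μ x * (g x * (g x - Qop μ i g x)) := by
  have b := Qop_adj hw i g (Qop_fl μ i g)
  have e : ∀ x, μ x * (g x - Qop μ i g x) ^ 2 = μ x * (g x * (g x - Qop μ i g x))
      + (μ x * (Qop μ i g x * Qop μ i g x) - μ x * (g x * Qop μ i g x)) := fun x => by ring
  simp only [e, sum_add_distrib, sum_sub_distrib, b, sub_self, add_zero]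

omit [Nonempty ι] in
theorem poincare {μ : (ι → Bool) → ℝ} (hw : ∀ x, 0 < μ x) (h1 : ∑ x, μ x = 1) {C : ℝ}
    (hC : 0 ≤ C) (hT : TensP μ C) (g : (ι → Bool) → ℝ) :
    ∑ x, μ x * (g x - ∑ y, μ y * g y) ^ 2
      ≤ 10 * C * ∑ i, ∑ x, μ x * (g x - Qop μ i g x) ^ 2 := by
  set m := ∑ y, μ y * g y with hm
  set A := ∑ x, |g x - m| + 1 with hA
  have hA1 : ∀ x, |g x - m| ≤ A - 1 := fun x => by
    rw [hA, add_sub_cancel_right]
    exact single_le_sum (f := fun x => |g x - m|) (fun _ _ => abs_nonneg _) (mem_univ x)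
  have hAp : 0 < A := by
    have := hA1 fun _ => true
    have := abs_nonneg (g (fun _ => true) - m)
    linarith
  set ε := 1 / (2 * A) with hε
  have hεp : 0 < ε := by positivity
  have hεA : ε * A = 1 / 2 := by rw [hε]; field_simp
  set f : (ι → Bool) → ℝ := fun x => ε * g x + (1 - ε * m) with hf
  have hb : ∀ x, 1 / 2 ≤ f x ∧ f x ≤ 3 / 2 := fun x => by
    have := abs_le.1 (hA1 x)
    simp only [hf]
    constructor <;> nlinarith
  have hfp : ∀ x, 0 < f x := fun x => by linarith [(hb x).1]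
  have hQ : ∀ i x, Qop μ i f x = ε * Qop μ i g x + (1 - ε * m) := by
    intro i x
    have := (add_pos (hw x) (hw (fl i x))).ne'
    simp only [Qop, hf]; field_simp; ring
  have hQ2 : ∀ i x, 1 / 2 ≤ Qop μ i f x := by
    intro i x
    rw [Qop, le_div_iff₀ (add_pos (hw x) (hw (fl i x)))]
    nlinarith [mul_le_mul_of_nonneg_left (hb x).1 (hw x).le,
      mul_le_mul_of_nonneg_left (hb (fl i x)).1 (hw (fl i x)).le]
  have a := hT f (fun i => Qop μ i f) hfp (Qop_pos hw hfp) fun i x => Qop_fl μ i f x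
  have e : avg μ f = 1 := by
    simp only [avg, h1, div_one, hf, mul_add, sum_add_distrib, ← sum_mul, mul_left_comm _ ε,
      ← mul_sum, ← hm]
    ring
  have b1 : ε ^ 2 / 5 * ∑ x, μ x * (g x - m) ^ 2 ≤ Ent μ f := by
    rw [Ent, e, mul_sum]
    refine sum_le_sum fun x _ => ?_
    rw [mul_left_comm]
    refine mul_le_mul_of_nonneg_left (le_trans ?_ (ph_ge (hfp x) one_pos)) (hw x).le
    rw [sqrt_one]
    have c1 := sq_sqrt (hfp x).le
    have c2 := sqrt_nonneg (f x)
    have c3 : (√(f x) + 1) ^ 2 ≤ 5 := by nlinarith [(hb x).2, sq_nonneg (√(f x) - 5 / 4)]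
    have c4 : (ε * (g x - m)) ^ 2 = (√(f x) - 1) ^ 2 * (√(f x) + 1) ^ 2 := by
      rw [← mul_pow]; congr 1
      have : f x = ε * g x + (1 - ε * m) := rfl
      nlinarith
    nlinarith [mul_le_mul_of_nonneg_left c3 (sq_nonneg (√(f x) - 1))]
  have b2 : Lam μ f (fun i => Qop μ i f) ≤ 2 * ε ^ 2 * ∑ i, ∑ x, μ x * (g x - Qop μ i g x) ^ 2 := by
    simp only [Lam, mul_sum]
    refine sum_le_sum fun i _ => sum_le_sum fun x _ => ?_
    rw [mul_left_comm]
    refine mul_le_mul_of_nonneg_left ((ph_le (hfp x) (Qop_pos hw hfp i x)).trans ?_) (hw x).le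
    rw [div_le_iff₀ (Qop_pos hw hfp i x)]
    have c : f x - Qop μ i f x = ε * (g x - Qop μ i g x) := by rw [hQ]; simp only [hf]; ring
    rw [c]
    nlinarith [mul_le_mul_of_nonneg_left (hQ2 i x) (sq_nonneg (ε * (g x - Qop μ i g x)))]
  have b3 := b1.trans (a.trans (mul_le_mul_of_nonneg_left b2 hC))
  have : 0 < ε ^ 2 := by positivity
  nlinarith

end Vale.Agent.P150
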