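import Mathlib.Analysis.Complex.ExponentialBounds
import Vale.Agent.P150.Mix

namespace Vale.Agent.P150

open Finset Real

variable {ι : Type} [Fintype ι] [DecidableEq ι]

noncomputable def pf (w : (ι → Bool) → ℝ) (i : ι) (x : ι → Bool) : ℝ :=
  w (fl i x) / (w x + w (fl i x))

noncomputable def Lz (w f : (ι → Bool) → ℝ) (x : ι → Bool) : ℝ :=
  f x - (∑ i, pf w i x * (f x - f (fl i x))) / (2 * Fintype.card ι)

def Gam (f : (ι → Bool) → ℝ) (x : ι → Bool) : ℝ := ∑ j, (f x - f (fl j x)) ^ 2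

omit [Fintype ι] in
lemma Qop_eq {w : (ι → Bool) → ℝ} (hw : ∀ x, 0 < w x) (i : ι) (f : (ι → Bool) → ℝ) (x : ι → Bool) :
    Qop w i f x = f x - pf w i x * (f x - f (fl i x)) := by
  have := (add_pos (hw x) (hw (fl i x))).ne'
  unfold Qop pf; field_simp; ring

omit [Fintype ι] in
lemma pf_pos {w : (ι → Bool) → ℝ} (hw : ∀ x, 0 < w x) (i : ι) (x : ι → Bool) : 0 < pf w i x :=
  div_pos (hw _) (add_pos (hw _) (hw _))

omit [Fintype ι] in
lemma pf_fl {w : (ι → Bool) → ℝ} (hw : ∀ x, 0 < w x) (i : ι) (x : ι → Bool) :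
    pf w i (fl i x) = 1 - pf w i x := by
  have := (add_pos (hw x) (hw (fl i x))).ne'
  simp only [pf, fl_fl, add_comm (w (fl i x))]; field_simp; ring

omit [Fintype ι] in
lemma pf_le {w : (ι → Bool) → ℝ} (hw : ∀ x, 0 < w x) (i : ι) (x : ι → Bool) : pf w i x ≤ 1 := by
  have := pf_pos hw i (fl i x)
  rw [pf_fl hw] at this; linarith

lemma logistic {E y : ℝ} (hE : 0 < E) (hy : |y| ≤ 1) :
    (1 / (1 + E * exp y) - 1 / (1 + E)) ^ 2 ≤ 36 * (1 / (1 + E)) * y ^ 2 ∧
      |1 / (1 + E * exp y) - 1 / (1 + E) + 1 / (1 + E) * (1 - 1 / (1 + E)) * y| ≤ 13 * y ^ 2 := by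
  have h1 := Real.abs_exp_sub_one_le hy
  have h2 := Real.abs_exp_sub_one_sub_id_le hy
  have h3 : 1 / 3 ≤ exp y := by
    have a := Real.exp_le_exp.2 (abs_le.1 hy).1
    have b := Real.exp_one_lt_d9
    rw [Real.exp_neg] at a
    refine le_trans ?_ a
    rw [one_div]
    exact inv_anti₀ (exp_pos _) (by linarith)
  set ρ := exp y
  have h4 : (ρ - 1) ^ 2 ≤ 4 * y ^ 2 := by
    have := pow_le_pow_left₀ (abs_nonneg _) h1 2
    rw [sq_abs, mul_pow, sq_abs] at this; linarith
  have hp : 0 < 1 + E * ρ := by positivity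
  set T := E / (1 + E * ρ) with hT
  have T0 : 0 ≤ T := by positivity
  have T3 : T ≤ 3 := by rw [hT, div_le_iff₀ hp]; nlinarith
  set p := 1 / (1 + E) with hpd
  have p0 : 0 < p := by positivity
  have p1 : p ≤ 1 := by rw [hpd, div_le_one (by positivity)]; linarith
  have e1 : 1 / (1 + E * ρ) - p = p * T * (1 - ρ) := by rw [hpd, hT]; field_simp; ring
  have e2 : 1 / (1 + E * ρ) - p + p * (1 - p) * y
      = p * (1 - p) * (-(ρ - 1 - y) + (ρ - 1) ^ 2 * T) := by rw [hpd, hT]; field_simp; ring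
  constructor
  · rw [e1]
    have a : (p * T) ^ 2 ≤ 9 * p := by
      have : p * T ≤ 3 * p := by nlinarith
      have : (p * T) ^ 2 ≤ (3 * p) ^ 2 := pow_le_pow_left₀ (by positivity) this 2
      nlinarith
    have := mul_le_mul a h4 (sq_nonneg _) (by positivity)
    nlinarith
  · rw [e2, abs_mul]
    have a : |p * (1 - p)| ≤ 1 := by
      rw [abs_of_nonneg (mul_nonneg p0.le (by linarith))]; nlinarith
    have b : |-(ρ - 1 - y) + (ρ - 1) ^ 2 * T| ≤ 13 * y ^ 2 := by
      have := mul_le_mul h4 T3 T0 (by positivity)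
      have := mul_nonneg (sq_nonneg (ρ - 1)) T0
      have := abs_le.1 h2
      rw [abs_le]; constructor <;> nlinarith
    nlinarith [mul_le_mul a b (abs_nonneg _) zero_le_one]

omit [DecidableEq ι] in
lemma schur {m r : ι → ι → ℝ} {S : ℝ} (hS : 0 ≤ S) (h1 : ∀ j, ∑ i, m i j ≤ S)
    (h2 : ∀ i, ∑ j, m i j ≤ S) (hr : ∀ i j, |r i j| ≤ m i j) (a : ι → ℝ) :
    ∑ j, (∑ i, r i j * a i) ^ 2 ≤ S ^ 2 * ∑ i, a i ^ 2 := by
  have m0 : ∀ i j, 0 ≤ m i j := fun i j => (abs_nonneg _).trans (hr i j)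
  have b : ∀ j, (∑ i, r i j * a i) ^ 2 ≤ S * ∑ i, m i j * a i ^ 2 := by
    intro j
    refine (sum_sq_le_sum_mul_sum_of_sq_le_mul univ (f := fun i => m i j)
      (g := fun i => m i j * a i ^ 2) (fun i _ => m0 i j)
      (fun i _ => mul_nonneg (m0 i j) (sq_nonneg _)) fun i _ => ?_).trans
      (mul_le_mul_of_nonneg_right (h1 j) (sum_nonneg fun i _ => mul_nonneg (m0 i j) (sq_nonneg _)))
    have := pow_le_pow_left₀ (abs_nonneg _) (hr i j) 2
    rw [sq_abs] at this
    nlinarith [mul_le_mul_of_nonneg_right this (sq_nonneg (a i))]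
  refine (sum_le_sum fun j _ => b j).trans ?_
  rw [← mul_sum, sum_comm, sq S, mul_assoc, mul_sum univ (fun i => a i ^ 2) S]
  refine mul_le_mul_of_nonneg_left (sum_le_sum fun i _ => ?_) hS
  rw [← sum_mul]
  exact mul_le_mul_of_nonneg_right (h2 i) (sq_nonneg _)

omit [DecidableEq ι] in
lemma opnorm {J : Matrix ι ι ℝ} (hs : ∀ i j, J i j = J j i)
    (hJ : ∀ v : ι → ℝ, |∑ i, ∑ j, J i j * (v i * v j)| ≤ ∑ i, v i ^ 2) (v : ι → ℝ) :
    ∑ j, (∑ i, J i j * v i) ^ 2 ≤ ∑ i, v i ^ 2 := by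
  set u : ι → ℝ := fun j => ∑ i, J i j * v i with hu
  have a := (abs_le.1 (hJ fun i => u i + v i)).2
  have b := (abs_le.1 (hJ fun i => u i - v i)).1
  have c1 : ∑ i, ∑ j, J i j * (v i * u j) = ∑ j, u j ^ 2 := by
    rw [sum_comm]
    refine sum_congr rfl fun j _ => ?_
    rw [sq]; nth_rewrite 2 [hu]; rw [sum_mul]
    exact sum_congr rfl fun i _ => by ring
  have c2 : ∑ i, ∑ j, J i j * (u i * v j) = ∑ j, u j ^ 2 := by
    rw [← c1, sum_comm]
    exact sum_congr rfl fun i _ => sum_congr rfl fun j _ => by rw [hs]; ring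
  simp only [add_mul, mul_add, sub_mul, mul_sub, sum_add_distrib, sum_sub_distrib, add_sq, sub_sq,
    c1, c2] at a b
  linarith

lemma grad_step [Nonempty ι] {w : (ι → Bool) → ℝ} (hw : ∀ x, 0 < w x) {J : Matrix ι ι ℝ}
    (hs : ∀ i j, J i j = J j i) (hd : ∀ i, J i i = 0)
    (hJ : ∀ v : ι → ℝ, |∑ i, ∑ j, J i j * (v i * v j)| ≤ ∑ i, v i ^ 2)
    (hp : ∀ i j x, i ≠ j → (pf w i (fl j x) - pf w i x) ^ 2 ≤ 576 * pf w i x * J i j ^ 2 ∧
      |pf w i (fl j x) - pf w i x - 4 * (pf w i x * (1 - pf w i x)) * (spin (x i) * spin (x j))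
        * J i j| ≤ 208 * J i j ^ 2)
    (hn : 2304 ≤ (Fintype.card ι : ℝ)) {f : (ι → Bool) → ℝ} {G : ℝ} (hG : ∀ y, Gam f y ≤ G)
    (x : ι → Bool) : Gam (Lz w f) x ≤ (1 + 5000 / (2 * Fintype.card ι)) * G := by
  set N : ℝ := 2 * Fintype.card ι with hN
  have hNp : 4608 ≤ N := by linarith
  set a : ι → ℝ := fun j => f x - f (fl j x) with ha
  set Δ : ι → ι → ℝ := fun i j => a j - (f (fl i x) - f (fl j (fl i x))) with hΔ
  set p : ι → ℝ := fun i => pf w i x with hpd
  have p0 : ∀ i, 0 < p i := fun i => pf_pos hw i x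
  have p1 : ∀ i, p i ≤ 1 := fun i => pf_le hw i x
  set δ : ι → ι → ℝ := fun i j => if i = j then 0 else pf w i (fl j x) - p i with hδ
  set r : ι → ι → ℝ := fun i j => if i = j then 2 * p i - 1 else
    δ i j - 4 * (p i * (1 - p i)) * (spin (x i) * spin (x j)) * J i j with hr
  set V := ∑ j, ∑ i, p i * Δ i j ^ 2 with hV
  have V0 : 0 ≤ V := sum_nonneg fun j _ => sum_nonneg fun i _ => mul_nonneg (p0 i).le (sq_nonneg _)
  have G0 : ∑ j, a j ^ 2 ≤ G := hG x
  have a0 : 0 ≤ ∑ j, a j ^ 2 := sum_nonneg fun _ _ => sq_nonneg _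
  have row : ∀ j, ∑ i, J i j ^ 2 ≤ 1 := fun j => by
    have := opnorm hs hJ (Pi.single j 1)
    simpa [Pi.single_apply, hs j] using this
  have dec : ∀ j, Lz w f x - Lz w f (fl j x) = (a j - (∑ i, p i * Δ i j) / N)
      + (spin (x j) * (∑ i, J i j * (4 * (p i * (1 - p i)) * spin (x i) * a i))
        + ∑ i, r i j * a i) / N + -(∑ i, δ i j * Δ i j) / N := by
    intro j
    have e : ∑ i, pf w i x * (f x - f (fl i x)) - ∑ i, pf w i (fl j x) *
        (f (fl j x) - f (fl i (fl j x))) = ∑ i, p i * Δ i j - (spin (x j) *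
        (∑ i, J i j * (4 * (p i * (1 - p i)) * spin (x i) * a i)) + ∑ i, r i j * a i)
        + ∑ i, δ i j * Δ i j := by
      simp only [mul_sum, ← sum_sub_distrib, ← sum_add_distrib]
      refine sum_congr rfl fun i _ => ?_
      by_cases h : i = j
      · subst h
        simp only [hr, hδ, hΔ, ha, hpd, if_true, fl_fl, pf_fl hw, hd]; ring
      · simp only [hr, hδ, hΔ, ha, hpd, if_neg h, fl_comm j i]; ring
    simp only [Lz, ← hN]
    have e2 : a j = f x - f (fl j x) := rfl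
    rw [e2]
    linear_combination (-1 / N) * e
  have bA : ∑ j, (a j - (∑ i, p i * Δ i j) / N) ^ 2 ≤ G - V / (2 * N) := by
    have hN0 : 0 < N := by linarith
    have s1 : ∑ i, p i ≤ N / 2 := by
      refine (sum_le_sum fun i _ => p1 i).trans (le_of_eq ?_)
      simp [hN]
    have c1 : ∀ j, (a j - (∑ i, p i * Δ i j) / N) ^ 2 ≤ (1 - (∑ i, p i) / N) * a j ^ 2
        + (∑ i, p i * (a j - Δ i j) ^ 2) / N - (∑ i, p i * Δ i j ^ 2) / (2 * N) := by
      intro j
      have d1 := sum_sq_le_sum_mul_sum_of_sq_le_mul univ (r := fun i => p i * Δ i j) (f := p)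
        (g := fun i => p i * Δ i j ^ 2) (fun i _ => (p0 i).le)
        (fun i _ => mul_nonneg (p0 i).le (sq_nonneg _)) fun i _ => le_of_eq (by ring)
      have d2 : ∑ i, p i * (a j - Δ i j) ^ 2 = (∑ i, p i) * a j ^ 2
          - 2 * a j * ∑ i, p i * Δ i j + ∑ i, p i * Δ i j ^ 2 := by
        simp only [sum_mul, mul_sum, ← sum_sub_distrib, ← sum_add_distrib]
        exact sum_congr rfl fun i _ => by ring
      have d3 : 0 ≤ ∑ i, p i * Δ i j ^ 2 :=
        sum_nonneg fun i _ => mul_nonneg (p0 i).le (sq_nonneg _)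
      have d4 := d1.trans (mul_le_mul_of_nonneg_right s1 d3)
      rw [d2]
      set U := ∑ i, p i * Δ i j
      set W := ∑ i, p i * Δ i j ^ 2
      have : (1 - (∑ i, p i) / N) * a j ^ 2 + ((∑ i, p i) * a j ^ 2 - 2 * a j * U + W) / N
          - W / (2 * N) - (a j - U / N) ^ 2 = (N / 2 * W - U ^ 2) / N ^ 2 := by field_simp; ring
      have : 0 ≤ (N / 2 * W - U ^ 2) / N ^ 2 := div_nonneg (by linarith) (sq_nonneg _)
      linarith
    refine (sum_le_sum fun j _ => c1 j).trans ?_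
    rw [sum_sub_distrib, sum_add_distrib, ← mul_sum, ← sum_div, ← sum_div, ← hV, sum_comm]
    have c2 : ∑ i, ∑ j, p i * (a j - Δ i j) ^ 2 ≤ (∑ i, p i) * G := by
      rw [sum_mul]
      refine sum_le_sum fun i _ => ?_
      rw [← mul_sum]
      refine mul_le_mul_of_nonneg_left (le_trans (le_of_eq ?_) (hG (fl i x))) (p0 i).le
      simp [Gam, hΔ]
    have c3 : (∑ i, p i) / N ≤ 1 := by rw [div_le_one hN0]; linarith
    have c4 := mul_le_mul_of_nonneg_left G0 (sub_nonneg.2 c3)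
    have c5 := div_le_div_of_nonneg_right c2 hN0.le
    rw [mul_div_right_comm] at c5
    linarith
  have bB : ∑ j, (spin (x j) * (∑ i, J i j * (4 * (p i * (1 - p i)) * spin (x i) * a i))
      + ∑ i, r i j * a i) ^ 2 ≤ 90000 * G := by
    have c1 := opnorm hs hJ fun i => 4 * (p i * (1 - p i)) * spin (x i) * a i
    have c2 : ∑ i, (4 * (p i * (1 - p i)) * spin (x i) * a i) ^ 2 ≤ ∑ i, a i ^ 2 := by
      refine sum_le_sum fun i _ => ?_
      rw [mul_pow, mul_pow _ (spin _), spin_sq, mul_one]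
      refine mul_le_of_le_one_left (sq_nonneg _) (pow_le_one₀ ?_ ?_)
      · nlinarith [p0 i, p1 i]
      · nlinarith [sq_nonneg (2 * p i - 1)]
    have c3 := schur (m := fun i j => 208 * J i j ^ 2 + if i = j then 1 else 0) (r := r)
      (S := 209) (by norm_num)
      (fun j => by
        simp only [sum_add_distrib, ← mul_sum, sum_ite_eq', mem_univ, if_true]; linarith [row j])
      (fun i => by
        simp only [sum_add_distrib, ← mul_sum, sum_ite_eq, mem_univ, if_true, hs i]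
        linarith [row i])
      (fun i j => by
        by_cases h : i = j
        · simp only [hr, if_pos h]
          have := sq_nonneg (J i j)
          rw [abs_le]; constructor <;> linarith [p0 i, p1 i]
        · simp only [hr, hδ, if_neg h, add_zero]
          exact (hp i j x h).2) a
    have c4 : ∀ j, (spin (x j) * (∑ i, J i j * (4 * (p i * (1 - p i)) * spin (x i) * a i))
        + ∑ i, r i j * a i) ^ 2 ≤ 2 * (∑ i, J i j * (4 * (p i * (1 - p i)) * spin (x i) * a i)) ^ 2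
        + 2 * (∑ i, r i j * a i) ^ 2 := by
      intro j
      refine add_sq_le.trans (le_of_eq ?_)
      rw [mul_pow, spin_sq]; ring
    refine (sum_le_sum fun j _ => c4 j).trans ?_
    rw [sum_add_distrib, ← mul_sum, ← mul_sum]
    linarith
  have bC : ∑ j, (∑ i, δ i j * Δ i j) ^ 2 ≤ 576 * V := by
    rw [hV, mul_sum]
    refine sum_le_sum fun j _ => ?_
    refine (sum_sq_le_sum_mul_sum_of_sq_le_mul univ (f := fun i => 576 * J i j ^ 2)
      (g := fun i => p i * Δ i j ^ 2) (fun i _ => by positivity)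
      (fun i _ => mul_nonneg (p0 i).le (sq_nonneg _)) fun i _ => ?_).trans ?_
    · have : δ i j ^ 2 ≤ 576 * p i * J i j ^ 2 := by
        by_cases h : i = j
        · have := p0 i
          simp only [hδ, if_pos h]; norm_num; positivity
        · simp only [hδ, if_neg h]; exact (hp i j x h).1
      nlinarith [mul_le_mul_of_nonneg_right this (sq_nonneg (Δ i j))]
    · refine mul_le_mul_of_nonneg_right ?_
        (sum_nonneg fun i _ => mul_nonneg (p0 i).le (sq_nonneg _))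
      rw [← mul_sum]; linarith [row j]
  have hN0 : 0 < N := by linarith
  have pt : ∀ A B C : ℝ, (A + B / N + -C / N) ^ 2
      ≤ (1 + 4608 / N) * A ^ 2 + (4 / (4608 * N)) * B ^ 2 + (4 / (4608 * N)) * C ^ 2 := by
    intro A B C
    have e : (1 + 4608 / N) * A ^ 2 + (4 / (4608 * N)) * B ^ 2 + (4 / (4608 * N)) * C ^ 2
        - (A + B / N + -C / N) ^ 2 = ((4608 * A - (B - C)) ^ 2 * N + 2 * N * (B + C) ^ 2
          + (N - 4608) * (B - C) ^ 2) / (4608 * N ^ 2) := by field_simp; ring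
    have : 0 ≤ N - 4608 := by linarith
    have : 0 ≤ ((4608 * A - (B - C)) ^ 2 * N + 2 * N * (B + C) ^ 2
      + (N - 4608) * (B - C) ^ 2) / (4608 * N ^ 2) := by positivity
    linarith
  simp only [Gam, dec]
  refine (sum_le_sum fun j _ => pt _ _ _).trans ?_
  rw [sum_add_distrib, sum_add_distrib, ← mul_sum, ← mul_sum, ← mul_sum]
  have f1 := mul_le_mul_of_nonneg_left bA (by positivity : 0 ≤ 1 + 4608 / N)
  have f2 := mul_le_mul_of_nonneg_left bB (by positivity : 0 ≤ 4 / (4608 * N))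
  have f3 := mul_le_mul_of_nonneg_left bC (by positivity : 0 ≤ 4 / (4608 * N))
  have f4 : 4 / (4608 * N) * (576 * V) = V / (2 * N) := by field_simp; ring
  have f5 : 0 ≤ 4608 / N * (V / (2 * N)) := by positivity
  have f6 : 4 / (4608 * N) * (90000 * G) ≤ 392 / N * G := by
    rw [← mul_assoc]
    refine mul_le_mul_of_nonneg_right ?_ (a0.trans G0)
    rw [div_mul_eq_mul_div, div_le_div_iff₀ (by positivity) hN0]; nlinarith
  have f7 : (1 + 5000 / N) * G = (1 + 4608 / N) * G + 392 / N * G := by ring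
  nlinarith

lemma pf_wt {J : Matrix ι ι ℝ} (hs : ∀ i j, J i j = J j i) (hd : ∀ i, J i i = 0)
    (h4 : ∀ i j, |J i j| ≤ 1 / 4) {c : ℝ} (hc : 0 < c) (i j : ι) (x : ι → Bool) (hij : i ≠ j) :
    (pf (fun x => c * wt J 0 x) i (fl j x) - pf (fun x => c * wt J 0 x) i x) ^ 2
      ≤ 576 * pf (fun x => c * wt J 0 x) i x * J i j ^ 2 ∧
    |pf (fun x => c * wt J 0 x) i (fl j x) - pf (fun x => c * wt J 0 x) i x
      - 4 * (pf (fun x => c * wt J 0 x) i x * (1 - pf (fun x => c * wt J 0 x) i x))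
        * (spin (x i) * spin (x j)) * J i j| ≤ 208 * J i j ^ 2 := by
  have e : ∀ x, pf (fun x => c * wt J 0 x) i x = 1 / (1 + exp (2 * (spin (x i) * lf J 0 x i))) := by
    intro x
    have := wt_pos J 0 x
    have := exp_pos (2 * (spin (x i) * lf J 0 x i))
    simp only [pf, wt_fl hs hd, neg_mul, Real.exp_neg]
    field_simp; ring
  set y := -4 * (spin (x i) * spin (x j)) * J i j with hy
  have hy1 : |y| ≤ 1 := by
    rw [hy, abs_mul, abs_mul, abs_mul, abs_spin, abs_spin]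
    norm_num; linarith [h4 i j]
  have hy2 : y ^ 2 = 16 * J i j ^ 2 := by rw [hy, mul_pow, mul_pow, mul_pow, spin_sq, spin_sq]; ring
  have e2 : exp (2 * (spin (fl j x i) * lf J 0 (fl j x) i))
      = exp (2 * (spin (x i) * lf J 0 x i)) * exp y := by
    rw [← Real.exp_add, fl_ne hij, lf_fl, hy]; congr 1; ring
  obtain ⟨a, b⟩ := logistic (exp_pos (2 * (spin (x i) * lf J 0 x i))) hy1
  rw [e, e, e2]
  rw [hy2] at a b
  refine ⟨by linarith, le_trans (le_of_eq ?_) (b.trans (by linarith))⟩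
  congr 1; rw [hy]; ring

end Vale.Agent.P150
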