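import Vale.Agent.P150.Ent

namespace Vale.Agent.P150

open Finset Real

section flip
variable {ι : Type} [DecidableEq ι]

def fl (i : ι) (x : ι → Bool) : ι → Bool := Function.update x i (!x i)

lemma fl_self (i : ι) (x : ι → Bool) : fl i x i = !x i := by simp [fl]

lemma fl_ne {i j : ι} (h : j ≠ i) (x : ι → Bool) : fl i x j = x j := by simp [fl, h]

lemma fl_fl (i : ι) (x : ι → Bool) : fl i (fl i x) = x := by
  funext j
  by_cases h : j = i
  · subst h; simp [fl]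
  · simp [fl, h]

lemma fl_comm (i j : ι) (x : ι → Bool) : fl i (fl j x) = fl j (fl i x) := by
  by_cases hij : i = j
  · rw [hij]
  funext k
  by_cases h : k = i
  · subst h; rw [fl_self, fl_ne hij, fl_ne hij, fl_self]
  · by_cases h2 : k = j
    · subst h2; rw [fl_self, fl_ne h, fl_ne h, fl_self]
    · rw [fl_ne h, fl_ne h2, fl_ne h2, fl_ne h]

lemma spin_not (b : Bool) : spin (!b) = -spin b := by cases b <;> simp [spin]

lemma spin_sq (b : Bool) : spin b ^ 2 = 1 := by cases b <;> simp [spin]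

lemma spin_mul (b : Bool) : spin b * spin b = 1 := by cases b <;> simp [spin]

lemma abs_spin (b : Bool) : |spin b| = 1 := by cases b <;> simp [spin]

lemma spin_fl (i : ι) (x : ι → Bool) : spin (fl i x i) = -spin (x i) := by rw [fl_self, spin_not]

lemma sum_fl [Fintype ι] (i : ι) (F : (ι → Bool) → ℝ) : ∑ x, F (fl i x) = ∑ x, F x :=
  Equiv.sum_comp (Function.Involutive.toPerm (fl i) (fl_fl i)) F

lemma const_of_fl [Fintype ι] {g : (ι → Bool) → ℝ} (h : ∀ i x, g (fl i x) = g x) (x y : ι → Bool) :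
    g x = g y := by
  have key : ∀ S : Finset ι, g (S.piecewise y x) = g x := by
    intro S
    induction S using Finset.induction_on with
    | empty => simp
    | insert i S hi ih =>
      rw [← ih, Finset.piecewise_insert]
      by_cases e : y i = S.piecewise y x i
      · rw [e, Function.update_eq_self]
      · rw [← h i (S.piecewise y x)]
        congr 2
        cases h1 : y i <;> cases h2 : S.piecewise y x i <;> simp_all
  rw [← key univ]; simp

lemma sum_spin_sq [Fintype ι] (v : ι → ℝ) :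
    ∑ z : ι → Bool, (∑ k, spin (z k) * v k) ^ 2 = 2 ^ Fintype.card ι * ∑ k, v k ^ 2 := by
  have h : ∀ k l : ι, ∑ z : ι → Bool, spin (z k) * spin (z l)
      = if k = l then 2 ^ Fintype.card ι else 0 := by
    intro k l
    split_ifs with e
    · subst e; simp [spin_mul]
    · have := sum_fl k fun z => spin (z k) * spin (z l)
      simp only [spin_fl, fl_ne (Ne.symm e), neg_mul, sum_neg_distrib] at this
      linarith
  have e : ∀ z : ι → Bool, (∑ k, spin (z k) * v k) ^ 2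
      = ∑ k, ∑ l, v k * v l * (spin (z k) * spin (z l)) := by
    intro z
    rw [sq, sum_mul_sum]
    exact sum_congr rfl fun k _ => sum_congr rfl fun l _ => by ring
  simp only [e]
  rw [sum_comm, mul_sum]
  refine sum_congr rfl fun k _ => ?_
  rw [sum_comm]
  simp only [← mul_sum, h]
  simp [sq, mul_comm]

end flip

variable {X κ : Type} [Fintype X] [Nonempty X] [Fintype κ] [DecidableEq κ]

noncomputable def ez (y : X → κ → ℝ) (ε : ℝ) (z : κ → Bool) (x : X) : ℝ :=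
  exp (ε * ∑ k, spin (z k) * y x k - ε ^ 2 * (∑ k, y x k ^ 2) / 2)

omit [Fintype X] [Nonempty X] in
lemma sum_ez (y : X → κ → ℝ) (ε : ℝ) (x : X) : ∑ z, ez y ε z x
    = 2 ^ Fintype.card κ * ∏ k, (cosh (ε * y x k) * exp (-((ε * y x k) ^ 2 / 2))) := by
  have e : ∀ z, ez y ε z x = ∏ k, exp (spin (z k) * (ε * y x k) - (ε * y x k) ^ 2 / 2) := by
    intro z
    rw [ez, ← Real.exp_sum]
    congr 1
    simp only [mul_sum, sum_div, ← sum_sub_distrib]
    exact sum_congr rfl fun k _ => by ring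
  simp only [e]
  rw [← Fintype.piFinset_univ, ← Finset.prod_univ_sum (fun _ => (univ : Finset Bool))
    (fun k b => exp (spin b * (ε * y x k) - (ε * y x k) ^ 2 / 2)), ← Finset.card_univ,
    ← Finset.prod_const, ← prod_mul_distrib]
  refine prod_congr rfl fun k _ => ?_
  simp only [Fintype.univ_bool, mem_singleton, Bool.true_eq_false, not_false_eq_true, sum_insert,
    sum_singleton, spin, if_true, Bool.false_eq_true, if_false, Real.cosh_eq, sub_eq_add_neg,
    Real.exp_add, one_mul, neg_mul]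
  ring

lemma cosh_exp_le (u : ℝ) : cosh u * exp (-(u ^ 2 / 2)) ≤ 1 := by
  rw [Real.exp_neg, ← div_eq_mul_inv, div_le_one (exp_pos _)]
  exact cosh_le_exp_half_sq u

lemma cosh_exp_ge (u : ℝ) : 1 - u ^ 4 / 4 ≤ cosh u * exp (-(u ^ 2 / 2)) := by
  have h1 : 1 + u ^ 2 / 2 ≤ cosh u := by
    have e : cosh u = cosh (2 * (u / 2)) := by congr 1; ring
    have h : (u / 2) ^ 2 ≤ sinh (u / 2) ^ 2 := by
      rw [sq_le_sq, Real.abs_sinh]
      exact (Real.self_le_sinh_iff.2 (abs_nonneg _))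
    rw [e, Real.cosh_two_mul, Real.cosh_sq']
    nlinarith
  have h2 := Real.add_one_le_exp (-(u ^ 2 / 2))
  have h3 := mul_le_mul_of_nonneg_right h1 (exp_pos (-(u ^ 2 / 2))).le
  have h4 := mul_le_mul_of_nonneg_left h2 (by positivity : 0 ≤ 1 + u ^ 2 / 2)
  nlinarith

lemma one_sub_le_prod {α : Type} (s : Finset α) (p a : α → ℝ) (h0 : ∀ k, 0 ≤ p k)
    (ha : ∀ k, 0 ≤ a k) (h : ∀ k, 1 - a k ≤ p k) : 1 - ∑ k ∈ s, a k ≤ ∏ k ∈ s, p k := by
  classical
  induction s using Finset.induction_on with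
  | empty => simp
  | insert i S hi ih =>
    rw [sum_insert hi, prod_insert hi]
    have hs : 0 ≤ ∑ k ∈ S, a k := sum_nonneg fun k _ => ha k
    have hP : 0 ≤ ∏ k ∈ S, p k := prod_nonneg fun k _ => h0 k
    by_cases c : 0 ≤ 1 - a i
    · have := mul_le_mul_of_nonneg_right (h i) hP
      have := mul_le_mul_of_nonneg_left ih c
      nlinarith [ha i]
    · have := mul_nonneg (h0 i) hP
      linarith

omit [Fintype X] [Nonempty X] in
lemma sum_ez_le (y : X → κ → ℝ) (ε : ℝ) (x : X) : ∑ z, ez y ε z x ≤ 2 ^ Fintype.card κ := by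
  rw [sum_ez]
  refine mul_le_of_le_one_right (by positivity) ?_
  exact prod_le_one (fun k _ => (mul_pos (cosh_pos _) (exp_pos _)).le) fun k _ => cosh_exp_le _

omit [Fintype X] [Nonempty X] in
lemma sum_ez_ge (y : X → κ → ℝ) (ε : ℝ) (x : X) {T : ℝ} (h2 : ∑ k, y x k ^ 2 ≤ T) :
    2 ^ Fintype.card κ * (1 - ε ^ 4 * T ^ 2 / 4) ≤ ∑ z, ez y ε z x := by
  rw [sum_ez]
  refine mul_le_mul_of_nonneg_left ?_ (by positivity)
  refine le_trans ?_ (one_sub_le_prod univ _ (fun k => (ε * y x k) ^ 4 / 4)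
    (fun k => (mul_pos (cosh_pos _) (exp_pos _)).le) (fun k => by positivity)
    fun k => cosh_exp_ge _)
  have h3 : ∑ k, (y x k ^ 2) ^ 2 ≤ (∑ k, y x k ^ 2) ^ 2 :=
    Finset.sum_sq_le_sq_sum_of_nonneg fun k _ => sq_nonneg _
  have h4 : (∑ k, y x k ^ 2) ^ 2 ≤ T ^ 2 :=
    pow_le_pow_left₀ (sum_nonneg fun k _ => sq_nonneg _) h2 2
  have e : ∑ k, (ε * y x k) ^ 4 / 4 = ε ^ 4 * (∑ k, (y x k ^ 2) ^ 2) / 4 := by
    simp only [mul_sum, sum_div]; exact sum_congr rfl fun k _ => by ring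
  rw [e]
  have := mul_le_mul_of_nonneg_left (h3.trans h4) (by positivity : 0 ≤ ε ^ 4)
  linarith

omit [Fintype X] [Nonempty X] [DecidableEq κ] in
lemma ez_approx (y : X → κ → ℝ) {ε T : ℝ} (z : κ → Bool) (x : X) (hT : 1 ≤ T) (hε : 0 < ε)
    (hεT : 21 * T ^ 2 * ε ≤ 1) (h1 : ∑ k, |y x k| ≤ T) (h2 : ∑ k, y x k ^ 2 ≤ T) :
    1 / 2 ≤ ez y ε z x ∧ |ez y ε z x - 1 - ε * ∑ k, spin (z k) * y x k| ≤ 5 * ε ^ 2 * T ^ 2 := by
  set s := ∑ k, spin (z k) * y x k with hs
  set q := ∑ k, y x k ^ 2 with hq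
  have hq0 : 0 ≤ q := sum_nonneg fun k _ => sq_nonneg _
  have hsT : |s| ≤ T := by
    refine le_trans (abs_sum_le_sum_abs _ _) (le_trans (le_of_eq ?_) h1)
    exact sum_congr rfl fun k _ => by rw [abs_mul, abs_spin, one_mul]
  have hεT1 : ε * T ≤ 1 / 21 := by nlinarith [mul_pos hε (by linarith : 0 < T)]
  have hε1 : ε ≤ 1 := by nlinarith
  have hεq : ε ^ 2 * q / 2 ≤ ε * T := by
    have : ε ^ 2 * q ≤ ε * T := by
      have := mul_le_mul hε1 h2 hq0 zero_le_one
      nlinarith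
    nlinarith [mul_nonneg (sq_nonneg ε) hq0]
  have hεs : |ε * s| ≤ ε * T := by rw [abs_mul, abs_of_pos hε]; gcongr
  have ht : |ε * s - ε ^ 2 * q / 2| ≤ 2 * (ε * T) := by
    have := abs_le.1 hεs
    have := mul_nonneg (sq_nonneg ε) hq0
    rw [abs_le]; constructor <;> linarith
  have h3 := Real.abs_exp_sub_one_sub_id_le (x := ε * s - ε ^ 2 * q / 2) (by linarith)
  have h4 : (ε * s - ε ^ 2 * q / 2) ^ 2 ≤ (2 * (ε * T)) ^ 2 := by
    rw [← sq_abs]; exact pow_le_pow_left₀ (abs_nonneg _) ht 2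
  have h5 := Real.add_one_le_exp (ε * s - ε ^ 2 * q / 2)
  have h6 : ε ^ 2 * q ≤ ε ^ 2 * T ^ 2 := mul_le_mul_of_nonneg_left (by nlinarith) (sq_nonneg _)
  have h7 := mul_nonneg (sq_nonneg ε) hq0
  have h8 := abs_le.1 h3
  have h9 := abs_le.1 ht
  unfold ez
  rw [← hs, ← hq]
  refine ⟨by linarith, ?_⟩
  rw [abs_le]; constructor <;> nlinarith

lemma loc_step {w f : X → ℝ} (hw : ∀ x, 0 < w x) (hf : ∀ x, 0 < f x) (y : X → κ → ℝ)
    {ε T D : ℝ} (hT : 1 ≤ T) (hε : 0 < ε) (hεT : 21 * T ^ 2 * ε ≤ 1)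
    (h1 : ∀ x, ∑ k, |y x k| ≤ T) (h2 : ∀ x, ∑ k, y x k ^ 2 ≤ T)
    (hs : ∑ k, (∑ x, w x * (f x - avg w f) * y x k) ^ 2 ≤ 2 * D * (∑ x, w x * f x) * Ent w f) :
    2 ^ Fintype.card κ * ((1 - (8 * D + 1) * ε ^ 2) * Ent w f)
      ≤ ∑ z, Ent (fun x => w x * ez y ε z x) f := by
  set ρ := avg w f with hρ
  set F := ∑ x, w x * f x with hF
  set v : κ → ℝ := fun k => ∑ x, w x * (f x - ρ) * y x k with hv
  have hρp : 0 < ρ := avg_pos hw hf
  have hFp : 0 < F := sum_pos (fun x _ => mul_pos (hw x) (hf x)) univ_nonempty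
  have hE := Ent_nonneg hw hf
  have hH := hellinger hw hf
  rw [← hρ, ← hF] at hH
  have hWF : ρ * ∑ x, w x = F := avg_mul hw f
  have key : ∀ z, ∑ x, w x * ez y ε z x * ph (f x) ρ
      - (4 * ε ^ 2 * (∑ k, spin (z k) * v k) ^ 2 / F + 400 * T ^ 4 * ε ^ 4 * Ent w f)
      ≤ Ent (fun x => w x * ez y ε z x) f := by
    intro z
    have hz : ∀ x, 0 < w x * ez y ε z x := fun x => mul_pos (hw x) (exp_pos _)
    have hap := fun x => ez_approx y z x hT hε hεT (h1 x) (h2 x)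
    rw [Ent_split hz hf hρp]
    set Wz := ∑ x, w x * ez y ε z x with hWz
    set ρz := avg (fun x => w x * ez y ε z x) f with hρz
    have hWzp : 0 < Wz := tot_pos hz
    have hW2 : (∑ x, w x) / 2 ≤ Wz := by
      rw [sum_div]
      exact sum_le_sum fun x _ => by nlinarith [(hap x).1, hw x]
    have hρW : F / 2 ≤ ρ * Wz := by rw [← hWF]; nlinarith
    have e1 : Wz * (ρz - ρ) = ε * (∑ k, spin (z k) * v k)
        + ∑ x, w x * (f x - ρ) * (ez y ε z x - 1 - ε * ∑ k, spin (z k) * y x k) := by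
      have a1 : ρz * Wz = ∑ x, w x * ez y ε z x * f x := avg_mul hz f
      have a2 := sum_sub_avg hw f
      rw [← hρ] at a2
      have a3 : ε * (∑ k, spin (z k) * v k)
          = ∑ x, w x * (f x - ρ) * (ε * ∑ k, spin (z k) * y x k) := by
        simp only [hv, mul_sum]
        rw [sum_comm]
        exact sum_congr rfl fun x _ => sum_congr rfl fun k _ => by ring
      rw [a3, ← sum_add_distrib, mul_sub, mul_comm Wz ρz, a1, hWz, sum_mul, ← sum_sub_distrib,
        ← sub_zero (∑ x, (w x * ez y ε z x * f x - w x * ez y ε z x * ρ)), ← a2, ← sum_sub_distrib]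
      exact sum_congr rfl fun x _ => by ring
    set R := ∑ x, w x * (f x - ρ) * (ez y ε z x - 1 - ε * ∑ k, spin (z k) * y x k) with hR
    have e2 : |R| ≤ 5 * ε ^ 2 * T ^ 2 * ∑ x, w x * |f x - ρ| := by
      rw [mul_sum]
      refine le_trans (abs_sum_le_sum_abs _ _) (sum_le_sum fun x _ => ?_)
      rw [abs_mul, abs_mul, abs_of_pos (hw x), mul_comm]
      exact mul_le_mul_of_nonneg_right (hap x).2 (mul_nonneg (hw x).le (abs_nonneg _))
    have e3 : R ^ 2 ≤ 100 * T ^ 4 * ε ^ 4 * (F * Ent w f) := by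
      have := pow_le_pow_left₀ (abs_nonneg _) e2 2
      rw [sq_abs, mul_pow] at this
      have := mul_le_mul_of_nonneg_left hH (sq_nonneg (5 * ε ^ 2 * T ^ 2))
      nlinarith
    have e4 : Wz * ph ρz ρ ≤ (Wz * (ρz - ρ)) ^ 2 / (ρ * Wz) := by
      have := mul_le_mul_of_nonneg_left (ph_le (avg_pos hz hf) hρp) hWzp.le
      rw [← hρz] at this
      refine this.trans (le_of_eq ?_)
      field_simp
    have e5 : (Wz * (ρz - ρ)) ^ 2 / (ρ * Wz) ≤
        (2 * (ε * ∑ k, spin (z k) * v k) ^ 2 + 200 * T ^ 4 * ε ^ 4 * (F * Ent w f)) / (F / 2) := by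
      refine div_le_div₀ (by positivity) ?_ (by positivity) hρW
      rw [e1]
      nlinarith [sq_nonneg (ε * ∑ k, spin (z k) * v k - R)]
    have e6 : (2 * (ε * ∑ k, spin (z k) * v k) ^ 2 + 200 * T ^ 4 * ε ^ 4 * (F * Ent w f)) / (F / 2)
        = 4 * ε ^ 2 * (∑ k, spin (z k) * v k) ^ 2 / F + 400 * T ^ 4 * ε ^ 4 * Ent w f := by
      field_simp; ring
    linarith
  refine le_trans ?_ (sum_le_sum fun z _ => key z)
  rw [sum_sub_distrib, sum_add_distrib, ← sum_div, ← mul_sum, sum_spin_sq, sum_const, card_univ,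
    Fintype.card_fun, Fintype.card_bool, nsmul_eq_mul, sum_comm]
  set M : ℝ := 2 ^ Fintype.card κ with hM
  have hMp : 0 < M := by positivity
  have a1 : M * (1 - ε ^ 4 * T ^ 2 / 4) * Ent w f ≤ ∑ x, ∑ z, w x * ez y ε z x * ph (f x) ρ := by
    rw [Ent, mul_sum]
    refine sum_le_sum fun x _ => ?_
    rw [← sum_mul, ← mul_sum]
    have := mul_le_mul_of_nonneg_left (sum_ez_ge y ε x (h2 x))
      (mul_nonneg (hw x).le (ph_nonneg (hf x) hρp))
    rw [← hM] at this
    linarith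
  have a2 : 4 * ε ^ 2 * (M * ∑ k, v k ^ 2) / F ≤ M * (8 * D * ε ^ 2 * Ent w f) := by
    rw [div_le_iff₀ hFp]
    have := mul_le_mul_of_nonneg_left hs (by positivity : 0 ≤ 4 * ε ^ 2 * M)
    simp only [hv]
    linarith
  have a3 : ε ^ 4 * T ^ 2 / 4 + 400 * T ^ 4 * ε ^ 4 ≤ ε ^ 2 := by
    have b1 : (21 * T ^ 2 * ε) ^ 2 ≤ 1 := by
      have : 0 ≤ 21 * T ^ 2 * ε := by positivity
      nlinarith
    have b2 : T ^ 2 ≤ T ^ 4 := pow_le_pow_right₀ hT (by norm_num)
    have b3 := mul_le_mul_of_nonneg_left b1 (sq_nonneg ε)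
    have b4 := mul_le_mul_of_nonneg_left b2 (by positivity : 0 ≤ ε ^ 4)
    have b5 : 0 ≤ ε ^ 4 * T ^ 4 := by positivity
    nlinarith
  have a4 := mul_le_mul_of_nonneg_left a3 (mul_nonneg hMp.le hE)
  push_cast
  rw [← hM]
  nlinarith

end Vale.Agent.P150
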