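import Mathlib.Analysis.SpecificLimits.Normed
import Vale.Agent.P150.GOE

namespace Vale.Agent.P150

open Finset Real MeasureTheory ProbabilityTheory Filter Topology

lemma coup_symm {n : ℕ} (g : Pair n → ℝ) (i j : Fin n) : coup g i j = coup g j i := by
  rcases lt_trichotomy i j with h | h | h
  · simp [coup, h, h.not_gt]
  · rw [h]
  · simp [coup, h, h.not_gt]

lemma coup_diag {n : ℕ} (g : Pair n → ℝ) (i : Fin n) : coup g i i = 0 := by simp [coup]

lemma sum_coup {n : ℕ} (g : Pair n → ℝ) (Φ : Fin n → Fin n → ℝ → ℝ)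
    (hs : ∀ i j a, Φ i j a = Φ j i a) (h0 : ∀ i, Φ i i 0 = 0) :
    ∑ i, ∑ j, Φ i j (coup g i j) = 2 * ∑ p : Pair n, Φ p.1.1 p.1.2 (g p) := by
  set ψ : Fin n × Fin n → ℝ := fun q => if q.1 < q.2 then Φ q.1 q.2 (coup g q.1 q.2) else 0 with hψ
  have a : ∑ p : Pair n, Φ p.1.1 p.1.2 (g p) = ∑ q, ψ q := by
    rw [hψ, ← sum_filter, sum_subtype (p := fun q : Fin n × Fin n => q.1 < q.2) _ (by simp)]
    exact sum_congr rfl fun p _ => by simp [coup, p.2]
  have b := Equiv.sum_comp (Equiv.prodComm (Fin n) (Fin n)) ψ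
  rw [a, two_mul]
  nth_rewrite 2 [← b]
  rw [← sum_add_distrib, Fintype.sum_prod_type]
  refine sum_congr rfl fun i _ => sum_congr rfl fun j _ => ?_
  rcases lt_trichotomy i j with h | h | h
  · simp [hψ, h, h.not_gt]
  · simp [hψ, h, coup_diag, h0]
  · simp [hψ, h, h.not_gt, hs i j, coup_symm g i j]

def Up {n : ℕ} (l : ℝ) (g : Pair n → ℝ) : Prop :=
  ∃ x : Fin n → ℝ, l * ∑ i, x i ^ 2 < ∑ i, ∑ j, coup g i j * (x i * x j)

lemma meas_Up {n : ℕ} (l : ℝ) : MeasurableSet {g : Pair n → ℝ | Up l g} := by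
  refine IsOpen.measurableSet ?_
  simp only [Up, Set.setOf_exists]
  refine isOpen_iUnion fun x => isOpen_lt continuous_const ?_
  refine continuous_finsetSum _ fun i _ => continuous_finsetSum _ fun j _ =>
    Continuous.mul ?_ continuous_const
  unfold coup; split_ifs <;> fun_prop

lemma goe_upper {ε : ℝ} (hε : 0 < ε) :
    Tendsto (fun n : ℕ => (gm (Pair n)).real {g | Up ((2 + 3 * ε) * √n) g}) atTop (𝓝 0) := by
  obtain ⟨r, r0, r1, hr⟩ := chi_tail hε
  have lim : Tendsto (fun n : ℕ => n * r ^ n + 16 * M6 / ε ^ 6 * ((n : ℝ)⁻¹) ^ 2) atTop (𝓝 0) := by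
    have a := tendsto_self_mul_const_pow_of_lt_one r0 r1
    have b := ((tendsto_inv_atTop_nhds_zero_nat (𝕜 := ℝ)).pow 2).const_mul (16 * M6 / ε ^ 6)
    simpa using a.add b
  refine squeeze_zero' (Eventually.of_forall fun _ => measureReal_nonneg) ?_ lim
  filter_upwards [eventually_gt_atTop 0] with n hn
  have hn' : (0 : ℝ) < n := by exact_mod_cast hn
  have hs : 0 < √(n : ℝ) := sqrt_pos.2 hn'
  have hs2 : √(n : ℝ) * √n = n := mul_self_sqrt hn'.le
  have hδ : 0 < ε * √n := by positivity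
  have a1 := Bad_prob (l := (2 + 2 * ε) * √n) (R := (1 + ε) * n) hs hδ
    (by rw [mul_div_assoc, div_sqrt]; linarith) (hr n) n le_rfl 0 (by simp; positivity)
  set A : Set (Fin n × Fin n → ℝ) := (fun Y (i : Fin n) => Y (i, i)) ⁻¹'
      {ω | (ε * √n) ^ 6 / 8 ≤ ∑ i, ω i ^ 6} with hA
  have bA : (gm _).real A ≤ n * (8 * M6 / (ε * √n) ^ 6) := by
    rw [hA, (mp_inj (fun i : Fin n => (i, i)) fun _ _ h => congrArg Prod.fst h).measureReal_preimage
      (measurableSet_le measurable_const (by fun_prop)).nullMeasurableSet]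
    refine (tail6 _ (by positivity)).trans (le_of_eq ?_)
    simp only [Fintype.card_fin]; field_simp
  rw [← (mp_inj (Subtype.val : Pair n → Fin n × Fin n) Subtype.val_injective).measureReal_preimage
    (meas_Up _).nullMeasurableSet]
  have sub : (fun (ω : Fin n × Fin n → ℝ) (a : Pair n) => ω a.1) ⁻¹'
      {g | Up ((2 + 3 * ε) * √n) g} ⊆ {Y | Bad ((2 + 2 * ε) * √n) √n 0 Y} ∪ A := by
    rintro Y ⟨x, hx⟩
    by_cases c : Y ∈ A
    · exact Or.inr c
    refine Or.inl ⟨x, ?_⟩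
    have d : ∀ i, -(ε * √n) ≤ √2 * Y (i, i) := by
      intro i
      by_contra hc
      apply c
      have h1 : ε * √n ≤ √2 * -Y (i, i) := by linarith
      have h2 := pow_le_pow_left₀ hδ.le h1 6
      rw [mul_pow √2, show √2 ^ 6 = (√2 ^ 2) ^ 3 by ring, sq_sqrt (by norm_num),
        Even.neg_pow (by decide)] at h2
      have h3 := single_le_sum (f := fun i => Y (i, i) ^ 6) (fun _ _ => by positivity) (mem_univ i)
      simp only [hA, Set.mem_preimage, Set.mem_setOf_eq]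
      linarith
    have e : ∀ i j, Sm Y i j * (x i * x j) = coup (fun a : Pair n => Y a.1) i j * (x i * x j)
        + if j = i then √2 * Y (i, i) * x i ^ 2 else 0 := by
      intro i j
      rcases lt_trichotomy i j with h | h | h
      · simp [Sm, coup, h, h.ne']
      · simp [Sm, coup, h, sq]
      · simp [Sm, coup, h, h.ne, h.not_gt]
    have f : -(ε * √n) * ∑ i, x i ^ 2 ≤ ∑ i, √2 * Y (i, i) * x i ^ 2 := by
      rw [mul_sum]
      exact sum_le_sum fun i _ => mul_le_mul_of_nonneg_right (d i) (sq_nonneg _)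
    simp only [e, sum_add_distrib, sum_ite_eq', mem_univ, if_true, Pi.zero_apply, zero_mul,
      sum_const_zero]
    norm_num
    linarith
  refine (measureReal_mono sub).trans ((measureReal_union_le _ _).trans ?_)
  have e : n * (8 * M6 / (ε * √n) ^ 6) = 8 * M6 / ε ^ 6 * ((n : ℝ)⁻¹) ^ 2 := by
    rw [mul_pow, show √(n : ℝ) ^ 6 = (√n * √n) ^ 3 by ring, hs2]; field_simp
  rw [mul_add, e] at a1
  rw [e] at bA
  linarith [show 16 * M6 / ε ^ 6 * ((n : ℝ)⁻¹) ^ 2 = 2 * (8 * M6 / ε ^ 6 * ((n : ℝ)⁻¹) ^ 2) by ring]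

lemma goe_lower (n : ℕ) (l : ℝ) :
    (gm (Pair n)).real {g | Up l (-g)} = (gm (Pair n)).real {g | Up l g} :=
  (mp_iso (I := Pair n) (-LinearMap.id) fun x => by simp).measureReal_preimage
    (meas_Up l).nullMeasurableSet

lemma six_small {c : ℝ} (hc : 0 < c) :
    Tendsto (fun n : ℕ => (gm (Pair n)).real {g | c * n ^ 3 ≤ ∑ p, g p ^ 6}) atTop (𝓝 0) := by
  have lim := (tendsto_inv_atTop_nhds_zero_nat (𝕜 := ℝ)).const_mul (M6 / c)
  rw [mul_zero] at lim
  refine squeeze_zero' (Eventually.of_forall fun _ => measureReal_nonneg) ?_ lim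
  filter_upwards [eventually_gt_atTop 0] with n hn
  have hn' : (0 : ℝ) < n := by exact_mod_cast hn
  refine (tail6 _ (by positivity)).trans ?_
  have h1 : (Fintype.card (Pair n) : ℝ) ≤ n * n := by
    have := Fintype.card_subtype_le fun p : Fin n × Fin n => p.1 < p.2
    rw [Fintype.card_prod, Fintype.card_fin] at this
    exact_mod_cast this
  have h2 : 0 ≤ M6 := integral_nonneg fun a => by positivity
  calc _ ≤ n * n * M6 / (c * n ^ 3) := by gcongr
    _ = _ := by field_simp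

noncomputable def Jm {n : ℕ} (β : ℝ) (g : Pair n → ℝ) : Matrix (Fin n) (Fin n) ℝ :=
  fun i j => β / √n * coup g i j

def Nice {n : ℕ} (l η : ℝ) (J : Matrix (Fin n) (Fin n) ℝ) : Prop :=
  (∀ v : Fin n → ℝ, |∑ i, ∑ j, J i j * (v i * v j)| ≤ l * ∑ i, v i ^ 2) ∧
    ∑ i, ∑ j, J i j ^ 6 ≤ η ^ 2

theorem whp {β l η : ℝ} (h0 : 0 ≤ β) (hl : 2 * β < l) (hη : 0 < η) :
    Tendsto (fun n : ℕ => disorder n {g | ¬ Nice l η (Jm β g)}) atTop (𝓝 0) := by
  set ε := (l - 2 * β) / (3 * (β + 1)) with hε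
  have hεp : 0 < ε := div_pos (by linarith) (by positivity)
  have hε2 : (2 + 3 * ε) * β ≤ l := by
    have : 3 * ε * (β + 1) = l - 2 * β := by rw [hε]; field_simp
    nlinarith
  set c := η ^ 2 / (2 * (β ^ 6 + 1)) with hc
  have hcp : 0 < c := by positivity
  have lim := ((goe_upper hεp).add (goe_upper hεp)).add (six_small hcp)
  change Tendsto (fun n : ℕ => gm (Pair n) {g | ¬ Nice l η (Jm β g)}) atTop (𝓝 0)
  rw [← ENNReal.tendsto_toReal_zero_iff fun n => measure_ne_top (gm (Pair n)) _]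
  refine squeeze_zero' (Eventually.of_forall fun _ => ENNReal.toReal_nonneg) ?_
    (by simpa using lim)
  filter_upwards [eventually_gt_atTop 0] with n hn
  have hn' : (0 : ℝ) < n := by exact_mod_cast hn
  have hs : 0 < √(n : ℝ) := sqrt_pos.2 hn'
  nth_rewrite 2 [← goe_lower]
  refine le_trans (measureReal_mono (μ := gm (Pair n)) (s₂ := {g | Up ((2 + 3 * ε) * √n) g}
    ∪ {g | Up ((2 + 3 * ε) * √n) (-g)} ∪ {g | c * n ^ 3 ≤ ∑ p, g p ^ 6}) ?_)
    ((measureReal_union_le _ _).trans (add_le_add (measureReal_union_le _ _) le_rfl))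
  intro g hg
  by_contra hc
  simp only [Set.mem_union, Set.mem_setOf_eq, not_or, Up, not_exists, not_lt, not_le] at hc
  obtain ⟨⟨c1, c2⟩, c3⟩ := hc
  apply hg
  constructor
  · intro v
    have e : ∑ i, ∑ j, Jm β g i j * (v i * v j) = β / √n * ∑ i, ∑ j, coup g i j * (v i * v j) := by
      simp only [Jm, mul_sum, mul_assoc]
    have e2 : ∑ i, ∑ j, coup (-g) i j * (v i * v j) = -∑ i, ∑ j, coup g i j * (v i * v j) := by
      simp only [← sum_neg_distrib]
      refine sum_congr rfl fun i _ => sum_congr rfl fun j _ => ?_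
      unfold coup; split_ifs <;> simp
    have b : |∑ i, ∑ j, coup g i j * (v i * v j)| ≤ (2 + 3 * ε) * √n * ∑ i, v i ^ 2 := by
      have := c2 v
      rw [e2] at this
      exact abs_le.2 ⟨by linarith, c1 v⟩
    have hv : 0 ≤ ∑ i, v i ^ 2 := sum_nonneg fun _ _ => sq_nonneg _
    rw [e, abs_mul, abs_of_nonneg (by positivity)]
    refine (mul_le_mul_of_nonneg_left b (by positivity)).trans ?_
    rw [show β / √n * ((2 + 3 * ε) * √n * ∑ i, v i ^ 2) = (2 + 3 * ε) * β * ∑ i, v i ^ 2 by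
      field_simp]
    exact mul_le_mul_of_nonneg_right hε2 hv
  · have e := sum_coup g (fun _ _ a => a ^ 6) (fun _ _ _ => rfl) fun _ => by simp
    simp only [Jm, mul_pow, ← mul_sum, e]
    rw [div_pow, show √(n : ℝ) ^ 6 = (√n * √n) ^ 3 by ring, mul_self_sqrt hn'.le]
    have a : β ^ 6 / n ^ 3 * (2 * ∑ p, g p ^ 6) ≤ β ^ 6 / n ^ 3 * (2 * (c * n ^ 3)) := by gcongr
    refine a.trans ?_
    have b : c * (2 * (β ^ 6 + 1)) = η ^ 2 := by rw [‹c = _›]; field_simp
    rw [show β ^ 6 / n ^ 3 * (2 * (c * n ^ 3)) = 2 * c * β ^ 6 by field_simp]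
    nlinarith

end Vale.Agent.P150
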