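import Vale.Agent.P150.Mix
import Vale.Agent.P150.Whp

namespace Vale.Agent.P150

open Finset Real MeasureTheory Filter Topology
open scoped ENNReal NNReal

variable {n : ℕ} (β : ℝ) (g : Pair n → ℝ)

lemma Jm_symm (i j : Fin n) : Jm β g i j = Jm β g j i := by simp only [Jm, coup_symm g i j]

lemma Jm_diag (i : Fin n) : Jm β g i i = 0 := by simp [Jm, coup_diag]

lemma energy_eq (x : Cfg n) :
    energy β g x = (∑ i, ∑ j, Jm β g i j * (spin (x i) * spin (x j))) / 2 := by
  have := sum_coup g (fun i j a => a * (spin (x i) * spin (x j))) (fun _ _ _ => by ring)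
    fun _ => by simp
  simp only [Jm, mul_assoc, ← mul_sum, energy] at this ⊢
  simp only [mul_sum] at this
  simp only [mul_sum, this]
  simp only [← mul_sum]
  ring

lemma wt_eq (x : Cfg n) : wt (Jm β g) 0 x = exp (energy β g x) := by
  simp [wt, energy_eq, mul_assoc]

lemma Z_pos : 0 < ∑ y : Cfg n, exp (energy β g y) := tot_pos fun _ => exp_pos _

lemma gibbs_pos (x : Cfg n) : 0 < gibbs β g x := div_pos (exp_pos _) (Z_pos β g)

lemma gibbs_sum : ∑ x, gibbs β g x = 1 := by
  simp only [gibbs, ← sum_div]; exact div_self (Z_pos β g).ne'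

lemma gibbs_eq : gibbs β g = fun x => (∑ y : Cfg n, exp (energy β g y))⁻¹ * wt (Jm β g) 0 x := by
  funext x; rw [wt_eq, gibbs, div_eq_inv_mul]

lemma field_eq (x : Cfg n) (i : Fin n) : field β g x i = lf (Jm β g) 0 x i := by
  rw [field, sum_erase _ (by simp [coup_diag])]
  simp [lf, Jm, mul_sum, mul_assoc]

lemma gibbs_fl (x : Cfg n) (i : Fin n) :
    gibbs β g (fl i x) = gibbs β g x * exp (-2 * (spin (x i) * field β g x i)) := by
  rw [gibbs_eq, field_eq]
  simp only [wt_fl (Jm_symm β g) (Jm_diag β g), mul_assoc]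

lemma heat_mulVec (i : Fin n) (f : Cfg n → ℝ) (x : Cfg n) :
    (heat β g i).mulVec f x = Qop (gibbs β g) i f x := by
  have hne : x ≠ fl i x := fun h => by
    have := congrFun h i
    rw [fl_self] at this
    cases hx : x i <;> simp [hx] at this
  simp only [Matrix.mulVec, dotProduct]
  rw [← sum_subset (subset_univ {x, fl i x}), sum_pair hne]
  · have c1 : ∀ j, j ≠ i → fl i x j = x j := fun j hj => fl_ne hj x
    simp only [heat, Matrix.of_apply, implies_true, if_true, if_pos c1, spin_fl, Qop, gibbs_fl]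
    have hp := gibbs_pos β g x
    set h := field β g x i
    have e : 2 * cosh h = exp (spin (x i) * h) + exp (-(spin (x i) * h)) := by
      rw [Real.cosh_eq]
      cases x i <;> simp [spin] <;> ring
    have e2 : exp (-2 * (spin (x i) * h)) = exp (-(spin (x i) * h)) / exp (spin (x i) * h) := by
      rw [← Real.exp_sub]; congr 1; ring
    rw [e, e2, neg_mul]
    have := exp_pos (spin (x i) * h)
    have := exp_pos (-(spin (x i) * h))
    field_simp
  · intro y _ hy
    simp only [heat, Matrix.of_apply]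
    rw [if_neg, zero_mul]
    intro h
    apply hy
    by_cases e : y i = x i
    · have : y = x := funext fun j => by
        by_cases c : j = i
        · rw [c, e]
        · exact h j c
      simp [this]
    · have : y = fl i x := funext fun j => by
        by_cases c : j = i
        · rw [c, fl_self]
          cases h1 : y i <;> cases h2 : x i <;> simp_all
        · rw [h j c, fl_ne c]
      simp [this]

lemma dirichlet_eq (f : Cfg n → ℝ) : dirichlet β g f
    = ∑ i, ∑ x, gibbs β g x * (f x - Qop (gibbs β g) i f x) ^ 2 := by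
  simp only [dir_eq (gibbs_pos β g), dirichlet, gen, Matrix.neg_mulVec, Matrix.sum_mulVec,
    Matrix.sub_mulVec, Matrix.one_mulVec, Pi.neg_apply, Finset.sum_apply, Pi.sub_apply, heat_mulVec,
    ← sum_neg_distrib, neg_sub, mul_sum]
  exact sum_comm

variable {β g}

lemma tensP {l η : ℝ} (hl : 0 ≤ l) (hη : 0 ≤ η) (hlη : l + η < 1) (h : Nice l η (Jm β g)) :
    TensP (gibbs β g) (exp (32 * (1 - (l + η))⁻¹ + 2)) := by
  intro f G hf hG hi
  have := tens (Jm_symm β g) (Jm_diag β g) hl hη hlη h.1 h.2 0 hf hG hi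
  have hc := inv_pos.2 (Z_pos β g)
  rw [gibbs_eq, Ent_smul _ _ hc.ne']
  refine (mul_le_mul_of_nonneg_left this hc.le).trans (le_of_eq ?_)
  simp only [Lam, mul_sum]
  exact sum_congr rfl fun _ _ => sum_congr rfl fun _ _ => by ring

lemma log_gibbs {l η : ℝ} (hl : l ≤ 1) (h : Nice l η (Jm β g)) (x : Cfg n) :
    -log (gibbs β g x) ≤ 2 * n := by
  have a : ∀ y : Cfg n, |energy β g y| ≤ n / 2 := fun y => by
    have := h.1 fun i => spin (y i)
    simp only [spin_sq, sum_const, card_univ, Fintype.card_fin, nsmul_eq_mul, mul_one] at this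
    rw [energy_eq, abs_div, abs_two]
    have := mul_le_of_le_one_left (Nat.cast_nonneg (α := ℝ) n) hl
    linarith
  have b : ∑ y : Cfg n, exp (energy β g y) ≤ exp (n + n / 2) := by
    refine (sum_le_sum fun y _ => exp_le_exp.2 (abs_le.1 (a y)).2).trans ?_
    rw [sum_const, card_univ, Fintype.card_fun, Fintype.card_bool, Fintype.card_fin, nsmul_eq_mul,
      Real.exp_add]
    refine mul_le_mul_of_nonneg_right ?_ (exp_pos _).le
    rw [← mul_one (n : ℝ), Real.exp_nat_mul]
    push_cast
    exact pow_le_pow_left₀ (by norm_num) (by linarith [Real.add_one_le_exp 1]) n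
  have c := Real.log_le_log (Z_pos β g) b
  rw [gibbs, Real.log_div (exp_pos _).ne' (Z_pos β g).ne', Real.log_exp]
  rw [Real.log_exp] at c
  linarith [(abs_le.1 (a x)).1]

lemma tmix_le {l η C : ℝ} (hn : 2 ≤ n) (hl : l ≤ 1) (h : Nice l η (Jm β g)) (hC : 1 ≤ C)
    (hT : TensP (gibbs β g) C) : tmix β g ≤ ENNReal.ofReal (8 * C * log n) := by
  haveI : Nonempty (Fin n) := ⟨⟨0, by omega⟩⟩
  have hn' : (2 : ℝ) ≤ n := by exact_mod_cast hn
  have ht : 0 ≤ 8 * C * log n := by
    have := Real.log_nonneg (by linarith : (1 : ℝ) ≤ n)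
    positivity
  refine iInf₂_le_of_le (8 * C * log n).toNNReal (fun x => ?_) le_rfl
  have a := tv_exp (gibbs_pos β g) (gibbs_sum β g) hC hT (heat_mulVec β g) x (log_gibbs hl h x) ht
  rw [Real.coe_toNNReal _ ht, tv, kernel, gen]
  have e : exp (-(8 * C * log n / (2 * C))) = ((n : ℝ) ^ 4)⁻¹ := by
    rw [show 8 * C * log n / (2 * C) = (4 : ℕ) * log n by push_cast; field_simp; ring,
      Real.exp_neg, Real.exp_nat_mul, Real.exp_log (by linarith)]
  have b : √(2 * n) ≤ (n : ℝ) := by
    rw [Real.sqrt_le_left (by linarith)]; nlinarith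
  have c : √(2 * n) * ((n : ℝ) ^ 4)⁻¹ ≤ 1 / 8 := by
    rw [← div_eq_mul_inv, div_le_iff₀ (by positivity)]
    have := pow_le_pow_left₀ (by norm_num) hn' 3
    nlinarith
  rw [e] at a
  linarith

lemma gap_bounds {C : ℝ} (hn : 1 ≤ n) (hC : 0 < C) (hT : TensP (gibbs β g) C) :
    1 / (10 * C) ≤ gap β g ∧ gap β g ≤ 1 := by
  have hw := gibbs_pos β g
  have lb : ∀ r ∈ {r | ∃ f : Cfg n → ℝ, var β g f ≠ 0 ∧ r = dirichlet β g f / var β g f},
      1 / (10 * C) ≤ r := by
    rintro r ⟨f, hf, rfl⟩
    have hv : 0 < var β g f :=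
      lt_of_le_of_ne (sum_nonneg fun x _ => mul_nonneg (hw x).le (sq_nonneg _)) hf.symm
    have := poincare hw (gibbs_sum β g) hC.le hT f
    rw [← dirichlet_eq] at this
    rw [div_le_div_iff₀ (by positivity) hv, one_mul, mul_comm]
    exact this
  set i : Fin n := ⟨0, hn⟩
  set f : Cfg n → ℝ := fun x => spin (x i) with hf
  have m : ∑ y, gibbs β g y * f y = 0 := by
    have s : ∑ x : Cfg n, gibbs β g (fun j => !x j) * f (fun j => !x j) = _ :=
      Equiv.sum_comp (Function.Involutive.toPerm (fun (x : Cfg n) j => !x j)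
        fun x => funext fun j => Bool.not_not _) fun y => gibbs β g y * f y
    have e : ∀ x : Cfg n, gibbs β g (fun j => !x j) = gibbs β g x := fun x => by
      simp only [gibbs, energy, spin_not, mul_neg, neg_mul, neg_neg]
    simp only [hf, e, spin_not, mul_neg, sum_neg_distrib] at s ⊢
    linarith
  have v : var β g f = 1 := by
    rw [var, m]
    simp [hf, spin_sq, gibbs_sum]
  have d : dirichlet β g f ≤ 1 := by
    rw [dirichlet_eq, sum_eq_single i ?_ (by simp), dir_eq hw]
    · have a := Qop_adj hw i f (Qop_fl (gibbs β g) i f)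
      have b : 0 ≤ ∑ x, gibbs β g x * (Qop (gibbs β g) i f x * Qop (gibbs β g) i f x) :=
        sum_nonneg fun x _ => mul_nonneg (hw x).le (mul_self_nonneg _)
      simp only [mul_sub, sum_sub_distrib, ← a]
      simp only [hf, spin_mul, mul_one, gibbs_sum] at b ⊢
      linarith
    · intro j _ hj
      refine sum_eq_zero fun x _ => ?_
      have := (add_pos (hw x) (hw (fl j x))).ne'
      have e : Qop (gibbs β g) j f x = f x := by
        simp only [Qop, hf, fl_ne hj.symm]; field_simp
      simp [e]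
  have mem : dirichlet β g f / var β g f ∈
      {r | ∃ f : Cfg n → ℝ, var β g f ≠ 0 ∧ r = dirichlet β g f / var β g f} :=
    ⟨f, by rw [v]; norm_num, rfl⟩
  refine ⟨le_csInf ⟨_, mem⟩ lb, (csInf_le ⟨_, lb⟩ mem).trans ?_⟩
  rwa [v, div_one]

theorem upper_main {β : ℝ} (h0 : 0 ≤ β) (h : β < 1 / 2) : ∃ c C : ℝ, 0 < c ∧
    Tendsto (fun n : ℕ => disorder n {g | ¬ (c ≤ gap β g ∧ gap β g ≤ 1 ∧
      tmix β g ≤ ENNReal.ofReal (C * log n))}) atTop (𝓝 0) := by
  set η := (1 - 2 * β) / 3 with hη
  set l := 2 * β + η with hl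
  have hηp : 0 < η := by linarith
  set C := exp (32 * (1 - (l + η))⁻¹ + 2) with hC
  have hlη : l + η < 1 := by linarith
  have hC1 : 1 ≤ C := by
    have := inv_pos.2 (sub_pos.2 hlη)
    exact Real.one_le_exp (by positivity)
  refine ⟨1 / (10 * C), 8 * C, by positivity, ?_⟩
  refine tendsto_of_tendsto_of_tendsto_of_le_of_le' tendsto_const_nhds
    (whp (l := l) h0 (by linarith) hηp) (Eventually.of_forall fun _ => zero_le) ?_
  filter_upwards [eventually_ge_atTop 2] with n hn
  refine measure_mono fun g hg hN => hg ?_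
  have hT := tensP (by linarith) hηp.le hlη hN
  have a := gap_bounds (by omega) (by linarith) hT
  exact ⟨a.1, a.2, tmix_le hn (by linarith) hN hC1 hT⟩

end Vale.Agent.P150
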